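import Vale.Agent.P329.Defs

/-! Classes of languages closed under the star-free operations. -/

namespace Vale.Agent.P329

/-- concatenation of sets of words -/
def cat {T : Type} (L K : Set (List T)) : Set (List T) := {w | ∃ u ∈ L, ∃ v ∈ K, w = u ++ v}

/-- Kleene star of a set of words -/
def st {T : Type} (L : Set (List T)) : Set (List T) :=
  {w | ∃ l : List (List T), (∀ z ∈ l, z ∈ L) ∧ l.flatten = w}

/-- `L` has generalized star height at most `k`. -/
def Ht {T : Type} (k : ℕ) (L : Set (List T)) : Prop :=
  ∃ e : GRE T, (∀ w, w ∈ e.lang ↔ w ∈ L) ∧ e.sh ≤ k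

/-- A class of languages closed under the star-free operations. -/
structure Cls (T : Type) where
  P : Set (List T) → Prop
  empty : P ∅
  eps : P {[]}
  chr : ∀ a, P {[a]}
  union : ∀ {L K}, P L → P K → P (L ∪ K)
  mul : ∀ {L K}, P L → P K → P (cat L K)
  compl : ∀ {L}, P L → P Lᶜ

/-- the class counts lengths modulo every positive integer -/
def Cls.Mod {T : Type} (C : Cls T) : Prop := ∀ q, 0 < q → C.P {w | q ∣ w.length}

/-- `D` contains `C` and all stars of members of `C` -/
def Cls.Up {T : Type} (C D : Cls T) : Prop :=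
  (∀ L, C.P L → D.P L) ∧ (∀ L, C.P L → D.P (st L))

namespace Cls
variable {T : Type} (C : Cls T)

theorem congr {L K : Set (List T)} (h : C.P L) (hk : ∀ w, w ∈ K ↔ w ∈ L) : C.P K := by
  have : K = L := Set.ext hk
  rw [this]; exact h

theorem univ : C.P Set.univ := by
  have := C.compl C.empty
  rwa [Set.compl_empty] at this

theorem inter {L K : Set (List T)} (h : C.P L) (hk : C.P K) : C.P (L ∩ K) := by
  have := C.compl (C.union (C.compl h) (C.compl hk))
  rwa [Set.compl_union, compl_compl, compl_compl] at this

theorem diff {L K : Set (List T)} (h : C.P L) (hk : C.P K) : C.P (L \ K) :=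
  C.inter h (C.compl hk)

theorem single (u : List T) : C.P {u} := by
  induction u with
  | nil => exact C.eps
  | cons a u ih =>
    refine C.congr (C.mul (C.chr a) ih) ?_
    intro w
    constructor
    · rintro rfl
      exact ⟨[a], rfl, u, rfl, rfl⟩
    · rintro ⟨x, hx, y, hy, rfl⟩
      rw [Set.mem_singleton_iff] at hx hy
      subst hx hy
      rfl

theorem finite {L : Set (List T)} (h : L.Finite) : C.P L := by
  induction L, h using Set.Finite.induction_on with
  | empty => exact C.empty
  | insert _ _ ih =>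
    rw [Set.insert_eq]
    exact C.union (C.single _) ih

/-- finite unions -/
theorem ex {ι : Type} [Finite ι] (L : ι → Set (List T)) (h : ∀ i, C.P (L i)) :
    C.P {w | ∃ i, w ∈ L i} := by
  have key : ∀ s : Set ι, s.Finite → C.P {w | ∃ i ∈ s, w ∈ L i} := by
    intro s hs
    induction s, hs using Set.Finite.induction_on with
    | empty => exact C.congr C.empty (by simp)
    | @insert a s _ _ ih =>
      refine C.congr (C.union (h a) ih) ?_
      intro w
      simp
  exact C.congr (key Set.univ Set.finite_univ) (by simp)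

/-- finite guarded unions -/
theorem exG {ι : Type} [Finite ι] (p : ι → Prop) (L : ι → Set (List T))
    (h : ∀ i, p i → C.P (L i)) : C.P {w | ∃ i, p i ∧ w ∈ L i} := by
  refine C.congr (C.ex (fun i : {i // p i} => L i.1) (fun i => h i.1 i.2)) ?_
  intro w
  simp

/-- unions over a finite index set -/
theorem exS {ι : Type} {s : Set ι} (hs : s.Finite) (L : ι → Set (List T))
    (h : ∀ i ∈ s, C.P (L i)) : C.P {w | ∃ i ∈ s, w ∈ L i} := by
  have : Finite s := hs.to_subtype
  refine C.congr (C.ex (fun i : s => L i.1) (fun i => h i.1 i.2)) ?_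
  intro w
  simp

/-- finite intersections -/
theorem all {ι : Type} [Finite ι] (L : ι → Set (List T)) (h : ∀ i, C.P (L i)) :
    C.P {w | ∀ i, w ∈ L i} := by
  refine C.congr (C.compl (C.ex (fun i => (L i)ᶜ) (fun i => C.compl (h i)))) ?_
  intro w
  simp

/-- intersections over a finite index set -/
theorem allS {ι : Type} {s : Set ι} (hs : s.Finite) (L : ι → Set (List T))
    (h : ∀ i ∈ s, C.P (L i)) : C.P {w | ∀ i ∈ s, w ∈ L i} := by
  have : Finite s := hs.to_subtype
  refine C.congr (C.all (fun i : s => L i.1) (fun i => h i.1 i.2)) ?_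
  intro w
  simp

/-- a constant condition -/
theorem const (p : Prop) : C.P {_w | p} := by
  by_cases hp : p
  · exact C.congr C.univ (by simp [hp])
  · exact C.congr C.empty (by simp [hp])

variable [Finite T]

/-- any set of words of bounded length -/
theorem bdd {L : Set (List T)} (N : ℕ) (h : ∀ w ∈ L, w.length ≤ N) : C.P L := by
  exact C.finite ((List.finite_length_le T N).subset h)

theorem lenGe (N : ℕ) : C.P {w | N ≤ w.length} := by
  have h : C.P {w : List T | w.length < N} := C.bdd N (fun w hw => le_of_lt hw)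
  refine C.congr (C.compl h) ?_
  intro w
  simp

/-- any condition on the first `N` letters -/
theorem takeP (N : ℕ) (Q : List T → Prop) : C.P {w | Q (w.take N)} := by
  have h1 : C.P {w : List T | w.length ≤ N ∧ Q w} := C.bdd N (fun w hw => hw.1)
  have h2 : C.P {w : List T | w.length = N ∧ Q w} := C.bdd N (fun w hw => hw.1.le)
  refine C.congr (C.union h1 (C.mul h2 C.univ)) ?_
  intro w
  constructor
  · intro hw
    by_cases hl : w.length ≤ N
    · left
      refine ⟨hl, ?_⟩
      have := hw
      rwa [Set.mem_ofPred_eq, List.take_of_length_le hl] at this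
    · right
      refine ⟨w.take N, ⟨?_, hw⟩, w.drop N, trivial, (List.take_append_drop N w).symm⟩
      rw [List.length_take]; omega
  · rintro (⟨hl, hq⟩ | ⟨u, ⟨hu, hq⟩, v, -, rfl⟩)
    · rwa [Set.mem_ofPred_eq, List.take_of_length_le hl]
    · rwa [Set.mem_ofPred_eq, List.take_left' hu]

/-- a condition on the word after its first `N` letters -/
theorem dropP (N : ℕ) {L : Set (List T)} (h : C.P L) :
    C.P {w | N ≤ w.length ∧ w.drop N ∈ L} := by
  have h2 : C.P {w : List T | w.length = N} := C.bdd N (fun w hw => hw.le)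
  refine C.congr (C.mul h2 h) ?_
  intro w
  constructor
  · rintro ⟨hl, hd⟩
    refine ⟨w.take N, ?_, w.drop N, hd, (List.take_append_drop N w).symm⟩
    show (w.take N).length = N
    rw [List.length_take]; omega
  · rintro ⟨u, hu, v, hv, rfl⟩
    have hu' : u.length = N := hu
    refine ⟨by rw [List.length_append]; omega, ?_⟩
    rwa [List.drop_left' hu']

theorem lenMod (hC : C.Mod) (M : ℕ) [NeZero M] (ρ : ZMod M) :
    C.P {w | (w.length : ZMod M) = ρ} := by
  have hM : 0 < M := Nat.pos_of_ne_zero (NeZero.ne M)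
  refine C.congr (C.dropP ρ.val (hC M hM)) ?_
  intro w
  simp only [Set.mem_ofPred_eq, List.length_drop]
  constructor
  · intro hw
    have h1 : ρ.val = w.length % M := by rw [← hw, ZMod.val_natCast]
    have h2 := Nat.mod_le w.length M
    refine ⟨by omega, ?_⟩
    rw [h1]
    exact (Nat.dvd_sub_mod w.length)
  · rintro ⟨h1, k, hk⟩
    have : w.length = ρ.val + M * k := by omega
    rw [this]
    simp

theorem lenMod' (hC : C.Mod) (q r : ℕ) (hq : 0 < q) :
    C.P {w | w.length % q = r} := by
  by_cases hr : r < q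
  · refine C.congr (C.dropP r (hC q hq)) ?_
    intro w
    simp only [Set.mem_ofPred_eq, List.length_drop]
    constructor
    · intro hw
      have h2 := Nat.mod_le w.length q
      refine ⟨by omega, ?_⟩
      rw [← hw]
      exact (Nat.dvd_sub_mod w.length)
    · rintro ⟨h1, k, hk⟩
      have : w.length = r + q * k := by omega
      rw [this, Nat.add_mul_mod_self_left, Nat.mod_eq_of_lt hr]
  · refine C.congr C.empty ?_
    intro w
    have := Nat.mod_lt w.length hq
    simp only [Set.mem_ofPred_eq, Set.mem_empty_iff_false, iff_false]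
    omega

end Cls

/-- languages of generalized star height at most `k` form a class -/
def HtC (T : Type) (k : ℕ) : Cls T where
  P := Ht k
  empty := ⟨.zero, fun w => by simp [GRE.lang], Nat.zero_le _⟩
  eps := ⟨.one, fun w => by simp [GRE.lang, Language.mem_one], Nat.zero_le _⟩
  chr := fun a => ⟨.chr a, fun _ => Iff.rfl, Nat.zero_le _⟩
  union := by
    rintro L K ⟨e, he, hs⟩ ⟨f, hf, ht⟩
    refine ⟨.add e f, fun w => ?_, max_le hs ht⟩
    rw [GRE.lang, Language.mem_add, he, hf]
    rfl
  mul := by
    rintro L K ⟨e, he, hs⟩ ⟨f, hf, ht⟩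
    refine ⟨.mul e f, fun w => ?_, max_le hs ht⟩
    rw [GRE.lang, Language.mem_mul]
    constructor
    · rintro ⟨u, hu, v, hv, rfl⟩
      exact ⟨u, (he u).1 hu, v, (hf v).1 hv, rfl⟩
    · rintro ⟨u, hu, v, hv, rfl⟩
      exact ⟨u, (he u).2 hu, v, (hf v).2 hv, rfl⟩
  compl := by
    rintro L ⟨e, he, hs⟩
    refine ⟨.compl e, fun w => ?_, hs⟩
    exact not_congr (he w)

theorem Ht.mono {T : Type} {k k' : ℕ} {L : Set (List T)} (h : Ht k L) (hk : k ≤ k') :
    Ht k' L := by
  obtain ⟨e, he, hs⟩ := h
  exact ⟨e, he, hs.trans hk⟩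

theorem Ht.star {T : Type} {k : ℕ} {L : Set (List T)} (h : Ht k L) : Ht (k + 1) (st L) := by
  obtain ⟨e, he, hs⟩ := h
  refine ⟨.star e, fun w => ?_, Nat.succ_le_succ hs⟩
  rw [GRE.lang, Language.mem_kstar]
  constructor
  · rintro ⟨l, rfl, hl⟩
    exact ⟨l, fun z hz => (he z).1 (hl z hz), rfl⟩
  · rintro ⟨l, hl, rfl⟩
    exact ⟨l, rfl, fun z hz => (he z).2 (hl z hz)⟩

theorem HtC_up (T : Type) (k : ℕ) : (HtC T k).Up (HtC T (k + 1)) :=
  ⟨fun _ h => Ht.mono h (Nat.le_succ k), fun _ h => Ht.star h⟩

theorem HtC_mod (T : Type) [Finite T] (k : ℕ) : (HtC T (k + 1)).Mod := by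
  intro q hq
  have h1 : (HtC T k).P {w : List T | w.length = q} := (HtC T k).bdd q (fun w hw => hw.le)
  refine (HtC T (k + 1)).congr ((HtC_up T k).2 _ h1) ?_
  intro w
  constructor
  · rintro ⟨n, hn⟩
    induction n generalizing w with
    | zero =>
      have : w = [] := List.length_eq_zero_iff.1 (by simpa using hn)
      exact ⟨[], by simp, by simp [this]⟩
    | succ n ih =>
      have hq' : q ≤ w.length := by rw [hn]; nlinarith
      obtain ⟨l, hl, he⟩ := ih (w.drop q) (by rw [List.length_drop, hn, Nat.mul_succ]; omega)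
      refine ⟨w.take q :: l, ?_, ?_⟩
      · intro z hz
        rcases List.mem_cons.1 hz with rfl | hz
        · show (w.take q).length = q
          rw [List.length_take]; omega
        · exact hl z hz
      · rw [List.flatten_cons, he, List.take_append_drop]
  · rintro ⟨l, hl, rfl⟩
    show q ∣ l.flatten.length
    induction l with
    | nil => simp
    | cons z l ih =>
      rw [List.flatten_cons, List.length_append]
      have hz : z.length = q := hl z (by simp)
      exact dvd_add (hz ▸ dvd_refl _) (ih (fun y hy => hl y (by simp [hy])))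

end Vale.Agent.P329
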