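import Vale.Agent.P329.Basic

/-! Prefix codes, values along a parse, pulled back languages. -/

namespace Vale.Agent.P329

/-- a code in which no word is empty and no word begins another one -/
structure IsCode {T : Type} (C : Set (List T)) : Prop where
  ne : ∀ z ∈ C, z ≠ []
  pf : ∀ z ∈ C, ∀ z' ∈ C, ∀ u u', z ++ u = z' ++ u' → z = z'

/-- words of `C*` whose product of values along the parse is `g` -/
def Val {T G : Type} [Monoid G] (C : Set (List T)) (val : List T → G) (g : G) : Set (List T) :=
  {w | ∃ zs : List (List T), (∀ z ∈ zs, z ∈ C) ∧ zs.flatten = w ∧ (zs.map val).prod = g}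

/-- words of `Y*` whose sequence of types lies in `L` -/
def pull {S T : Type} (Y : Set (List S)) (ty : List S → T) (L : Set (List T)) : Set (List S) :=
  {w | ∃ ys : List (List S), (∀ y ∈ ys, y ∈ Y) ∧ ys.flatten = w ∧ ys.map ty ∈ L}

/-- the parse of a word of `Y*` -/
noncomputable def parse {S : Type} (Y : Set (List S)) (w : List S) : List (List S) :=
  Classical.epsilon (fun ys : List (List S) => (∀ y ∈ ys, y ∈ Y) ∧ ys.flatten = w)

/-- words with no beginning in `C` -/
def Tail {T : Type} (C : Set (List T)) : Set (List T) := {w | ∀ z ∈ C, ∀ u, w ≠ z ++ u}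

/-- the product of the letter values -/
def wv {T G : Type} [Monoid G] (ψ : T → G) (w : List T) : G := (w.map ψ).prod

@[simp] theorem wv_nil {T G : Type} [Monoid G] (ψ : T → G) : wv ψ [] = 1 := rfl

@[simp] theorem wv_append {T G : Type} [Monoid G] (ψ : T → G) (u v : List T) :
    wv ψ (u ++ v) = wv ψ u * wv ψ v := by simp [wv]

@[simp] theorem wv_cons {T G : Type} [Monoid G] (ψ : T → G) (a : T) (v : List T) :
    wv ψ (a :: v) = ψ a * wv ψ v := by simp [wv]

theorem wv_take_drop {T G : Type} [Monoid G] (ψ : T → G) (n : ℕ) (w : List T) :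
    wv ψ (w.take n) * wv ψ (w.drop n) = wv ψ w := by
  rw [← wv_append, List.take_append_drop]

theorem wv_flatten {T G : Type} [Monoid G] (ψ : T → G) (zs : List (List T)) :
    wv ψ zs.flatten = (zs.map (wv ψ)).prod := by
  induction zs with
  | nil => rfl
  | cons z zs ih => simp [ih]

theorem IsCode.mono {T : Type} {C K : Set (List T)} (h : IsCode C) (hK : K ⊆ C) : IsCode K :=
  ⟨fun z hz => h.ne z (hK hz), fun z hz z' hz' => h.pf z (hK hz) z' (hK hz')⟩

/-- cancellation: a parsed beginning of a parsed word is a beginning of the parse -/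
theorem IsCode.cancel {T : Type} {C : Set (List T)} (h : IsCode C) (xs zs : List (List T))
    (hx : ∀ z ∈ xs, z ∈ C) (hz : ∀ z ∈ zs, z ∈ C) (u : List T)
    (e : xs.flatten ++ u = zs.flatten) : ∃ zs', zs = xs ++ zs' ∧ zs'.flatten = u := by
  induction xs generalizing zs with
  | nil => exact ⟨zs, rfl, by simpa using e.symm⟩
  | cons x xs ih =>
    have hxC : x ∈ C := hx x (by simp)
    cases zs with
    | nil =>
      exfalso
      simp only [List.flatten_cons, List.flatten_nil, List.append_eq_nil_iff] at e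
      exact h.ne x hxC e.1.1
    | cons z zs =>
      have hzC : z ∈ C := hz z (by simp)
      simp only [List.flatten_cons, List.append_assoc] at e
      have hxz : x = z := h.pf x hxC z hzC _ _ e
      subst hxz
      obtain ⟨zs', h1, h2⟩ := ih zs (fun y hy => hx y (by simp [hy]))
        (fun y hy => hz y (by simp [hy])) (List.append_cancel_left e)
      exact ⟨zs', by rw [h1]; rfl, h2⟩

theorem IsCode.unique {T : Type} {C : Set (List T)} (h : IsCode C) (xs zs : List (List T))
    (hx : ∀ z ∈ xs, z ∈ C) (hz : ∀ z ∈ zs, z ∈ C) (e : xs.flatten = zs.flatten) : xs = zs := by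
  obtain ⟨zs', h1, h2⟩ := h.cancel xs zs hx hz [] (by simpa using e)
  cases zs' with
  | nil => simpa using h1.symm
  | cons z zs' =>
    exfalso
    simp only [List.flatten_cons, List.append_eq_nil_iff] at h2
    exact h.ne z (hz z (by simp [h1])) h2.1

theorem IsCode.parse_eq {S : Type} {Y : Set (List S)} (h : IsCode Y) (ys : List (List S))
    (hy : ∀ y ∈ ys, y ∈ Y) : parse Y ys.flatten = ys := by
  have hs := Classical.epsilon_spec
    (p := fun zs : List (List S) => (∀ y ∈ zs, y ∈ Y) ∧ zs.flatten = ys.flatten) ⟨ys, hy, rfl⟩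
  exact h.unique _ _ hs.1 hy hs.2

/-- every word is a product of code words followed by a tail -/
theorem IsCode.split {T : Type} {C : Set (List T)} (h : IsCode C) (w : List T) :
    ∃ zs : List (List T), ∃ u ∈ Tail C, (∀ z ∈ zs, z ∈ C) ∧ w = zs.flatten ++ u := by
  induction hn : w.length using Nat.strong_induction_on generalizing w with
  | _ n ih =>
    by_cases ht : w ∈ Tail C
    · exact ⟨[], w, ht, by simp, by simp⟩
    · simp only [Tail, Set.mem_ofPred_eq, not_forall, not_not] at ht
      obtain ⟨z, hz, u, rfl⟩ := ht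
      have hz0 : 0 < z.length := List.length_pos_iff.2 (h.ne z hz)
      obtain ⟨zs, v, hv, hzs, rfl⟩ := ih u.length (by rw [← hn, List.length_append]; omega) u rfl
      refine ⟨z :: zs, v, hv, ?_, by simp⟩
      intro y hy
      rcases List.mem_cons.1 hy with rfl | hy
      · exact hz
      · exact hzs y hy

/-- two parsed beginnings of one word are comparable -/
theorem IsCode.comp {T : Type} {C : Set (List T)} (h : IsCode C) (xs zs : List (List T))
    (hx : ∀ z ∈ xs, z ∈ C) (hz : ∀ z ∈ zs, z ∈ C) (u u' : List T)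
    (e : xs.flatten ++ u = zs.flatten ++ u') : (∃ t, zs = xs ++ t) ∨ (∃ t, xs = zs ++ t) := by
  rcases List.append_eq_append_iff.1 e with ⟨a, ha, -⟩ | ⟨a, ha, -⟩
  · obtain ⟨t, ht, -⟩ := h.cancel xs zs hx hz a ha.symm
    exact Or.inl ⟨t, ht⟩
  · obtain ⟨t, ht, -⟩ := h.cancel zs xs hz hx a ha.symm
    exact Or.inr ⟨t, ht⟩

theorem IsCode.pull {S T : Type} {Y : Set (List S)} (hY : IsCode Y) (ty : List S → T)
    {Z : Set (List T)} (hZ : IsCode Z) : IsCode (pull Y ty Z) := by
  have key : ∀ xs zs t : List (List S), xs.map ty ∈ Z → zs.map ty ∈ Z → zs = xs ++ t → zs = xs := by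
    intro xs zs t hx hz e
    have := hZ.pf _ hx _ hz (t.map ty) [] (by rw [e]; simp)
    have hl := congrArg List.length this
    rw [e] at hl
    simp only [List.length_map, List.length_append] at hl
    have : t = [] := List.length_eq_zero_iff.1 (by omega)
    rw [e, this, List.append_nil]
  constructor
  · rintro w ⟨ys, hy, rfl, hz⟩ e
    cases ys with
    | nil => exact hZ.ne _ hz rfl
    | cons y ys =>
      simp only [List.flatten_cons, List.append_eq_nil_iff] at e
      exact hY.ne y (hy y (by simp)) e.1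
  · rintro w ⟨xs, hx, rfl, hxz⟩ w' ⟨zs, hz, rfl, hzz⟩ u u' e
    rcases hY.comp xs zs hx hz u u' e with ⟨t, ht⟩ | ⟨t, ht⟩
    · rw [key xs zs t hxz hzz ht]
    · rw [key zs xs t hzz hxz ht]

theorem pull_cat {S T : Type} (Y : Set (List S)) (ty : List S → T) (L K : Set (List T)) :
    pull Y ty (cat L K) = cat (pull Y ty L) (pull Y ty K) := by
  ext w
  constructor
  · rintro ⟨ys, hy, rfl, u, hu, v, hv, e⟩
    obtain ⟨a, b, rfl, rfl, rfl⟩ := List.map_eq_append_iff.1 e
    exact ⟨a.flatten, ⟨a, fun y h => hy y (by simp [h]), rfl, hu⟩, b.flatten,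
      ⟨b, fun y h => hy y (by simp [h]), rfl, hv⟩, by simp⟩
  · rintro ⟨_, ⟨a, ha, rfl, hu⟩, _, ⟨b, hb, rfl, hv⟩, rfl⟩
    refine ⟨a ++ b, ?_, by simp, _, hu, _, hv, by simp⟩
    intro y hy
    rcases List.mem_append.1 hy with h | h
    · exact ha y h
    · exact hb y h

/-- regrouping a parse along a factorization of its types -/
theorem pull_regroup {S T : Type} (ty : List S → T) (l : List (List T)) (ys : List (List S))
    (e : l.flatten = ys.map ty) :
    ∃ yss : List (List (List S)), yss.flatten = ys ∧ yss.map (List.map ty) = l := by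
  induction l generalizing ys with
  | nil =>
    have : ys = [] := by simpa using e.symm
    exact ⟨[], by simp [this], rfl⟩
  | cons z l ih =>
    rw [List.flatten_cons] at e
    obtain ⟨a, b, rfl, ha, hb⟩ := List.map_eq_append_iff.1 e.symm
    obtain ⟨yss, h1, h2⟩ := ih b hb.symm
    exact ⟨a :: yss, by simp [h1], by simp [ha, h2]⟩

/-- collecting the parses of a list of pulled back words -/
theorem pull_collect {S T : Type} (Y : Set (List S)) (ty : List S → T) (L : Set (List T))
    (l : List (List S)) (hl : ∀ z ∈ l, z ∈ pull Y ty L) :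
    ∃ yss : List (List (List S)), (∀ ys ∈ yss, (∀ y ∈ ys, y ∈ Y) ∧ ys.map ty ∈ L) ∧
      yss.map List.flatten = l := by
  induction l with
  | nil => exact ⟨[], by simp, rfl⟩
  | cons z l ih =>
    obtain ⟨yss, h1, h2⟩ := ih (fun y hy => hl y (by simp [hy]))
    obtain ⟨a, ha, rfl, hL⟩ := hl z (by simp)
    refine ⟨a :: yss, ?_, by simp [h2]⟩
    intro ys hys
    rcases List.mem_cons.1 hys with rfl | hys
    · exact ⟨ha, hL⟩
    · exact h1 ys hys

theorem pull_st {S T : Type} (Y : Set (List S)) (ty : List S → T) (L : Set (List T)) :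
    pull Y ty (st L) = st (pull Y ty L) := by
  ext w
  constructor
  · rintro ⟨ys, hy, rfl, l, hl, e⟩
    obtain ⟨yss, rfl, rfl⟩ := pull_regroup ty l ys e
    refine ⟨yss.map List.flatten, ?_, by rw [List.flatten_flatten]⟩
    intro z hz
    obtain ⟨a, ha, rfl⟩ := List.mem_map.1 hz
    exact ⟨a, fun y h => hy y (List.mem_flatten.2 ⟨a, ha, h⟩), rfl,
      hl _ (List.mem_map.2 ⟨a, ha, rfl⟩)⟩
  · rintro ⟨l, hl, rfl⟩
    obtain ⟨yss, h1, rfl⟩ := pull_collect Y ty L l hl
    refine ⟨yss.flatten, ?_, by rw [List.flatten_flatten], yss.map (List.map ty), ?_,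
      by rw [List.map_flatten]⟩
    · intro y hy
      obtain ⟨a, ha, h⟩ := List.mem_flatten.1 hy
      exact (h1 a ha).1 y h
    · intro z hz
      obtain ⟨a, ha, rfl⟩ := List.mem_map.1 hz
      exact (h1 a ha).2

/-- values of pulled back steps -/
theorem pull_val {S T G : Type} [Monoid G] {Y : Set (List S)} (hY : IsCode Y) (ty : List S → T)
    (Z : Set (List T)) (f : List T → G) (g : G) :
    Val (pull Y ty Z) (fun w => f ((parse Y w).map ty)) g = pull Y ty (Val Z f g) := by
  have hmap : ∀ yss : List (List (List S)), (∀ ys ∈ yss, ∀ y ∈ ys, y ∈ Y) →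
      (yss.map List.flatten).map (fun w => f ((parse Y w).map ty)) =
        (yss.map (List.map ty)).map f := by
    intro yss h
    rw [List.map_map, List.map_map]
    refine List.map_congr_left ?_
    intro ys hys
    simp only [Function.comp_apply]
    rw [hY.parse_eq ys (h ys hys)]
  ext w
  constructor
  · rintro ⟨l, hl, rfl, hg⟩
    obtain ⟨yss, h1, rfl⟩ := pull_collect Y ty Z l hl
    rw [hmap yss (fun ys h => (h1 ys h).1)] at hg
    refine ⟨yss.flatten, ?_, by rw [List.flatten_flatten], yss.map (List.map ty), ?_,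
      by rw [List.map_flatten], hg⟩
    · intro y hy
      obtain ⟨a, ha, h⟩ := List.mem_flatten.1 hy
      exact (h1 a ha).1 y h
    · intro z hz
      obtain ⟨a, ha, rfl⟩ := List.mem_map.1 hz
      exact (h1 a ha).2
  · rintro ⟨ys, hy, rfl, l, hl, e, hg⟩
    obtain ⟨yss, rfl, rfl⟩ := pull_regroup ty l ys e
    have hY' : ∀ a ∈ yss, ∀ y ∈ a, y ∈ Y := fun a ha y h => hy y (List.mem_flatten.2 ⟨a, ha, h⟩)
    refine ⟨yss.map List.flatten, ?_, by rw [List.flatten_flatten], by rw [hmap yss hY', hg]⟩
    intro z hz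
    obtain ⟨a, ha, rfl⟩ := List.mem_map.1 hz
    exact ⟨a, hY' a ha, rfl, hl _ (List.mem_map.2 ⟨a, ha, rfl⟩)⟩

/-- the class of languages over `T` whose pull back lies in `C` -/
def Cls.pullC {S T : Type} (C : Cls S) {Y : Set (List S)} (hY : IsCode Y) (ty : List S → T)
    (h1 : C.P (st Y)) (h2 : ∀ t, C.P {y | y ∈ Y ∧ ty y = t}) : Cls T where
  P L := C.P (pull Y ty L)
  empty := C.congr C.empty (fun w => by simp [pull])
  eps := by
    refine C.congr C.eps (fun w => ?_)
    constructor
    · rintro ⟨ys, -, rfl, h⟩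
      have : ys = [] := by simpa using h
      simp [this]
    · rintro rfl
      exact ⟨[], by simp, rfl, rfl⟩
  chr := by
    intro a
    refine C.congr (h2 a) (fun w => ?_)
    constructor
    · rintro ⟨ys, hy, rfl, h⟩
      obtain ⟨y, rfl, hy'⟩ := List.map_eq_singleton_iff.1 h
      exact ⟨by simpa using hy, by simpa using hy'⟩
    · rintro ⟨hw, rfl⟩
      exact ⟨[w], by simpa using hw, by simp, rfl⟩
  union := by
    intro L K hL hK
    refine C.congr (C.union hL hK) (fun w => ?_)
    constructor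
    · rintro ⟨ys, hy, rfl, h | h⟩
      · exact Or.inl ⟨ys, hy, rfl, h⟩
      · exact Or.inr ⟨ys, hy, rfl, h⟩
    · rintro (⟨ys, hy, rfl, h⟩ | ⟨ys, hy, rfl, h⟩)
      · exact ⟨ys, hy, rfl, Or.inl h⟩
      · exact ⟨ys, hy, rfl, Or.inr h⟩
  mul := by
    intro L K hL hK
    rw [pull_cat]
    exact C.mul hL hK
  compl := by
    intro L hL
    refine C.congr (C.diff h1 hL) (fun w => ?_)
    constructor
    · rintro ⟨ys, hy, rfl, h⟩
      refine ⟨⟨ys, hy, rfl⟩, ?_⟩
      rintro ⟨zs, hz, e, h'⟩
      rw [hY.unique zs ys hz hy e] at h'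
      exact h h'
    · rintro ⟨⟨ys, hy, rfl⟩, h⟩
      exact ⟨ys, hy, rfl, fun h' => h ⟨ys, hy, rfl, h'⟩⟩

end Vale.Agent.P329
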