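import Vale.Agent.P329.Simple

/-! Local markers and the chain code. -/

namespace Vale.Agent.P329

/-- A marker system with gap `g`: `m u` says that a marker sits at the start of `u`. -/
structure Mk (T : Type) (g : ℕ) where
  R : ℕ
  P : ℕ
  D : ℕ
  m : List T → Prop
  Rpos : 0 < R
  Ppos : 0 < P
  len : ∀ u, m u → R ≤ u.length
  loc : ∀ u v, R ≤ u.length → (m (u ++ v) ↔ m u)
  gap : ∀ u d, m u → 0 < d → d ≤ g → ¬ m (u.drop d)
  per : ∀ (w : List T) (a : ℕ), (∀ b, a ≤ b → ¬ m (w.drop b)) →
    ∀ i, a + D ≤ i → i + P + D < w.length → w[i]? = w[i + P]?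

theorem exists_mk (T : Type) [Finite T] (g : ℕ) : Nonempty (Mk T g) := by
  classical
  obtain ⟨key, hkey⟩ := Countable.exists_injective_nat (List T)
  set P := g.factorial with hP
  have hP0 : 0 < P := Nat.factorial_pos g
  obtain ⟨K, hK⟩ := ((List.finite_length_le T (P + 1)).image key).bddAbove
  let win : List T → ℕ → List T := fun u q => (u.drop q).take (P + 1)
  have hwK : ∀ u q, key (win u q) ≤ K := fun u q =>
    hK ⟨win u q, by simp [win], rfl⟩
  have hwd : ∀ u b q, win (u.drop b) q = win u (b + q) := by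
    intro u b q
    simp only [win, List.drop_drop]
  let cand : List T → ℕ → Prop := fun u q => u[q]? ≠ u[q + P]?
  have hcd : ∀ u b q, cand (u.drop b) q ↔ cand u (b + q) := by
    intro u b q
    simp only [cand, List.getElem?_drop, Nat.add_assoc]
  let m : List T → Prop := fun u => 2 * g + P + 1 ≤ u.length ∧ cand u g ∧
    ∀ q ≤ 2 * g, cand u q → key (win u g) ≤ key (win u q)
  refine ⟨⟨2 * g + P + 1, P, g * (K + 1) + 1, m, by omega, hP0, fun u h => h.1, ?_, ?_, ?_⟩⟩
  · intro u v hl
    have hc : ∀ q ≤ 2 * g, cand (u ++ v) q ↔ cand u q := by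
      intro q hq
      simp only [cand]
      rw [List.getElem?_append_left (by omega), List.getElem?_append_left (by omega)]
    have hw : ∀ q ≤ 2 * g, win (u ++ v) q = win u q := by
      intro q hq
      simp only [win]
      rw [List.drop_append_of_le_length (by omega),
        List.take_append_of_le_length (by rw [List.length_drop]; omega)]
    simp only [m]
    rw [hc g (by omega), hw g (by omega)]
    constructor
    · rintro ⟨-, h2, h3⟩
      exact ⟨hl, h2, fun q hq h => hw q hq ▸ h3 q hq ((hc q hq).2 h)⟩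
    · rintro ⟨-, h2, h3⟩
      exact ⟨by rw [List.length_append]; omega, h2,
        fun q hq h => (hw q hq).symm ▸ h3 q hq ((hc q hq).1 h)⟩
  · rintro u d ⟨-, h2, h3⟩ hd hdg ⟨-, h5, h6⟩
    rw [hcd] at h5
    have e1 := h3 (d + g) (by omega) h5
    have e2 := h6 (g - d) (by omega) (by rw [hcd, Nat.add_sub_cancel' hdg]; exact h2)
    rw [hwd, hwd, Nat.add_sub_cancel' hdg] at e2
    have e3 : win u g = win u (d + g) := hkey (le_antisymm e1 e2)
    have e4 : ∀ j ≤ P, u[g + j]? = u[g + (j + d)]? := by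
      intro j hj
      have := congrArg (fun l : List T => l[j]?) e3
      simp only [win] at this
      rw [List.getElem?_take_of_lt (by omega), List.getElem?_take_of_lt (by omega),
        List.getElem?_drop, List.getElem?_drop] at this
      rw [this]
      congr 1
      omega
    obtain ⟨k, hk⟩ : d ∣ P := Nat.dvd_factorial hd hdg
    have e5 : ∀ t, d * t ≤ P → u[g]? = u[g + d * t]? := by
      intro t
      induction t with
      | zero => intro _; rfl
      | succ t ih =>
        intro ht
        rw [Nat.mul_succ] at ht ⊢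
        rw [ih (by omega), e4 _ (by omega)]
    exact h2 (hk ▸ e5 k hk.ge)
  · intro w a hno
    have main : ∀ k i, key (win w i) < k → a + g * k ≤ i → i + P + g * k < w.length →
        ¬ cand w i := by
      intro k
      induction k with
      | zero => intro i h; omega
      | succ k ih =>
        intro i hk h1 h2 hc
        rw [Nat.mul_succ] at h1 h2
        have hig : g ≤ i := by omega
        apply hno (i - g) (by omega)
        refine ⟨by rw [List.length_drop]; omega, by rwa [hcd, Nat.sub_add_cancel hig], ?_⟩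
        intro q hq hcq
        rw [hwd, hwd, Nat.sub_add_cancel hig]
        rw [hcd] at hcq
        by_contra hlt
        exact ih (i - g + q) (by omega) (by omega) (by omega) hcq
    intro i h1 h2
    by_contra hc
    exact main (K + 1) i (Nat.lt_succ_of_le (hwK w i)) (by omega) (by omega) hc

namespace Mk
variable {T : Type} {g : ℕ} (μ : Mk T g)

/-- one step of the chain: up to the first marker at a place at least `θ`, and its window -/
def Z (θ : ℕ) : Set (List T) :=
  {w | ∃ b, θ ≤ b ∧ w.length = b + μ.R ∧ μ.m (w.drop b) ∧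
    ∀ b', θ ≤ b' → b' < b → ¬ μ.m (w.drop b')}

theorem le_len {w : List T} {i : ℕ} (h : μ.m (w.drop i)) : i + μ.R ≤ w.length := by
  have := μ.len _ h
  have h2 := μ.Rpos
  simp at this
  omega

theorem uniq {w : List T} {i j : ℕ} (hi : μ.m (w.drop i)) (hj : μ.m (w.drop j))
    (h1 : i ≤ j + g) (h2 : j ≤ i + g) : i = j := by
  rcases lt_trichotomy i j with h | h | h
  · exfalso
    refine μ.gap _ (j - i) hi (by omega) (by omega) ?_
    rwa [List.drop_drop, Nat.add_sub_cancel' h.le]
  · exact h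
  · exfalso
    refine μ.gap _ (i - j) hj (by omega) (by omega) ?_
    rwa [List.drop_drop, Nat.add_sub_cancel' h.le]

theorem append_iff {u : List T} (v : List T) {i : ℕ} (h : i + μ.R ≤ u.length) :
    μ.m ((u ++ v).drop i) ↔ μ.m (u.drop i) := by
  rw [List.drop_append_of_le_length (by omega)]
  exact μ.loc _ _ (by rw [List.length_drop]; omega)

theorem ext {u : List T} (v : List T) {i : ℕ} (h : μ.m (u.drop i)) :
    μ.m ((u ++ v).drop i) :=
  (μ.append_iff v (μ.le_len h)).2 h

theorem take_iff (w : List T) {i N : ℕ} (h : i + μ.R ≤ N) :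
    μ.m ((w.take N).drop i) ↔ μ.m (w.drop i) := by
  by_cases hl : w.length ≤ N
  · rw [List.take_of_length_le hl]
  · conv_rhs => rw [← List.take_append_drop N w]
    exact (μ.append_iff _ (by rw [List.length_take]; omega)).symm

theorem inv {G : Type} [Monoid G] (ψ : T → G) {i N : ℕ} (h : i + μ.R ≤ N) :
    Inv ψ N (fun w => μ.m (w.drop i)) := by
  intro w w' h1 _
  apply propext
  show μ.m (w.drop i) ↔ μ.m (w'.drop i)
  rw [← μ.take_iff w h, ← μ.take_iff w' h, h1]

theorem Z_code (θ : ℕ) : IsCode (μ.Z θ) := by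
  have key : ∀ z ∈ μ.Z θ, ∀ z' ∈ μ.Z θ, ∀ u u', z ++ u = z' ++ u' → z'.length ≤ z.length := by
    rintro z ⟨b, h1, h2, h3, -⟩ z' ⟨b', -, h2', -, h4'⟩ u u' e
    by_contra hlt
    refine h4' b h1 (by omega) ((μ.append_iff u' (by omega)).1 ?_)
    rw [← e]
    exact μ.ext u h3
  constructor
  · rintro z ⟨b, -, h2, -⟩ rfl
    have := μ.Rpos
    simp at h2
    omega
  · intro z hz z' hz' u u' e
    exact List.append_inj_left e (le_antisymm (key z' hz' z hz u' u e.symm) (key z hz z' hz' u u' e))

theorem Z_len {θ : ℕ} {w : List T} (h : w ∈ μ.Z θ) : θ + μ.R ≤ w.length := by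
  obtain ⟨b, h1, h2, -⟩ := h
  omega

theorem Z_cls [Finite T] (C : Cls T) (θ : ℕ) : C.P (μ.Z θ) := by
  have hM : C.P {r : List T | r.length = μ.R ∧ μ.m r} := C.bdd μ.R (fun r hr => hr.1.le)
  have h1 := C.mul (C.lenGe θ) hM
  refine C.congr (C.diff h1 (C.mul h1 (C.lenGe 1))) ?_
  intro w
  constructor
  · rintro ⟨b, h1, h2, h3, h4⟩
    refine ⟨⟨w.take b, ?_, w.drop b, ⟨?_, h3⟩, (List.take_append_drop b w).symm⟩, ?_⟩
    · show θ ≤ (w.take b).length
      rw [List.length_take]; omega
    · rw [List.length_drop]; omega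
    · rintro ⟨_, ⟨a, ha, r, ⟨hr, hm⟩, rfl⟩, c, hc, rfl⟩
      have hc' : 1 ≤ c.length := hc
      simp only [List.length_append] at h2
      refine h4 a.length ha (by omega) (μ.ext c ?_)
      rwa [List.drop_left]
  · rintro ⟨⟨a, ha, r, ⟨hr, hm⟩, rfl⟩, hn⟩
    refine ⟨a.length, ha, by rw [List.length_append, hr], by rwa [List.drop_left], ?_⟩
    intro b' h1 h2 h3
    have hl : (a ++ r).length = a.length + μ.R := by rw [List.length_append, hr]
    generalize a ++ r = w at *
    refine hn ⟨w.take (b' + μ.R), ⟨w.take b', ?_, (w.take (b' + μ.R)).drop b', ⟨?_, ?_⟩, ?_⟩,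
      w.drop (b' + μ.R), ?_, (List.take_append_drop _ w).symm⟩
    · show θ ≤ (w.take b').length
      rw [List.length_take]; omega
    · rw [List.length_drop, List.length_take]; omega
    · exact (μ.take_iff w le_rfl).2 h3
    · conv_lhs => rw [← List.take_append_drop b' (w.take (b' + μ.R))]
      rw [List.take_take, min_eq_left (Nat.le_add_right _ _)]
    · show 1 ≤ (w.drop (b' + μ.R)).length
      rw [List.length_drop]; omega

theorem Z_simple (θ : ℕ) : μ.Z θ ⊆ Simple μ.P (θ + μ.D + 1) := by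
  rintro w ⟨b, -, h2, -, h4⟩ i hi hl
  have hno : ∀ b', θ ≤ b' → ¬ μ.m ((w.take (w.length - 1)).drop b') := by
    intro b' h1 h3
    have h5 := μ.le_len h3
    rw [List.length_take] at h5
    exact h4 b' h1 (by omega) ((μ.take_iff w (by omega)).1 h3)
  have := μ.per _ θ hno i (by omega) (by rw [List.length_take]; omega)
  rwa [List.getElem?_take_of_lt (by omega), List.getElem?_take_of_lt (by omega)] at this

theorem Tail_simple (θ : ℕ) : Tail (μ.Z θ) ⊆ Simple μ.P (θ + μ.D + 1) := by
  classical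
  intro w hw i hi hl
  refine μ.per w θ ?_ i (by omega) (by omega)
  intro b hb hm
  have hex : ∃ b, θ ≤ b ∧ μ.m (w.drop b) := ⟨b, hb, hm⟩
  obtain ⟨h1, h2⟩ := Nat.find_spec hex
  have h3 := μ.le_len h2
  refine hw (w.take (Nat.find hex + μ.R)) ⟨Nat.find hex, h1, ?_, (μ.take_iff w le_rfl).2 h2, ?_⟩
    _ (List.take_append_drop _ w).symm
  · rw [List.length_take]; omega
  · intro b' h4 h5 h6
    exact Nat.find_min hex h5 ⟨h4, (μ.take_iff w (by omega)).1 h6⟩

theorem Z_shift {θ : ℕ} (l r : List T) (h : l.length ≤ θ) :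
    l ++ r ∈ μ.Z θ ↔ r ∈ μ.Z (θ - l.length) := by
  have hd : ∀ j, (l ++ r).drop (l.length + j) = r.drop j := fun j => by
    rw [← List.drop_drop, List.drop_left]
  constructor
  · rintro ⟨b, h1, h2, h3, h4⟩
    obtain ⟨j, rfl⟩ : ∃ j, b = l.length + j := ⟨b - l.length, by omega⟩
    rw [List.length_append] at h2
    refine ⟨j, by omega, by omega, hd j ▸ h3, fun b' h5 h6 h7 => ?_⟩
    exact h4 (l.length + b') (by omega) (by omega) ((hd b').symm ▸ h7)
  · rintro ⟨j, h1, h2, h3, h4⟩
    refine ⟨l.length + j, by omega, by rw [List.length_append]; omega, (hd j).symm ▸ h3,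
      fun b' h5 h6 h7 => ?_⟩
    obtain ⟨j', rfl⟩ : ∃ j', b' = l.length + j' := ⟨b' - l.length, by omega⟩
    exact h4 j' (by omega) (by omega) (hd j' ▸ h7)

theorem Z_diff {θ θ' : ℕ} {u : List T} (h : u ∈ μ.Z θ) (h' : u ∉ μ.Z θ') :
    ∃ j, min θ θ' ≤ j ∧ j < max θ θ' ∧ μ.m (u.drop j) := by
  obtain ⟨b, h1, h2, h3, h4⟩ := h
  by_cases hb : θ' ≤ b
  · by_contra hno
    refine h' ⟨b, hb, h2, h3, fun b' h5 h6 h7 => ?_⟩
    by_cases h8 : θ ≤ b'
    · exact h4 b' h8 h6 h7
    · exact hno ⟨b', by omega, by omega, h7⟩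
  · exact ⟨b, by omega, by omega, h3⟩

end Mk

theorem Tail_cls {T : Type} (C : Cls T) {Z : Set (List T)} (h : C.P Z) : C.P (Tail Z) := by
  refine C.congr (C.compl (C.mul h C.univ)) ?_
  intro w
  constructor
  · rintro hw ⟨z, hz, u, -, e⟩
    exact hw z hz u e
  · intro hw z hz u e
    exact hw ⟨z, hz, u, trivial, e⟩

end Vale.Agent.P329
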