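import Vale.Agent.P329.XCore
import Vale.Agent.P329.Mark

/-! One star crosses a run of steps each of which has a marker in a fixed window. -/

namespace Vale.Agent.P329

theorem exact (G Go : Type) [Monoid G] [Finite G] [Monoid Go] [Finite Go] (c0 wd : ℕ) :
    ∃ Λ : ℕ, ∀ (T : Type) [Finite T] (ψ : T → G) (g θ lo : ℕ) (μ : Mk T g)
      (C B : Set (List T)) (val : List T → Go) (C0 C1 : Cls T),
      C0.Up C1 → Λ ≤ lo → Λ ≤ θ → wd + Λ ≤ g → C ⊆ μ.Z θ →
      (∀ z ∈ C, ∃ j, lo ≤ j ∧ j < lo + wd ∧ μ.m (z.drop j)) →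
      (∀ z ∈ C, ∀ z' ∈ C, ∀ j, lo ≤ j → j < lo + wd → μ.m (z.drop j) → μ.m (z'.drop j) →
        z.take c0 = z'.take c0 → wv ψ (z.drop c0) = wv ψ (z'.drop c0) → val z = val z') →
      (∀ z ∈ C, ∀ s, z.drop s ∈ B) → Amb C0 ψ B → C0.P C →
      ∀ f, C1.P (Val C val f) := by
  classical
  obtain ⟨H⟩ := exists_hash G (Fin wd × G) (Vc Go)
  obtain ⟨γ, h0, hγ⟩ := exists_geo_thick H c0 wd
  refine ⟨γ.cb H.n, fun T _ ψ g θ lo μ C B val C0 C1 hup hlo hθ hg hZ hwin hval hB hamb hC f => ?_⟩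
  let Ψ : Fin wd → List T → G → Go := fun τ u x => val (Classical.epsilon fun z =>
    z ∈ C ∧ μ.m (z.drop (lo + τ)) ∧ z.take c0 = u ∧ wv ψ (z.drop c0) = x)
  have hΨ : ∀ z ∈ C, ∀ τ : Fin wd, μ.m (z.drop (lo + τ)) →
      Ψ τ (z.take (γ.cb 0)) (wv ψ (z.drop (γ.cb 0))) = val z := by
    intro z hz τ hm
    rw [h0]
    obtain ⟨h1, h2, h3, h4⟩ := Classical.epsilon_spec (p := fun z' => z' ∈ C ∧
      μ.m (z'.drop (lo + τ)) ∧ z'.take c0 = z.take c0 ∧ wv ψ (z'.drop c0) = wv ψ (z.drop c0))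
      ⟨z, hz, hm, rfl, rfl⟩
    exact hval _ h1 z hz (lo + τ) (by omega) (by have := τ.2; omega) h2 hm h3 h4
  have hcode := μ.Z_code θ
  refine level C0 C1 hup C C (hcode.mono hZ) val (fun z => lift (H.col (γ.hS ψ z)) (val z))
    (fun z _ v => lift_lin _ _ v) (fun v => {l | ∃ a : Slot H, a.2.2 = v ∧ l ∈ γ.XE ψ Ψ a})
    (fun y => {r | ∃ p : Slot H × Fin wd, r ∈ μ.Z (θ - γ.pos p.1) ∩
      {r | r ∈ B ∧ μ.m (r.drop (lo + p.2 - γ.pos p.1)) ∧ r ∈ γ.XF ψ p.1 p.2 y}})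
    ?_ ?_ (fun v => C0.bdd (γ.cb H.n) ?_) (fun y => C0.ex _ fun p => C0.inter (μ.Z_cls C0 _)
      (hamb (lo + wd + μ.R + γ.cb H.n) _ ?_)) (fun f => C0.bdd 0 ?_) (hup.2 _ hC) f
  · rintro v y l ⟨a, rfl, hl⟩ r ⟨⟨a', τ⟩, hr, -, hm, hF⟩ zs hzs u e
    have h1 := μ.Z_len hr
    have h2 := μ.Rpos
    have h3 := γ.pos_le a
    have h4 := γ.pos_le a'
    have h5 : l.length = γ.pos a := hl.1
    have h6 := τ.2
    cases zs with
    | nil =>
      have := congrArg List.length e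
      simp only [List.length_append, List.flatten_nil, List.length_nil] at this
      omega
    | cons z zs =>
      have hz := hzs z (by simp)
      obtain ⟨j, hj1, hj2, hj⟩ := hwin z hz
      have h7 : μ.m ((l ++ r).drop (l.length + (lo + τ - γ.pos a'))) := by
        rwa [← List.drop_drop, List.drop_left]
      have h8 := μ.ext u h7
      rw [e] at h8
      have h9 := μ.uniq h8 (μ.ext zs.flatten hj) (by omega) (by omega)
      obtain rfl : a = a' := hγ a a' τ (j - lo) h6 (by omega) (by omega)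
      have h10 : l ++ r = z := hcode.pf _ ((μ.Z_shift l r (by omega)).2 (h5 ▸ hr)) z (hZ hz) _ _ e
      refine ⟨[z], zs, rfl, by simp [h10], ?_⟩
      have h11 := γ.X_sound ψ Ψ a τ y hl hF
      rw [h10, hΨ z hz τ (by rwa [show lo + τ = j by omega])] at h11
      exact h11
  · intro z hz _ v
    obtain ⟨j, hj1, hj2, hj⟩ := hwin z hz
    have h1 := μ.Z_len (hZ hz)
    have hm : μ.m (z.drop (lo + (⟨j - lo, by omega⟩ : Fin wd))) := by
      rwa [show lo + (j - lo) = j by omega]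
    obtain ⟨a, ha, h2, h3⟩ := γ.X_complete ψ Ψ ⟨j - lo, by omega⟩ v (h := z) (by omega)
    rw [hΨ z hz _ hm] at h3
    have h4 := γ.pos_le a
    have h5 : (z.take (γ.pos a)).length = γ.pos a := h2.1
    refine ⟨_, ⟨a, ha, h2⟩, _, ⟨(a, ⟨j - lo, by omega⟩), ?_, hB z hz _, ?_, h3⟩,
      (List.take_append_drop _ z).symm⟩
    · have := (μ.Z_shift (θ := θ) (z.take (γ.pos a)) (z.drop (γ.pos a)) (by omega)).1
        (by rw [List.take_append_drop]; exact hZ hz)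
      rwa [h5] at this
    · rwa [List.drop_drop, show γ.pos a + (lo + (j - lo) - γ.pos a) = j by omega]
  · rintro l ⟨a, -, hl⟩
    exact hl.1.le.trans (γ.pos_le a)
  · intro w w' h1 h2
    have h3 := p.2.2
    have h4 := μ.inv ψ (i := lo + p.2 - γ.pos p.1) (N := lo + wd + μ.R + γ.cb H.n) (by omega)
      w w' h1 h2
    have h5 := (γ.XF_inv ψ p.1 p.2 y).mono (N' := lo + wd + μ.R + γ.cb H.n) (by omega) w w' h1 h2
    simp only at h4 h5 ⊢
    rw [h4, h5]
  · rintro w ⟨zs, hzs, rfl, -⟩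
    cases zs with
    | nil => simp
    | cons z zs => exact absurd (hzs z (by simp)).1 (hzs z (by simp)).2

end Vale.Agent.P329
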