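import Vale.Agent.P329.Level

/-! The colouring lemma and the hash data. -/

namespace Vale.Agent.P329

namespace Hs

/-- functions whose restriction along an injection lies in a given set -/
theorem card_restrict {A B X : Type} [Fintype A] [Fintype B] [Fintype X] [DecidableEq A]
    [DecidableEq B] (φ : A → B) (hφ : Function.Injective φ) (p : (A → X) → Prop) :
    Nat.card {c : B → X // p (c ∘ φ)} * Fintype.card X ^ Fintype.card A =
      Nat.card {a : A → X // p a} * Fintype.card X ^ Fintype.card B := by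
  classical
  let R := {b : B // b ∉ Set.range φ}
  let e : A ⊕ R ≃ B := ((Equiv.ofInjective φ hφ).sumCongr (Equiv.refl R)).trans
    (Equiv.sumCompl (fun b => b ∈ Set.range φ))
  have he : ∀ a, e (Sum.inl a) = φ a := fun a => rfl
  let E : {c : B → X // p (c ∘ φ)} ≃ {a : A → X // p a} × (R → X) :=
    { toFun := fun c => (⟨c.1 ∘ φ, c.2⟩, fun r => c.1 r.1)
      invFun := fun q => ⟨fun b => Sum.elim q.1.1 q.2 (e.symm b), by
        have : (fun b => Sum.elim q.1.1 q.2 (e.symm b)) ∘ φ = q.1.1 := by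
          funext a
          simp only [Function.comp_apply, ← he, Equiv.symm_apply_apply, Sum.elim_inl]
        rw [this]; exact q.1.2⟩
      left_inv := by
        intro c
        apply Subtype.ext
        funext b
        obtain ⟨s, rfl⟩ := e.surjective b
        simp only [Equiv.symm_apply_apply]
        cases s with
        | inl a => rfl
        | inr r => rfl
      right_inv := by
        intro q
        refine Prod.ext (Subtype.ext ?_) ?_
        · funext a
          simp only [Function.comp_apply, ← he, Equiv.symm_apply_apply, Sum.elim_inl]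
        · funext r
          have : (r.1 : B) = e (Sum.inr r) := rfl
          simp only [this, Equiv.symm_apply_apply, Sum.elim_inr] }
  have hc : Fintype.card B = Fintype.card A + Fintype.card R := by
    rw [← Fintype.card_congr e, Fintype.card_sum]
  rw [Nat.card_congr E, Nat.card_prod, Nat.card_eq_fintype_card (α := R → X), Fintype.card_fun,
    hc, pow_add]
  ring

theorem exists_n (D Q : ℕ) (hQ : 0 < Q) :
    ∃ n : ℕ, 0 < n ∧ (n * D + 2 * D + 1) ^ 2 * Q * (Q - 1) ^ n < Q ^ n := by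
  have hQ' : (0 : ℝ) < Q := by exact_mod_cast hQ
  set r : ℝ := ((Q - 1 : ℕ) : ℝ) / Q with hr
  have hr0 : 0 ≤ r := by positivity
  have hr1 : r < 1 := by
    rw [hr, div_lt_one hQ']
    exact_mod_cast Nat.sub_lt hQ one_pos
  have ht := tendsto_pow_const_mul_const_pow_of_abs_lt_one 2 (r := r)
    (by rwa [abs_of_nonneg hr0])
  have hc : (0 : ℝ) < 1 / ((3 * D + 1) ^ 2 * Q) := by positivity
  obtain ⟨n, hn, hn1⟩ := ((ht.eventually (gt_mem_nhds hc)).and (Filter.eventually_gt_atTop 0)).exists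
  refine ⟨n, hn1, ?_⟩
  have h1 : (((n * D + 2 * D + 1 : ℕ) : ℝ)) ≤ (3 * D + 1) * n := by
    have : (1 : ℝ) ≤ n := by exact_mod_cast hn1
    push_cast
    have hD : (0 : ℝ) ≤ D := by positivity
    nlinarith
  rw [lt_div_iff₀ (by positivity), hr, div_pow] at hn
  have h2 : (n : ℝ) ^ 2 * ((Q - 1 : ℕ) : ℝ) ^ n * ((3 * D + 1) ^ 2 * Q) < (Q : ℝ) ^ n := by
    have hp : (0 : ℝ) < (Q : ℝ) ^ n := by positivity
    have := mul_lt_mul_of_pos_right hn hp
    rw [one_mul] at this
    refine lt_of_eq_of_lt ?_ this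
    field_simp
  have h3 : (((n * D + 2 * D + 1 : ℕ) : ℝ)) ^ 2 * Q * ((Q - 1 : ℕ) : ℝ) ^ n < (Q : ℝ) ^ n := by
    refine lt_of_le_of_lt ?_ h2
    have : (((n * D + 2 * D + 1 : ℕ) : ℝ)) ^ 2 ≤ ((3 * D + 1) * n) ^ 2 :=
      pow_le_pow_left₀ (by positivity) h1 2
    calc _ ≤ ((3 * D + 1) * n : ℝ) ^ 2 * Q * ((Q - 1 : ℕ) : ℝ) ^ n := by gcongr
      _ = _ := by ring
  exact_mod_cast h3

theorem pow_one_add' {R : Type} [CommRing R] (t : R) (h : t * t = 0) (i : ℕ) :
    (1 + t) ^ i = 1 + (i : R) * t := by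
  induction i with
  | zero => simp
  | succ i ih =>
    rw [pow_succ, ih]
    push_cast
    linear_combination (i : R) * h

theorem pow_one_add (N i : ℕ) : ((1 + N : ZMod (N ^ 2))) ^ i = 1 + (i : ZMod (N ^ 2)) * N := by
  refine pow_one_add' _ ?_ i
  rw [← Nat.cast_mul, ← sq]
  exact ZMod.natCast_self (N ^ 2)

theorem pts_inj (n D : ℕ) (i i' : ℕ) (hi : i < n) (hi' : i' < n) (d d' : ℤ) (hd0 : d ≠ 0)
    (hd : |d| ≤ D) (hd' : |d'| ≤ D)
    (e : ((1 + ((n * D + 2 * D + 1 : ℕ) : ZMod ((n * D + 2 * D + 1) ^ 2)))) ^ i *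
        (d : ZMod ((n * D + 2 * D + 1) ^ 2)) =
      (1 + ((n * D + 2 * D + 1 : ℕ) : ZMod ((n * D + 2 * D + 1) ^ 2))) ^ i' * d') :
    i = i' ∧ d = d' := by
  set N := n * D + 2 * D + 1 with hN
  rw [pow_one_add, pow_one_add] at e
  have h0 : (((d - d') + (i * d - i' * d') * N : ℤ) : ZMod (N ^ 2)) = 0 := by
    push_cast
    linear_combination e
  rw [ZMod.intCast_zmod_eq_zero_iff_dvd] at h0
  have hNz : (N : ℤ) = n * D + 2 * D + 1 := by rw [hN]; push_cast; ring
  have hnD : (0 : ℤ) ≤ n * D := by positivity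
  have h1 : (N : ℤ) ∣ d - d' := by
    have : (N : ℤ) ∣ (d - d') + (i * d - i' * d') * N :=
      Dvd.dvd.trans (by rw [Nat.cast_pow, sq]; exact dvd_mul_right _ _) h0
    exact (dvd_add_left (dvd_mul_left _ _)).1 this
  have h2 : d - d' = 0 := by
    refine Int.eq_zero_of_abs_lt_dvd h1 ?_
    have := abs_sub d d'
    linarith
  have h3 : d' = d := by linarith
  subst h3
  rw [sub_self, zero_add, Nat.cast_pow, sq] at h0
  have hN0 : (N : ℤ) ≠ 0 := by linarith
  have h4 : (N : ℤ) ∣ ((i : ℤ) - i') * d' := by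
    have := (mul_dvd_mul_iff_right hN0).1 h0
    rwa [← sub_mul] at this
  have h5 : ((i : ℤ) - i') * d' = 0 := by
    refine Int.eq_zero_of_abs_lt_dvd h4 ?_
    rw [abs_mul]
    have h6 : |(i : ℤ) - i'| ≤ n := by
      rw [abs_le]; constructor <;> omega
    have : |(i : ℤ) - i'| * |d'| ≤ n * D := mul_le_mul h6 hd (abs_nonneg _) (by positivity)
    have hD : (0 : ℤ) ≤ D := by positivity
    linarith
  rcases mul_eq_zero.1 h5 with h | h
  · exact ⟨by omega, rfl⟩
  · exact absurd h hd0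

end Hs

/-- Colouring lemma: every point sees every pattern in one of the `n` directions. -/
theorem colouring (X : Type) [Finite X] [Nonempty X] (D : ℕ) :
    ∃ (M n : ℕ) (x : ZMod M) (c : ZMod M → X), 2 * D < M ∧ 0 < n ∧
      ∀ (S : ZMod M) (κ : ℤ → X), ∃ i < n, ∀ d : ℤ, d ≠ 0 → |d| ≤ D →
        c (S + x ^ i * (d : ZMod M)) = κ d := by
  classical
  have := Fintype.ofFinite X
  let Ds := {d // d ∈ (Finset.Icc (-(D : ℤ)) D).erase 0}
  have hDs : ∀ d : Ds, d.1 ≠ 0 ∧ |d.1| ≤ D := by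
    intro d
    have := d.2
    simp only [Finset.mem_erase, Finset.mem_Icc] at this
    exact ⟨this.1, abs_le.2 this.2⟩
  set Q := Fintype.card (Ds → X) with hQ
  have hQ0 : 0 < Q := Fintype.card_pos
  obtain ⟨n, hn, hlt⟩ := Hs.exists_n D Q hQ0
  set N := n * D + 2 * D + 1 with hN
  have hNpos : 0 < N := by omega
  have : NeZero (N ^ 2) := ⟨by positivity⟩
  let x : ZMod (N ^ 2) := 1 + (N : ZMod (N ^ 2))
  let φ : ZMod (N ^ 2) → Fin n × Ds → ZMod (N ^ 2) :=
    fun S p => S + x ^ (p.1 : ℕ) * ((p.2.1 : ℤ) : ZMod (N ^ 2))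
  have hφ : ∀ S, Function.Injective (φ S) := by
    intro S p q e
    have := Hs.pts_inj n D p.1 q.1 p.1.2 q.1.2 p.2.1 q.2.1 (hDs _).1 (hDs _).2 (hDs _).2
      (add_left_cancel e)
    exact Prod.ext (Fin.ext this.1) (Subtype.ext this.2)
  let pr : (Ds → X) → (Fin n × Ds → X) → Prop := fun κ a => ∀ i, (fun d => a (i, d)) ≠ κ
  have hpr : ∀ κ, Nat.card {a : Fin n × Ds → X // pr κ a} = (Q - 1) ^ n := by
    intro κ
    let E : {a : Fin n × Ds → X // pr κ a} ≃ (Fin n → {k : Ds → X // k ≠ κ}) :=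
      { toFun := fun a i => ⟨fun d => a.1 (i, d), a.2 i⟩
        invFun := fun f => ⟨fun p => (f p.1).1 p.2, fun i => (f i).2⟩
        left_inv := fun _ => rfl
        right_inv := fun _ => rfl }
    rw [Nat.card_congr E, Nat.card_eq_fintype_card, Fintype.card_fun, Fintype.card_fin,
      Fintype.card_subtype_compl, Fintype.card_subtype_eq]
  let bad : ZMod (N ^ 2) × (Ds → X) → Finset (ZMod (N ^ 2) → X) :=
    fun q => Finset.univ.filter (fun c => pr q.2 (c ∘ φ q.1))
  have hQn : Fintype.card X ^ Fintype.card (Fin n × Ds) = Q ^ n := by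
    rw [hQ, Fintype.card_fun, Fintype.card_prod, Fintype.card_fin, ← pow_mul, mul_comm]
  have hbad : ∀ q, (bad q).card * Q ^ n = (Q - 1) ^ n * Fintype.card (ZMod (N ^ 2) → X) := by
    intro q
    have := Hs.card_restrict (φ q.1) (hφ q.1) (pr q.2)
    rw [hpr, hQn, Nat.card_eq_fintype_card, Fintype.card_subtype] at this
    rw [Fintype.card_fun]
    exact this
  have hcard : (Finset.univ.biUnion bad).card < Fintype.card (ZMod (N ^ 2) → X) := by
    have h1 : (Finset.univ.biUnion bad).card ≤ ∑ q, (bad q).card := Finset.card_biUnion_le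
    have h2 : (∑ q, (bad q).card) * Q ^ n =
        N ^ 2 * Q * (Q - 1) ^ n * Fintype.card (ZMod (N ^ 2) → X) := by
      rw [Finset.sum_mul, Finset.sum_congr rfl (fun q _ => hbad q), Finset.sum_const,
        Finset.card_univ, Fintype.card_prod, ZMod.card, smul_eq_mul, ← hQ]
      ring
    have h3 : 0 < Fintype.card (ZMod (N ^ 2) → X) := Fintype.card_pos
    have h4 : (∑ q, (bad q).card) * Q ^ n < Fintype.card (ZMod (N ^ 2) → X) * Q ^ n := by
      rw [h2, mul_comm (Fintype.card _)]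
      exact Nat.mul_lt_mul_of_pos_right hlt h3
    exact lt_of_le_of_lt h1 (lt_of_mul_lt_mul_right h4 (Nat.zero_le _))
  obtain ⟨c, -, hc⟩ := Finset.exists_mem_notMem_of_card_lt_card
    (s := Finset.univ.biUnion bad) (t := Finset.univ) hcard
  refine ⟨N ^ 2, n, x, c, by nlinarith, hn, fun S κ => ?_⟩
  by_contra hcon
  apply hc
  refine Finset.mem_biUnion.2 ⟨(S, fun d => κ d.1), Finset.mem_univ _, ?_⟩
  refine Finset.mem_filter.2 ⟨Finset.mem_univ _, fun i e => hcon ⟨i, i.2, fun d hd0 hd => ?_⟩⟩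
  exact congrFun e ⟨d, Finset.mem_erase.2 ⟨hd0, Finset.mem_Icc.2 (abs_le.1 hd)⟩⟩

/-- hash data for cell values in `G`, right information in `W`, threads in `V` -/
structure Hash (G W V : Type) where
  M : ℕ
  pos : 0 < M
  n : ℕ
  npos : 0 < n
  x : ZMod M
  ι : G → ZMod M
  ζ : V → W → ZMod M
  col : ZMod M → V × V
  inj : ∀ y y' u, ζ y u = ζ y' u → y = y'
  good : ∀ S v y, ∃ i < n, ∀ u g y' u' g', (y', u', g') ≠ (y, u, g) →
    col (S + x ^ i * (ζ y' u' + ι g' - ζ y u - ι g)) = (v, y')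

instance {G W V : Type} (H : Hash G W V) : NeZero H.M := ⟨H.pos.ne'⟩

theorem exists_hash (G W V : Type) [Finite G] [Finite W] [Finite V] [Nonempty V] :
    Nonempty (Hash G W V) := by
  classical
  obtain ⟨a, ha⟩ := Countable.exists_injective_nat V
  obtain ⟨b, hb⟩ := Countable.exists_injective_nat W
  obtain ⟨c, hc⟩ := Countable.exists_injective_nat G
  obtain ⟨Ba, hBa⟩ := (Set.finite_range a).bddAbove
  obtain ⟨Bb, hBb⟩ := (Set.finite_range b).bddAbove
  obtain ⟨Bc, hBc⟩ := (Set.finite_range c).bddAbove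
  set B : ℕ := Ba + Bb + Bc + 1 with hB
  have ha' : ∀ y, (a y : ℤ) < B := fun y => by
    have := hBa (Set.mem_range_self y); omega
  have hb' : ∀ y, (b y : ℤ) < B := fun y => by
    have := hBb (Set.mem_range_self y); omega
  have hc' : ∀ y, (c y : ℤ) < B := fun y => by
    have := hBc (Set.mem_range_self y); omega
  have hB0 : (0 : ℤ) < B := by omega
  obtain ⟨M, n, x, col, hM, hn, hcol⟩ := colouring (V × V) (8 * B ^ 3)
  -- the difference of two codes
  let df : V → W → G → V → W → G → ℤ := fun y u g y' u' g' =>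
    4 * B ^ 2 * ((a y' : ℤ) - a y) + 2 * B * ((b u' : ℤ) - b u) + ((c g' : ℤ) - c g)
  have small : ∀ s t r : ℤ, |t| < 2 * B → |r| < 2 * B → 4 * B ^ 2 * s + 2 * B * t + r = 0 →
      s = 0 ∧ t = 0 ∧ r = 0 := by
    intro s t r ht hr e
    have h1 : r = 0 := Int.eq_zero_of_abs_lt_dvd
      (m := 2 * B) ⟨-(2 * B * s + t), by linear_combination e⟩ hr
    have h2 : 2 * (B : ℤ) * (2 * B * s + t) = 0 := by linear_combination e - h1
    have h3 : 2 * (B : ℤ) * s + t = 0 := (mul_eq_zero.1 h2).resolve_left (by linarith)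
    have h4 : t = 0 := Int.eq_zero_of_abs_lt_dvd (m := 2 * B) ⟨-s, by linear_combination h3⟩ ht
    have h5 : 2 * (B : ℤ) * s = 0 := by linear_combination h3 - h4
    exact ⟨(mul_eq_zero.1 h5).resolve_left (by linarith), h4, h1⟩
  have hdf : ∀ y u g y' u' g', |df y u g y' u' g'| ≤ ((8 * B ^ 3 : ℕ) : ℤ) := by
    intro y u g y' u' g'
    have h1 := ha' y; have h2 := ha' y'; have h3 := hb' u; have h4 := hb' u'
    have h5 := hc' g; have h6 := hc' g'
    have e1 : |(a y' : ℤ) - a y| ≤ B := by rw [abs_le]; constructor <;> omega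
    have e2 : |(b u' : ℤ) - b u| ≤ B := by rw [abs_le]; constructor <;> omega
    have e3 : |(c g' : ℤ) - c g| ≤ B := by rw [abs_le]; constructor <;> omega
    have hB1 : (1 : ℤ) ≤ B := hB0
    calc |df y u g y' u' g'| ≤ |4 * B ^ 2 * ((a y' : ℤ) - a y)| + |2 * B * ((b u' : ℤ) - b u)| +
          |(c g' : ℤ) - c g| := (abs_add_le _ _).trans (by gcongr; exact abs_add_le _ _)
      _ ≤ 4 * B ^ 2 * B + 2 * B * B + B := by
          rw [abs_mul (4 * (B : ℤ) ^ 2), abs_of_pos (by positivity : (0 : ℤ) < 4 * B ^ 2),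
            abs_mul (2 * (B : ℤ)), abs_of_pos (by positivity : (0 : ℤ) < 2 * B)]
          gcongr
      _ ≤ ((8 * B ^ 3 : ℕ) : ℤ) := by
          push_cast
          nlinarith [mul_nonneg hB0.le hB0.le, mul_pos hB0 (mul_pos hB0 hB0)]
  have hdet : ∀ y u g y' u' g' u1 g1 y1' u1' g1',
      df y u g y' u' g' = df y u1 g1 y1' u1' g1' → y' = y1' := by
    intro y u g y' u' g' u1 g1 y1' u1' g1' e
    have h3 := hb' u; have h4 := hb' u'; have h5 := hc' g; have h6 := hc' g'
    have h3' := hb' u1; have h4' := hb' u1'; have h5' := hc' g1; have h6' := hc' g1'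
    have := small ((a y' : ℤ) - a y1') (((b u' : ℤ) - b u) - ((b u1' : ℤ) - b u1))
      (((c g' : ℤ) - c g) - ((c g1' : ℤ) - c g1)) (by rw [abs_lt]; constructor <;> omega)
      (by rw [abs_lt]; constructor <;> omega) (by simp only [df] at e; linear_combination e)
    exact ha (by omega)
  have hne : ∀ y u g y' u' g', df y u g y' u' g' = 0 → (y', u', g') = (y, u, g) := by
    intro y u g y' u' g' e
    have h3 := hb' u; have h4 := hb' u'; have h5 := hc' g; have h6 := hc' g'
    have := small _ _ _ (by rw [abs_lt]; constructor <;> omega)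
      (by rw [abs_lt]; constructor <;> omega) e
    rw [ha (a₁ := y') (a₂ := y) (by omega), hb (a₁ := u') (a₂ := u) (by omega),
      hc (a₁ := g') (a₂ := g) (by omega)]
  refine ⟨⟨M, by omega, n, hn, x, fun g => (c g : ZMod M),
    fun y u => 4 * (B : ZMod M) ^ 2 * a y + 2 * B * b u, col, ?_, ?_⟩⟩
  · intro y y' u e
    have h0 : ((4 * B ^ 2 * ((a y' : ℤ) - a y) : ℤ) : ZMod M) = 0 := by
      push_cast
      linear_combination -e
    rw [ZMod.intCast_zmod_eq_zero_iff_dvd] at h0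
    have h1 := ha' y; have h2 := ha' y'
    have e1 : |(a y' : ℤ) - a y| ≤ B := by rw [abs_le]; constructor <;> omega
    have h3 : (4 * B ^ 2 * ((a y' : ℤ) - a y) : ℤ) = 0 := by
      refine Int.eq_zero_of_abs_lt_dvd h0 ?_
      rw [abs_mul, abs_of_pos (by positivity : (0 : ℤ) < 4 * B ^ 2)]
      have hM' : (2 * (8 * B ^ 3) : ℤ) < M := by exact_mod_cast hM
      have : 4 * (B : ℤ) ^ 2 * |(a y' : ℤ) - a y| ≤ 4 * B ^ 2 * B := by gcongr
      nlinarith [mul_pos hB0 (mul_pos hB0 hB0)]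
    have h4 := (mul_eq_zero.1 h3).resolve_left (by positivity)
    exact ha (by omega)
  · intro S v y
    let κ : ℤ → V × V := fun d =>
      (v, Classical.epsilon (fun y' => ∃ u g u' g', df y u g y' u' g' = d))
    obtain ⟨i, hi, h⟩ := hcol S κ
    refine ⟨i, hi, fun u g y' u' g' hn' => ?_⟩
    have h1 := h (df y u g y' u' g') (fun e => hn' (hne _ _ _ _ _ _ e)) (hdf _ _ _ _ _ _)
    have h2 : ((df y u g y' u' g' : ℤ) : ZMod M) =
        4 * (B : ZMod M) ^ 2 * a y' + 2 * B * b u' + c g' -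
          (4 * (B : ZMod M) ^ 2 * a y + 2 * B * b u) - c g := by
      simp only [df]
      push_cast
      ring
    rw [h2] at h1
    rw [h1]
    obtain ⟨u1, g1, u1', g1', e⟩ := Classical.epsilon_spec
      (p := fun y1 => ∃ u1 g1 u1' g1', df y u1 g1 y1 u1' g1' = df y u g y' u' g')
      ⟨y', u, g, u', g', rfl⟩
    exact Prod.ext rfl (hdet _ _ _ _ _ _ _ _ _ _ _ e)

/-- the left condition: all right types give a consistent output -/
def Hash.LeftOK {G W Go : Type} [Monoid Go] (H : Hash G W (Vc Go)) (Ψ : G → W → Go)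
    (i : ℕ) (S0 e : ZMod H.M) (v : Vc Go) : Prop :=
  ∀ y u g, lift (H.col (S0 + H.x ^ i * (e + H.ζ y u + H.ι g))) (Ψ g u) v = y

theorem Hash.complete {G W Go : Type} [Monoid Go] (H : Hash G W (Vc Go)) (S : ZMod H.M)
    (m : Go) (v : Vc Go) : ∃ i < H.n, ∀ (Ψ : G → W → Go) (S0 e : ZMod H.M) (u : W) (g : G),
      Ψ g u = m → S = S0 + H.x ^ i * (e + H.ζ (lift (H.col S) m v) u + H.ι g) →
        H.LeftOK Ψ i S0 e v := by
  obtain ⟨i, hi, h⟩ := H.good S v (lift (H.col S) m v)
  refine ⟨i, hi, fun Ψ S0 e u g hΨ hS y' u' g' => ?_⟩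
  by_cases hc : (y', u', g') = (lift (H.col S) m v, u, g)
  · simp only [Prod.mk.injEq] at hc
    obtain ⟨rfl, rfl, rfl⟩ := hc
    rw [← hS, hΨ]
  · have := h u g y' u' g' hc
    have e2 : S0 + H.x ^ i * (e + H.ζ y' u' + H.ι g')
        = S + H.x ^ i * (H.ζ y' u' + H.ι g' - H.ζ (lift (H.col S) m v) u - H.ι g) := by
      conv_rhs => rw [hS]
      rw [← hS]
      have : S - S0 = H.x ^ i * (e + H.ζ (lift (H.col S) m v) u + H.ι g) := by
        linear_combination hS
      linear_combination -this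
    rw [e2, this, lift_self]

end Vale.Agent.P329
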