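import Vale.Agent.P329.Code

/-! Affine threads and the level lemma. -/

namespace Vale.Agent.P329

/-- self maps, multiplied in the order of application -/
def Tr (V : Type) : Type := V → V

instance (V : Type) : Monoid (Tr V) where
  mul f g := fun v => g (f v)
  one := fun v => v
  mul_assoc _ _ _ := rfl
  one_mul _ := rfl
  mul_one _ := rfl

instance (V : Type) [Finite V] : Finite (Tr V) := inferInstanceAs (Finite (V → V))

theorem Tr.mul_app {V : Type} (f g : Tr V) (v : V) : (f * g) v = g (f v) := rfl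
theorem Tr.one_app {V : Type} (v : V) : (1 : Tr V) v = v := rfl

/-- the space of threads -/
abbrev Vc (G : Type) : Type := G → ZMod 2

/-- the linear action of the monoid on threads -/
def act {G : Type} [Monoid G] (g : G) (v : Vc G) : Vc G := fun x => v (g * x)

/-- the affine map with linear part `g` sending `p.1` to `p.2` -/
def lift {G : Type} [Monoid G] (p : Vc G × Vc G) (g : G) (v : Vc G) : Vc G :=
  act g (v - p.1) + p.2

theorem act_mul {G : Type} [Monoid G] (g h : G) (v : Vc G) :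
    act (g * h) v = act h (act g v) := by
  funext x; simp [act, mul_assoc]

theorem act_one {G : Type} [Monoid G] (v : Vc G) : act (1 : G) v = v := by
  funext x; simp [act]

theorem act_add {G : Type} [Monoid G] (g : G) (v w : Vc G) :
    act g (v + w) = act g v + act g w := rfl

theorem act_sub {G : Type} [Monoid G] (g : G) (v w : Vc G) :
    act g (v - w) = act g v - act g w := rfl

theorem act_zero {G : Type} [Monoid G] (g : G) : act g (0 : Vc G) = 0 := rfl

theorem lift_self {G : Type} [Monoid G] (v y : Vc G) (g : G) : lift (v, y) g v = y := by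
  simp [lift, act_zero]

theorem lift_zero {G : Type} [Monoid G] (g : G) (v : Vc G) : lift 0 g v = act g v := by
  simp [lift]

theorem lift_lin {G : Type} [Monoid G] (p : Vc G × Vc G) (g : G) (v : Vc G) :
    lift p g v = act g v + lift p g 0 := by
  simp only [lift, act_sub, act_zero]; abel

namespace Lv

set_option linter.unusedSectionVars false

variable {T G : Type} [Monoid G]

/-- words parsed by steps outside `K` that take the thread `a` to `b` -/
def N (C K : Set (List T)) (A : List T → Tr (Vc G)) (a b : Vc G) : Set (List T) :=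
  {w | ∃ f : Tr (Vc G), f a = b ∧ w ∈ Val (C \ K) A f}

/-- the pieces of the star -/
def Pc (C K : Set (List T)) (A : List T → Tr (Vc G)) (E F : Vc G → Set (List T)) :
    Set (List T) :=
  {w | ∃ p : Vc G × Vc G, w ∈ cat (cat (F p.1) (N C K A p.1 p.2)) (E p.2)}

/-- the words cut along the thread from `v` to `y` -/
def Q (C K : Set (List T)) (A : List T → Tr (Vc G)) (E F : Vc G → Set (List T)) (v y : Vc G) :
    Set (List T) :=
  N C K A v y ∪ {w | ∃ p : Vc G × Vc G,
    w ∈ cat (cat (cat (cat (N C K A v p.1) (E p.1)) (st (Pc C K A E F))) (F p.2)) (N C K A p.2 y)}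

theorem prod_lin (C : Set (List T)) (val : List T → G) (A : List T → Tr (Vc G))
    (hA : ∀ z ∈ C, ∀ v, A z v = act (val z) v + A z 0) (zs : List (List T))
    (hz : ∀ z ∈ zs, z ∈ C) (v : Vc G) :
    (zs.map A).prod v = act (zs.map val).prod v + (zs.map A).prod 0 := by
  induction zs generalizing v with
  | nil => simp [Tr.one_app, act_one]
  | cons z zs ih =>
    have ih' := ih (fun y hy => hz y (by simp [hy]))
    simp only [List.map_cons, List.prod_cons, Tr.mul_app]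
    rw [ih' (A z v), ih' (A z 0), hA z (hz z (by simp)) v, act_add, act_mul, add_assoc]

theorem N_nil (C K : Set (List T)) (A : List T → Tr (Vc G)) (v : Vc G) : [] ∈ N C K A v v :=
  ⟨1, rfl, [], by simp, rfl, rfl⟩

theorem N_cons (C K : Set (List T)) (A : List T → Tr (Vc G)) {z w : List T} (hz : z ∈ C)
    (hk : z ∉ K) {v b : Vc G} (h : w ∈ N C K A (A z v) b) : z ++ w ∈ N C K A v b := by
  obtain ⟨f, hf, xs, hx, rfl, rfl⟩ := h
  refine ⟨A z * (xs.map A).prod, hf, z :: xs, ?_, rfl, by simp⟩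
  intro y hy
  rcases List.mem_cons.1 hy with rfl | hy
  · exact ⟨hz, hk⟩
  · exact hx y hy

theorem N_cancel {C : Set (List T)} (hC : IsCode C) (K : Set (List T)) (A : List T → Tr (Vc G))
    {n u : List T} {a b : Vc G} (h : n ∈ N C K A a b) (zs : List (List T))
    (hz : ∀ z ∈ zs, z ∈ C) (e : n ++ u = zs.flatten) :
    ∃ zs' : List (List T), (∀ z ∈ zs', z ∈ C) ∧ zs'.flatten = u ∧ (zs.map A).prod a = (zs'.map A).prod b := by
  obtain ⟨f, hf, xs, hx, rfl, rfl⟩ := h
  obtain ⟨zs', rfl, h2⟩ := hC.cancel xs zs (fun z h => (hx z h).1) hz u e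
  refine ⟨zs', fun z h => hz z (by simp [h]), h2, ?_⟩
  rw [List.map_append, List.prod_append, Tr.mul_app, hf]

theorem Q_complete (C K : Set (List T)) (A : List T → Tr (Vc G)) (E F : Vc G → Set (List T))
    (complete : ∀ z ∈ C, z ∈ K → ∀ v, ∃ l ∈ E v, ∃ r ∈ F (A z v), z = l ++ r)
    (zs : List (List T)) (hz : ∀ z ∈ zs, z ∈ C) (v : Vc G) :
    zs.flatten ∈ Q C K A E F v ((zs.map A).prod v) := by
  induction zs generalizing v with
  | nil => exact Or.inl (N_nil C K A v)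
  | cons z zs ih =>
    have hzC : z ∈ C := hz z (by simp)
    have ih' := ih (fun y hy => hz y (by simp [hy])) (A z v)
    simp only [List.map_cons, List.prod_cons, Tr.mul_app, List.flatten_cons]
    generalize (zs.map A).prod (A z v) = y at ih' ⊢
    generalize zs.flatten = w at ih' ⊢
    by_cases hk : z ∈ K
    · obtain ⟨l, hl, r, hr, rfl⟩ := complete z hzC hk v
      right
      rcases ih' with h | ⟨p, _, ⟨_, ⟨_, ⟨n1, h1, l1, hl1, rfl⟩, _, ⟨ps, hps, rfl⟩, rfl⟩, r1, hr1, rfl⟩,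
        n2, h2, rfl⟩
      · exact ⟨(v, A (l ++ r) v), l ++ r, ⟨l, ⟨l, ⟨[], N_nil C K A v, l, hl, rfl⟩, [],
          ⟨[], by simp, rfl⟩, by simp⟩, r, hr, rfl⟩, w, h, rfl⟩
      · refine ⟨(v, p.2), l ++ ((r ++ n1 ++ l1) :: ps).flatten ++ r1, ⟨_, ⟨l,
          ⟨[], N_nil C K A v, l, hl, rfl⟩, _, ⟨(r ++ n1 ++ l1) :: ps, ?_, rfl⟩, rfl⟩, r1, hr1, rfl⟩,
          n2, h2, by simp⟩
        intro x hx
        rcases List.mem_cons.1 hx with rfl | hx
        · exact ⟨(A (l ++ r) v, p.1), _, ⟨r, hr, n1, h1, rfl⟩, l1, hl1, rfl⟩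
        · exact hps x hx
    · rcases ih' with h | ⟨p, _, ⟨_, ⟨_, ⟨n1, h1, l1, hl1, rfl⟩, s, hs, rfl⟩, r1, hr1, rfl⟩,
        n2, h2, rfl⟩
      · exact Or.inl (N_cons C K A hzC hk h)
      · exact Or.inr ⟨p, _, ⟨_, ⟨_, ⟨z ++ n1, N_cons C K A hzC hk h1, l1, hl1, rfl⟩, s, hs, rfl⟩,
          r1, hr1, rfl⟩, n2, h2, by simp⟩

theorem N_val {C : Set (List T)} (hC : IsCode C) (K : Set (List T)) (A : List T → Tr (Vc G))
    {a b : Vc G} (zs : List (List T)) (hz : ∀ z ∈ zs, z ∈ C) (h : zs.flatten ∈ N C K A a b) :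
    (zs.map A).prod a = b := by
  obtain ⟨zs', h1, h2, h3⟩ := N_cancel hC K A (u := []) h zs hz (by simp)
  have : zs' = [] := hC.unique zs' [] h1 (by simp) h2
  rw [h3, this]
  rfl

theorem Q_sound {C : Set (List T)} (hC : IsCode C) (K : Set (List T)) (A : List T → Tr (Vc G))
    (E F : Vc G → Set (List T))
    (sound : ∀ v y, ∀ l ∈ E v, ∀ r ∈ F y, ∀ zs : List (List T), (∀ z ∈ zs, z ∈ C) →
      ∀ u, l ++ r ++ u = zs.flatten →
        ∃ zs1 zs2, zs = zs1 ++ zs2 ∧ zs1.flatten = l ++ r ∧ (zs1.map A).prod v = y)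
    (zs : List (List T)) (hz : ∀ z ∈ zs, z ∈ C) (v y : Vc G)
    (h : zs.flatten ∈ Q C K A E F v y) : (zs.map A).prod v = y := by
  have junc : ∀ b a, ∀ l ∈ E b, ∀ r ∈ F a, ∀ zs : List (List T), (∀ z ∈ zs, z ∈ C) →
      ∀ u, l ++ r ++ u = zs.flatten → ∃ zs' : List (List T), (∀ z ∈ zs', z ∈ C) ∧ zs'.flatten = u ∧
        (zs.map A).prod b = (zs'.map A).prod a := by
    intro b a l hl r hr zs hz u e
    obtain ⟨zs1, zs2, rfl, h1, h2⟩ := sound b a l hl r hr zs hz u e
    refine ⟨zs2, fun z h => hz z (by simp [h]), ?_, ?_⟩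
    · rw [List.flatten_append, h1] at e
      exact (List.append_cancel_left e).symm
    · rw [List.map_append, List.prod_append, Tr.mul_app, h2]
  have key : ∀ a, ∀ r ∈ F a, ∀ n2 ∈ N C K A a y, ∀ ps : List (List T),
      (∀ p ∈ ps, p ∈ Pc C K A E F) → ∀ b, ∀ l ∈ E b, ∀ zs : List (List T), (∀ z ∈ zs, z ∈ C) →
      l ++ ps.flatten ++ r ++ n2 = zs.flatten → (zs.map A).prod b = y := by
    intro a r hr n2 h2 ps
    induction ps with
    | nil =>
      intro _ b l hl zs hz e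
      obtain ⟨zs', h1, h3, h4⟩ := junc b a l hl r hr zs hz n2 (by simpa using e)
      rw [h4]
      exact N_val hC K A zs' h1 (h3 ▸ h2)
    | cons p ps ih =>
      intro hps b l hl zs hz e
      obtain ⟨q, _, ⟨r', hr', n', hn', rfl⟩, l', hl', rfl⟩ := hps p (by simp)
      obtain ⟨zs', h1, h3, h4⟩ := junc b q.1 l hl r' hr' zs hz
        (n' ++ (l' ++ ps.flatten ++ r ++ n2)) (by rw [← e]; simp)
      obtain ⟨zs'', h5, h6, h7⟩ := N_cancel hC K A hn' zs' h1 h3.symm
      rw [h4, h7]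
      exact ih (fun x hx => hps x (by simp [hx])) q.2 l' hl' zs'' h5 h6.symm
  rcases h with h | ⟨p, _, ⟨_, ⟨_, ⟨n1, h1, l1, hl1, rfl⟩, _, ⟨ps, hps, rfl⟩, rfl⟩, r1, hr1, rfl⟩,
    n2, h2, e⟩
  · exact N_val hC K A zs hz h
  · obtain ⟨zs', h5, h6, h7⟩ := N_cancel hC K A (u := l1 ++ ps.flatten ++ r1 ++ n2) h1 zs hz
      (by rw [e]; simp)
    rw [h7]
    exact key p.2 r1 hr1 n2 h2 ps hps p.1 l1 hl1 zs' h5 h6.symm

end Lv

/-- The level lemma: one star hands every thread over in every step of `K`. -/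
theorem level {T G : Type} [Monoid G] [Finite G] (C0 C1 : Cls T) (hup : C0.Up C1)
    (C K : Set (List T)) (hC : IsCode C) (val : List T → G) (A : List T → Tr (Vc G))
    (hA : ∀ z ∈ C, ∀ v, A z v = act (val z) v + A z 0)
    (E F : Vc G → Set (List T))
    (sound : ∀ v y, ∀ l ∈ E v, ∀ r ∈ F y, ∀ zs : List (List T), (∀ z ∈ zs, z ∈ C) →
      ∀ u, l ++ r ++ u = zs.flatten →
        ∃ zs1 zs2, zs = zs1 ++ zs2 ∧ zs1.flatten = l ++ r ∧ (zs1.map A).prod v = y)
    (complete : ∀ z ∈ C, z ∈ K → ∀ v, ∃ l ∈ E v, ∃ r ∈ F (A z v), z = l ++ r)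
    (hE : ∀ v, C0.P (E v)) (hF : ∀ y, C0.P (F y))
    (hN : ∀ f, C0.P (Val (C \ K) A f)) (hS : C1.P (st C)) (g : G) :
    C1.P (Val C val g) := by
  classical
  have hN' : ∀ a b, C0.P (Lv.N C K A a b) := fun a b =>
    C0.exG (fun f : Tr (Vc G) => f a = b) _ (fun f _ => hN f)
  have hP : C0.P (Lv.Pc C K A E F) :=
    C0.ex _ (fun p => C0.mul (C0.mul (hF p.1) (hN' p.1 p.2)) (hE p.2))
  have hQ : ∀ v y, C1.P (Lv.Q C K A E F v y) := fun v y =>
    C1.union (hup.1 _ (hN' v y)) (C1.ex _ (fun p => C1.mul (C1.mul (C1.mul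
      (hup.1 _ (C0.mul (hN' v p.1) (hE p.1))) (hup.2 _ hP)) (hup.1 _ (hF p.2)))
      (hup.1 _ (hN' p.2 y))))
  let vg : Vc G := fun x => if x = g then 1 else 0
  have hv : ∀ zs : List (List T), (∀ z ∈ zs, z ∈ C) →
      (((zs.map A).prod vg - (zs.map A).prod 0) 1 = 1 ↔ (zs.map val).prod = g) := by
    intro zs hz
    rw [Lv.prod_lin C val A hA zs hz vg, add_sub_cancel_right]
    simp [act, vg]
  refine C1.congr (C1.exG (fun p : Vc G × Vc G => (p.2 - p.1) 1 = 1)
    (fun p => st C ∩ (Lv.Q C K A E F 0 p.1 ∩ Lv.Q C K A E F vg p.2))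
    (fun p _ => C1.inter hS (C1.inter (hQ _ _) (hQ _ _)))) ?_
  intro w
  constructor
  · rintro ⟨zs, hz, rfl, hg⟩
    exact ⟨((zs.map A).prod 0, (zs.map A).prod vg), (hv zs hz).2 hg, ⟨zs, hz, rfl⟩,
      Lv.Q_complete C K A E F complete zs hz 0, Lv.Q_complete C K A E F complete zs hz vg⟩
  · rintro ⟨p, hp, ⟨zs, hz, rfl⟩, h0, h1⟩
    refine ⟨zs, hz, rfl, (hv zs hz).1 ?_⟩
    rw [Lv.Q_sound hC K A E F sound zs hz _ _ h0, Lv.Q_sound hC K A E F sound zs hz _ _ h1]
    exact hp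

end Vale.Agent.P329
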