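import Vale.Agent.P329.USound

namespace Vale.Agent.P329
namespace ZP
variable {S G : Type} [Monoid G] (p : ZP S G)

/-- a bound on everything that is read at a fixed place -/
def N : ℕ := 2 * (p.θ + p.a + p.M + p.Λ) + 2 * p.μ.R + 1

theorem nt_take (w : List S) {j : ℕ} (h : j ≤ p.θ + p.a + p.M + p.Λ) :
    p.nt (w.take p.N) j ↔ p.nt w j := by
  unfold nt N
  rw [List.length_take]
  omega

theorem m_take (w : List S) {j : ℕ} (h : j ≤ p.θ + p.a + p.M + p.Λ) :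
    p.μ.m ((w.take p.N).drop j) ↔ p.μ.m (w.drop j) :=
  p.μ.take_iff w (by unfold N; omega)

theorem Win_take (e : ℕ) (w : List S) {j : ℕ} (h : j ≤ p.θ + p.a + p.M + p.Λ) :
    p.Win e (w.take p.N) j ↔ p.Win e w j := by
  unfold Win
  rw [p.nt_take w h]

theorem K_take (w : List S) : w.take p.N ∈ p.K ↔ w ∈ p.K := by
  constructor
  · rintro ⟨j, hm, hw⟩
    have := p.inW_bd hw.inW
    exact ⟨j, (p.m_take w (by omega)).1 hm, (p.Win_take 0 w (by omega)).1 hw⟩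
  · rintro ⟨j, hm, hw⟩
    have := p.inW_bd hw.inW
    exact ⟨j, (p.m_take w (by omega)).2 hm, (p.Win_take 0 w (by omega)).2 hw⟩

theorem Dc_take (e : ℕ) (w : List S) : p.Dc e (w.take p.N) ↔ p.Dc e w := by
  constructor
  · rintro ⟨j, hm, hw⟩
    have : j ≤ p.θ + p.a + p.M + p.Λ := by omega
    rw [p.nt_take w this] at hw
    exact ⟨j, (p.m_take w this).1 hm, hw⟩
  · rintro ⟨j, hm, hw⟩
    have : j ≤ p.θ + p.a + p.M + p.Λ := by omega
    rw [← p.nt_take w this] at hw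
    exact ⟨j, (p.m_take w this).2 hm, hw⟩

theorem Far_take (w : List S) (j : ℕ) : p.Far (w.take p.N) j ↔ p.Far w j := by
  unfold Far
  by_cases h : j < p.θ
  · rw [p.nt_take w (by omega), p.m_take w (by omega)]
  · simp [h]

theorem E_ht [Finite S] (v : Vc G) : Ht 0 (p.E v) := by
  refine (HtC S 0).bdd p.Λ ?_
  rintro w ⟨s, -, hs⟩
  rw [hs.1]
  exact p.pos_le s

theorem F_ht [Finite S] [Finite G] (y : Vc G) : Ht 1 (p.F y) := by
  have hamb := amb_simple (HtC S 1) (HtC_mod S 0) p.φ p.μ.P (p.θ + p.μ.D + 1) p.μ.Ppos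
  have hΛ := p.hΛ
  refine (HtC S 1).congr ((HtC S 1).ex
    (fun i : Slot p.H × Fin (p.θ + p.a + p.M) × Vc G =>
      p.μ.Z (p.θ - p.γ.pos i.1) ∩ {r | r ∈ Simple p.μ.P (p.θ + p.μ.D + 1) ∧
        (p.μ.m (r.drop i.2.1) ∧ p.Win (p.γ.pos i.1) r i.2.1 ∧
          r.take (p.hr (p.γ.pos i.1) r i.2.1) ∈ p.γ.XF p.φ i.1 () i.2.2 ∧
          y = act (wv p.φ (r.drop (p.hr (p.γ.pos i.1) r i.2.1))) i.2.2)}) ?_) ?_
  · rintro ⟨s, j, y1⟩
    refine (HtC S 1).inter (p.μ.Z_cls _ _) (hamb p.N _ ?_)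
    intro w w' e1 e2
    have hj : (j : ℕ) ≤ p.θ + p.a + p.M + p.Λ := by have := j.2; omega
    have hN : (j : ℕ) + p.μ.R ≤ p.N := by unfold N; omega
    simp only
    rw [← p.m_take w hj, ← p.m_take w' hj, ← p.Win_take _ w hj, ← p.Win_take _ w' hj, e1]
    unfold hr
    split_ifs with hc
    · have h1 := Inv.take (ψ := p.φ) hN w w' e1 e2
      have h2 := Inv.wv_drop (ψ := p.φ) hN w w' e1 e2
      simp only at h1 h2
      rw [h1, h2]
    · have h1 := (p.γ.XF_inv p.φ s () y1).mono (N' := p.N) (by unfold N; omega) w w' e1 e2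
      simp only at h1
      rw [List.take_length, List.take_length, List.drop_length, List.drop_length, h1]
  · intro w
    constructor
    · rintro ⟨s, j, y1, h1, h2, h3, h4⟩
      have := p.inW_bd h3.inW
      exact ⟨(s, ⟨j, by omega⟩, y1), h1,
        Simple.mono (by omega) (p.μ.Z_simple _ h1), h2, h3, h4⟩
    · rintro ⟨⟨s, j, y1⟩, h1, -, h2, h3, h4⟩
      exact ⟨s, j, y1, h1, h2, h3, h4⟩

theorem K_ht [Finite S] : Ht 0 p.K :=
  (HtC S 0).congr ((HtC S 0).takeP p.N (fun u => u ∈ p.K)) (fun w => (p.K_take w).symm)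

theorem C1_ht [Finite S] : Ht 0 p.C1 :=
  (HtC S 0).diff (p.μ.Z_cls _ _) p.K_ht

theorem Dc_ht [Finite S] (e : ℕ) : Ht 0 {w | p.Dc e w} :=
  (HtC S 0).congr ((HtC S 0).takeP p.N (fun u => p.Dc e u)) (fun w => (p.Dc_take e w).symm)

theorem D_ht [Finite S] : Ht 0 p.D :=
  (HtC S 0).inter p.C1_ht (p.Dc_ht 0)

theorem RN_ht [Finite S] : Ht 0 p.RN :=
  (HtC S 0).allS (Set.finite_lt_nat p.M) (fun e => p.μ.Z (p.θ - e) ∩ {w | p.Dc e w}ᶜ)
    (fun e _ => (HtC S 0).inter (p.μ.Z_cls _ _) ((HtC S 0).compl (p.Dc_ht e)))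

theorem A_inv : ∃ N, Inv p.φ N p.A := by
  refine ⟨p.N, fun w w' e1 e2 => ?_⟩
  have hΛ := p.hΛ
  have hfar : ∀ j, p.Far w j ↔ p.Far w' j := fun j => by
    rw [← p.Far_take w, ← p.Far_take w', e1]
  have hK : w ∈ p.K ↔ w' ∈ p.K := by rw [← p.K_take w, ← p.K_take w', e1]
  have hm : ∀ j, j ≤ p.θ + p.a + p.M + p.Λ → (p.μ.m (w.drop j) ↔ p.μ.m (w'.drop j)) :=
    fun j hj => by rw [← p.m_take w hj, ← p.m_take w' hj, e1]
  have main : wv p.φ (w.drop (p.hl w)) = wv p.φ (w'.drop (p.hl w')) ∧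
      wv p.φ (w.take (p.hl w)) = wv p.φ (w'.take (p.hl w')) ∧
      p.γ.hS p.φ (w.take (p.hl w)) = p.γ.hS p.φ (w'.take (p.hl w')) ∧
      ∀ (s s' : Slot p.H) (y : Vc G),
        ((w.take (p.hl w)).drop (p.γ.pos s) ∈ p.γ.XF p.φ s' () y) =
        ((w'.take (p.hl w')).drop (p.γ.pos s) ∈ p.γ.XF p.φ s' () y) := by
    by_cases hc : ∃ j, p.Far w j
    · obtain ⟨j, hj⟩ := hc
      rw [p.hl_far hj, p.hl_far ((hfar j).1 hj)]
      have hN : j + p.μ.R ≤ p.N := by have := hj.2.2.1; unfold N; omega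
      have h1 := Inv.take (ψ := p.φ) hN w w' e1 e2
      have h2 := Inv.wv_drop (ψ := p.φ) hN w w' e1 e2
      simp only at h1 h2
      rw [h1, h2]
      exact ⟨rfl, rfl, rfl, fun _ _ _ => rfl⟩
    · rw [p.hl_none (fun j hj => hc ⟨j, hj⟩), p.hl_none (fun j hj => hc ⟨j, (hfar j).2 hj⟩),
        List.take_length, List.take_length, List.drop_length, List.drop_length]
      refine ⟨rfl, ?_, (p.γ.hS_inv p.φ).mono (N' := p.N) (by unfold N; omega) w w' e1 e2,
        fun s s' y => ?_⟩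
      · rw [← wv_take_drop p.φ p.N w, ← wv_take_drop p.φ p.N w', e1, e2]
      · have := p.pos_le s
        exact ((p.γ.XF_inv p.φ s' () y).drop (p.γ.pos s)).mono (N' := p.N)
          (by unfold N; omega) w w' e1 e2
  obtain ⟨h1, h2, h3, h4⟩ := main
  have hJ : p.J w = p.J w' := by
    funext q
    unfold J
    refine propext (exists_congr fun s => exists_congr fun s' => exists_congr fun j => ?_)
    rw [h4]
    refine and_congr_right fun _ => and_congr_right fun _ => and_congr_right fun hin => ?_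
    have := p.inW_bd hin
    have := p.pos_le s
    rw [hm _ (by omega)]
  have hc : p.colU w = p.colU w' := by
    unfold colU
    rw [h3, hJ]
    by_cases h : w ∈ p.K
    · rw [if_pos h, if_pos (hK.1 h)]
    · rw [if_neg h, if_neg (fun h' => h (hK.2 h'))]
  funext v
  unfold A
  rw [h1, h2, hc]

theorem A_ht [Finite S] [Finite G] (f : Tr (Vc G)) : Ht 1 {z | z ∈ p.C1 ∧ p.A z = f} := by
  obtain ⟨N, hN⟩ := p.A_inv
  have hamb := amb_simple (HtC S 1) (HtC_mod S 0) p.φ p.μ.P (p.θ + p.μ.D + 1) p.μ.Ppos N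
    (fun z => p.A z = f) (fun w w' e1 e2 => by simp only; rw [hN w w' e1 e2])
  refine (HtC S 1).congr ((HtC S 1).inter (p.C1_ht.mono (by omega)) hamb) (fun w => ?_)
  constructor
  · rintro ⟨h1, h2⟩; exact ⟨h1, p.μ.Z_simple _ h1.1, h2⟩
  · rintro ⟨h1, -, h2⟩; exact ⟨h1, h2⟩

end ZP
end Vale.Agent.P329
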