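import Vale.Agent.P329.USound

namespace Vale.Agent.P329
namespace ZP
variable {S G : Type} [Monoid G] (p : ZP S G)

theorem D_bdd : ∃ L, ∀ z ∈ p.D, z.length ≤ L := by
  refine ⟨p.θ + p.a + (p.μ.R + p.θ + p.a + p.M + p.Λ) + p.μ.R, ?_⟩
  rintro z ⟨⟨⟨b, hb1, hb2, hb3, hb4⟩, -⟩, j, hm, h | h⟩
  · have : b ≤ j := by
      by_contra hc
      exact hb4 j (by omega) (by omega) hm
    omega
  · have := h.2.2
    unfold nt at this
    omega

theorem D_win : ∀ z ∈ p.D, ∃ j, p.θ - p.a ≤ j ∧ j < p.θ - p.a + 2 * p.a ∧ p.μ.m (z.drop j) := by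
  rintro z ⟨-, j, hm, h | h⟩
  · have := p.hθ
    exact ⟨j, by omega, by omega, hm⟩
  · have := p.hθ
    exact ⟨j, by omega, by omega, hm⟩

theorem D_hl {z : List S} (hz : z ∈ p.D) : p.hl z = z.length := by
  obtain ⟨-, j, hm, h⟩ := hz
  have hg := p.hg
  refine p.hl_none (fun j' hf => ?_)
  have h1 := hf.2.1
  have h2 := hf.2.2.1
  have e : j' = j := p.μ.uniq hf.1 hm (by omega) (by omega)
  subst e
  rcases h with h | h
  · omega
  · exact hf.2.2.2 h.2.2

theorem A_invD : ∀ z ∈ p.D, ∀ z' ∈ p.D, ∀ j, p.θ - p.a ≤ j → j < p.θ - p.a + 2 * p.a →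
    p.μ.m (z.drop j) → p.μ.m (z'.drop j) → z.take (2 * p.Λ) = z'.take (2 * p.Λ) →
    wv p.φ (z.drop (2 * p.Λ)) = wv p.φ (z'.drop (2 * p.Λ)) → p.A z = p.A z' := by
  intro z hz z' hz' j h1 h2 hm hm' e1 e2
  have hg := p.hg
  have hθ := p.hθ
  have ha := p.ha
  have hΛ := p.hΛ
  have hw : wv p.φ z = wv p.φ z' := by
    rw [← wv_take_drop p.φ (2 * p.Λ) z, ← wv_take_drop p.φ (2 * p.Λ) z', e1, e2]
  have key : ∀ z ∈ p.D, ∀ z' ∈ p.D, p.μ.m (z.drop j) → p.μ.m (z'.drop j) →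
      z.take (2 * p.Λ) = z'.take (2 * p.Λ) →
      wv p.φ (z.drop (2 * p.Λ)) = wv p.φ (z'.drop (2 * p.Λ)) → ∀ q, p.J z q → p.J z' q := by
    rintro z hz z' hz' hm hm' e1 e2 q ⟨s, s', i, hne, hq, hin, hmi, hx⟩
    have a1 := p.pos_le s
    have a2 := p.pos_le s'
    have b1 := p.inW_bd hin
    have e : p.γ.pos s + i = j := p.μ.uniq hmi hm (by omega) (by omega)
    refine ⟨s, s', i, hne, hq, hin, by rw [e]; exact hm', ?_⟩
    rw [p.D_hl hz, List.take_length] at hx
    rw [p.D_hl hz', List.take_length]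
    have := (((p.γ.XF_inv p.φ s' () q.2).drop (p.γ.pos s)).mono
      (N' := 2 * p.Λ) (by omega)) z z' e1 e2
    exact Eq.mp this hx
  have hJ : p.J z = p.J z' := by
    funext q
    exact propext ⟨key z hz z' hz' hm hm' e1 e2 q, key z' hz' z hz hm' hm e1.symm e2.symm q⟩
  have hc : p.colU z = p.colU z' := by
    unfold colU
    rw [if_neg hz.1.2, if_neg hz'.1.2, hJ]
  funext v
  unfold A
  rw [p.D_hl hz, p.D_hl hz', List.take_length, List.take_length, List.drop_length,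
    List.drop_length, hw, hc]

theorem RN_sound : ∀ l ∈ {l : List S | l.length < p.M}, ∀ r ∈ p.RN,
    l ++ r ∈ p.Z ∧ l ++ r ∉ p.D := by
  intro l hl r hr
  have hl' : l.length < p.M := hl
  have hθ := p.hθ
  have ha := p.ha
  obtain ⟨h1, h2⟩ := hr l.length hl'
  refine ⟨(p.μ.Z_shift l r (by omega)).2 h1, ?_⟩
  rintro ⟨-, j, hm, h⟩
  have hj : l.length ≤ j := by omega
  obtain ⟨i, rfl⟩ := Nat.exists_eq_add_of_le hj
  rw [List.drop_length_add_append] at hm
  refine h2 ⟨i, hm, ?_⟩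
  rcases h with h | h
  · exact Or.inl (by omega)
  · refine Or.inr ⟨by omega, by omega, ?_⟩
    have := h.2.2
    unfold nt at this ⊢
    rw [List.length_append] at this
    omega

theorem RN_complete : ∀ z ∈ p.C1, z ∉ p.D → ∀ e < p.M, e ≤ z.length ∧ z.drop e ∈ p.RN := by
  intro z hz hD e he
  have hθ := p.hθ
  have ha := p.ha
  have hzl := p.μ.Z_len hz.1
  have hel : e ≤ z.length := by omega
  refine ⟨hel, fun e' he' => ?_⟩
  have no : ∀ j, p.μ.m (z.drop j) → p.θ ≤ j + p.M → j < p.θ + p.a + p.M → False := by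
    intro j hm h1 h2
    by_cases c1 : j < p.θ
    · by_cases c2 : p.nt z j
      · exact hD ⟨hz, j, hm, Or.inr ⟨by omega, by omega, c2⟩⟩
      · exact hz.2 ⟨j, hm, Or.inr (Or.inr ⟨by omega, by omega, c2⟩)⟩
    · by_cases c2 : j < p.θ + p.a
      · exact hD ⟨hz, j, hm, Or.inl ⟨by omega, by omega⟩⟩
      · exact hz.2 ⟨j, hm, Or.inl ⟨by omega, by omega⟩⟩
  constructor
  · by_contra hc
    have h0 : z.drop e ∈ p.μ.Z (p.θ - e) := by
      have := (p.μ.Z_shift (z.take e) (z.drop e) (θ := p.θ)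
        (by rw [List.length_take]; omega)).1 (by rw [List.take_append_drop]; exact hz.1)
      rwa [List.length_take, min_eq_left hel] at this
    obtain ⟨j, h1, h2, hm⟩ := p.μ.Z_diff h0 hc
    rw [List.drop_drop] at hm
    exact no _ hm (by omega) (by omega)
  · rintro ⟨j, hm, h⟩
    rw [List.drop_drop] at hm
    rcases h with h | h
    · exact no _ hm (by omega) (by omega)
    · have hnt : p.nt z (e + j) := by
        have := h.2.2
        unfold nt at this ⊢
        rw [List.length_drop] at this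
        omega
      by_cases c1 : e + j + p.a < p.θ
      · exact hz.2 ⟨e + j, hm, Or.inr (Or.inl ⟨by omega, by omega, hnt⟩)⟩
      · by_cases c2 : e + j < p.θ
        · exact hD ⟨hz, e + j, hm, Or.inr ⟨by omega, by omega, hnt⟩⟩
        · exact hD ⟨hz, e + j, hm, Or.inl ⟨by omega, by omega⟩⟩

end ZP
end Vale.Agent.P329
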