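import Vale.Agent.P329.USound
import Vale.Agent.P329.UCls
import Vale.Agent.P329.UGeo

namespace Vale.Agent.P329

theorem main_monoid (S G : Type) [Finite S] [Monoid G] [Finite G] (φ : S → G) (m : G) :
    Ht 4 {w | wv φ w = m} := by
  classical
  obtain ⟨M, hM, hA⟩ := tokenA (Tr (Vc G))
  obtain ⟨H⟩ := exists_hash G (Unit × G) (Vc G)
  obtain ⟨γ, hγ⟩ := exists_geo_sidon H M
  obtain ⟨LB, hB⟩ := exact G (Tr (Vc G)) (2 * γ.cb H.n) (2 * (2 * γ.cb H.n + 2 * M))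
  obtain ⟨μ⟩ := exists_mk S (2 * (2 * γ.cb H.n + 2 * M) + 2 * M + 2 * γ.cb H.n + LB)
  let p : ZP S G :=
    { φ := φ, M := M, Mpos := hM, H := H, γ := γ, sid := hγ, Λ := γ.cb H.n, hΛ := le_rfl
      a := 2 * γ.cb H.n + 2 * M, ha := le_rfl
      θ := 2 * γ.cb H.n + 2 * M + M + 2 * γ.cb H.n + LB, hθ := by omega
      g := 2 * (2 * γ.cb H.n + 2 * M) + 2 * M + 2 * γ.cb H.n + LB, hg := by omega
      μ := μ }
  have hZ : IsCode p.Z := μ.Z_code _
  have hC1 : p.C1 ⊆ p.Z := fun _ h => h.1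
  have hD : p.D ⊆ p.C1 := fun _ h => h.1
  have hc1 : IsCode p.C1 := hZ.mono hC1
  obtain ⟨L, hL⟩ := p.D_bdd
  have hDv : ∀ f, Ht 1 (Val p.D p.A f) := by
    refine hB S φ _ p.θ (p.θ - p.a) μ p.D {w | w.length ≤ L} p.A (HtC S 0) (HtC S 1)
      (HtC_up S 0) (by simp only [p]; omega) (by simp only [p]; omega) (by omega)
      (fun z hz => hC1 (hD hz)) p.D_win p.A_invD ?_ (amb_bdd _ _ _) p.D_ht
    intro z hz s
    have := hL z hz
    simp only [Set.mem_setOf_eq, List.length_drop]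
    omega
  have hY : ∀ f, Ht 3 (Val (tok p.C1 p.D) (fun y => ((parse p.C1 y).map p.A).prod) f) := by
    refine hA S (tok p.C1 p.D) (cat (st p.D) {l | l.length < p.M}) (cat p.RN p.C1) _
      (tok_code hc1 hD) (tok_cnt hc1 hD p.C1_ht p.D_ht)
      (tok_val hc1 hD p.D_ht p.A hDv p.A_ht) ?_ ?_ (tok_sound hZ hC1 hD p.RN_sound) ?_
    · exact (HtC S 1).mul p.D_ht.star ((HtC S 1).bdd p.M (fun w hw => le_of_lt hw))
    · exact (HtC S 1).mul (p.RN_ht.mono (by omega)) (p.C1_ht.mono (by omega))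
    · rintro y ⟨d, hd, n, ⟨z, hz, c, hc, rfl⟩, rfl⟩ e
      haveI : NeZero M := ⟨hM.ne'⟩
      have hlt : (e - (d.length : ZMod M)).val < p.M := ZMod.val_lt _
      obtain ⟨h1, h2⟩ := p.RN_complete z hz.1 hz.2 _ hlt
      refine ⟨d ++ z.take (e - (d.length : ZMod M)).val, ⟨d, hd, _, ?_, rfl⟩,
        z.drop (e - (d.length : ZMod M)).val ++ c, ⟨_, h2, c, hc, rfl⟩, ?_, ?_⟩
      · simp only [Set.mem_setOf_eq, List.length_take]; omega
      · simp only [List.append_assoc]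
        rw [← List.append_assoc (z.take _), List.take_append_drop]
      · rw [List.length_append, List.length_take, min_eq_left h1]
        push_cast
        rw [ZMod.natCast_zmod_val]; ring
  have hN : ∀ f, Ht 3 (Val (p.Z \ p.K) p.A f) :=
    tok_back hc1 hD p.D_ht p.A hDv p.A_ht hY
  have hV : ∀ x, Ht 4 (Val p.Z (wv φ) x) :=
    level (HtC S 3) (HtC S 4) (HtC_up S 3) p.Z p.K hZ (wv φ) p.A (fun z _ v => p.A_lin z v)
      p.E p.F p.U_sound p.U_complete (fun v => (p.E_ht v).mono (by omega))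
      (fun y => (p.F_ht y).mono (by omega)) hN
      ((Ht.star (μ.Z_cls (HtC S 0) p.θ)).mono (by omega))
  have hT : ∀ x, Ht 4 {w | w ∈ Tail p.Z ∧ wv φ w = x} := by
    intro x
    have h1 := simple_wv (HtC S 4) (HtC_mod S 3) φ μ.P (p.θ + μ.D + 1) μ.Ppos x
    have h2 := Tail_cls (HtC S 4) (μ.Z_cls (HtC S 4) p.θ)
    refine (HtC S 4).congr ((HtC S 4).inter h2 h1) (fun w => ?_)
    constructor
    · rintro ⟨h3, h4⟩; exact ⟨h3, μ.Tail_simple _ h3, h4⟩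
    · rintro ⟨h3, -, h4⟩; exact ⟨h3, h4⟩
  refine (HtC S 4).congr ((HtC S 4).exG (fun q : G × G => q.1 * q.2 = m)
    (fun q => cat (Val p.Z (wv φ) q.1) {w | w ∈ Tail p.Z ∧ wv φ w = q.2})
    (fun q _ => (HtC S 4).mul (hV _) (hT _))) (fun w => ?_)
  constructor
  · intro hw
    obtain ⟨zs, u, hu, hzs, rfl⟩ := hZ.split w
    refine ⟨((zs.map (wv φ)).prod, wv φ u), ?_, _, ⟨zs, hzs, rfl, rfl⟩, u, ⟨hu, rfl⟩, rfl⟩
    rw [← wv_flatten, ← wv_append]; exact hw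
  · rintro ⟨q, hq, _, ⟨zs, -, rfl, h1⟩, u, ⟨-, h2⟩, rfl⟩
    show wv φ _ = m
    rw [wv_append, wv_flatten, h1, h2, hq]

end Vale.Agent.P329
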