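import Vale.Agent.P329.Code

/-! Words that are periodic up to bounded ends. -/

namespace Vale.Agent.P329

/-- words that are `P`-periodic away from their first and last `D` letters -/
def Simple {T : Type} (P D : ℕ) : Set (List T) :=
  {w | ∀ i, D ≤ i → i + P + D < w.length → w[i]? = w[i + P]?}

/-- `f` depends only on the first `N` letters and the value of the rest -/
def Inv {T G β : Type} [Monoid G] (ψ : T → G) (N : ℕ) (f : List T → β) : Prop :=
  ∀ w w' : List T, w.take N = w'.take N → wv ψ (w.drop N) = wv ψ (w'.drop N) → f w = f w'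

/-- inside `B` every invariant condition is expressible in the class -/
def Amb {T G : Type} [Monoid G] (C : Cls T) (ψ : T → G) (B : Set (List T)) : Prop :=
  ∀ (N : ℕ) (Q : List T → Prop), Inv ψ N Q → C.P {w | w ∈ B ∧ Q w}

theorem Simple.mono {T : Type} {P D D' : ℕ} (h : D ≤ D') :
    (Simple P D : Set (List T)) ⊆ Simple P D' :=
  fun _ hw i hi hl => hw i (h.trans hi) (by omega)

theorem Simple.drop {T : Type} {P D : ℕ} {w : List T} (h : w ∈ Simple P D) (s : ℕ) :
    w.drop s ∈ Simple P D := by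
  intro i hi hl
  rw [List.length_drop] at hl
  rw [List.getElem?_drop, List.getElem?_drop, ← Nat.add_assoc]
  exact h (s + i) (by omega) (by omega)

section inv
variable {T G β : Type} [Monoid G] {ψ : T → G}

theorem wv_drop_split (ψ : T → G) {c N : ℕ} (h : c ≤ N) (w : List T) :
    wv ψ (w.drop c) = wv ψ ((w.take N).drop c) * wv ψ (w.drop N) := by
  rw [List.drop_take, ← wv_take_drop ψ (N - c) (w.drop c), List.drop_drop,
    Nat.add_sub_cancel' h]

theorem take_of_take {c N : ℕ} (h : c ≤ N) {w w' : List T} (e : w.take N = w'.take N) :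
    w.take c = w'.take c := by
  have := congrArg (List.take c) e
  rwa [List.take_take, List.take_take, min_eq_left h] at this

theorem Inv.mono {N N' : ℕ} {f : List T → β} (h : Inv ψ N f) (hN : N ≤ N') : Inv ψ N' f := by
  intro w w' h1 h2
  refine h w w' (take_of_take hN h1) ?_
  rw [wv_drop_split ψ hN w, wv_drop_split ψ hN w', h1, h2]

theorem Inv.take {N c : ℕ} (h : c ≤ N) : Inv ψ N (fun w => w.take c) := by
  intro w w' h1 _
  exact take_of_take h h1

theorem Inv.wv_drop {N c : ℕ} (h : c ≤ N) : Inv ψ N (fun w => wv ψ (w.drop c)) := by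
  intro w w' h1 h2
  show wv ψ (w.drop c) = wv ψ (w'.drop c)
  rw [wv_drop_split ψ h w, wv_drop_split ψ h w', h1, h2]

theorem Inv.len_le {N c : ℕ} (h : c < N) : Inv ψ N (fun w => w.length ≤ c) := by
  intro w w' h1 _
  have := congrArg List.length h1
  rw [List.length_take, List.length_take] at this
  apply propext
  omega

/-- shifting an invariant function -/
theorem Inv.drop {N : ℕ} {f : List T → β} (h : Inv ψ N f) (s : ℕ) :
    Inv ψ (s + N) (fun w => f (w.drop s)) := by
  intro w w' h1 h2
  refine h _ _ ?_ ?_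
  · have := congrArg (List.drop s) h1
    rwa [List.drop_take, List.drop_take, Nat.add_sub_cancel_left] at this
  · rwa [List.drop_drop, List.drop_drop]

end inv

theorem simple_cls {T : Type} [Finite T] (C : Cls T) (P D : ℕ) : C.P (Simple P D) := by
  refine C.congr (C.compl (C.mul (C.lenGe D) (C.takeP (P + D + 1)
    (fun u => P + D < u.length ∧ u[0]? ≠ u[P]?)))) ?_
  intro w
  have key : ∀ v : List T, (P + D < (v.take (P + D + 1)).length ∧
      (v.take (P + D + 1))[0]? ≠ (v.take (P + D + 1))[P]?) ↔ (P + D < v.length ∧ v[0]? ≠ v[P]?) := by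
    intro v
    rw [List.getElem?_take_of_lt (by omega), List.getElem?_take_of_lt (by omega),
      List.length_take]
    constructor
    · rintro ⟨h1, h2⟩; exact ⟨by omega, h2⟩
    · rintro ⟨h1, h2⟩; exact ⟨by omega, h2⟩
  constructor
  · rintro hw ⟨u, hu, v, hv, rfl⟩
    obtain ⟨h1, h2⟩ := (key v).1 hv
    have hu' : D ≤ u.length := hu
    have := hw u.length hu' (by rw [List.length_append]; omega)
    rw [List.getElem?_append_right le_rfl, List.getElem?_append_right (by omega), Nat.sub_self,
      Nat.add_sub_cancel_left] at this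
    exact h2 this
  · intro hw i hi hl
    by_contra hne
    refine hw ⟨w.take i, ?_, w.drop i, (key _).2 ⟨?_, ?_⟩, (List.take_append_drop i w).symm⟩
    · show D ≤ (w.take i).length
      rw [List.length_take]; omega
    · rw [List.length_drop]; omega
    · rwa [List.getElem?_drop, List.getElem?_drop]

theorem exists_period (G : Type) [Monoid G] [Finite G] :
    ∃ o, 0 < o ∧ ∀ (x : G) (s : ℕ), o ≤ s → x ^ s = x ^ (o + s % o) := by
  classical
  have := Fintype.ofFinite G
  have h1 : ∀ x : G, ∃ i p : ℕ, 0 < p ∧ x ^ (i + p) = x ^ i := by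
    intro x
    obtain ⟨i, j, hij, e⟩ := Finite.exists_ne_map_eq_of_infinite (fun n : ℕ => x ^ n)
    rcases lt_or_gt_of_ne hij with h | h
    · exact ⟨i, j - i, by omega, by rw [Nat.add_sub_cancel' h.le]; exact e.symm⟩
    · exact ⟨j, i - j, by omega, by rw [Nat.add_sub_cancel' h.le]; exact e⟩
  choose ι p hp he using h1
  have h2 : ∀ (x : G) (k s : ℕ), ι x ≤ s → x ^ (s + p x * k) = x ^ s := by
    intro x k s hs
    induction k with
    | zero => simp
    | succ k ih =>
      have : s + p x * (k + 1) = (ι x + p x) + (s - ι x + p x * k) := by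
        rw [Nat.mul_succ]; omega
      rw [this, pow_add, he, ← pow_add, ← ih]
      congr 1
      omega
  have hpos : 0 < ∏ x, (ι x + 1) * p x :=
    Finset.prod_pos (fun x _ => Nat.mul_pos (Nat.succ_pos _) (hp x))
  refine ⟨∏ x, (ι x + 1) * p x, hpos, fun x s hs => ?_⟩
  have hd : (ι x + 1) * p x ∣ ∏ x, (ι x + 1) * p x :=
    Finset.dvd_prod_of_mem (fun x => (ι x + 1) * p x) (Finset.mem_univ x)
  generalize ∏ x, (ι x + 1) * p x = o at hpos hs hd
  have hle : ι x ≤ o := by
    have := Nat.le_of_dvd hpos hd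
    have := hp x
    nlinarith
  obtain ⟨k, hk⟩ := (Dvd.intro_left _ rfl : p x ∣ (ι x + 1) * p x).trans hd
  have h3 : 1 ≤ s / o := (Nat.le_div_iff_mul_le hpos).2 (by omega)
  have h4 : s = (o + s % o) + p x * (k * (s / o - 1)) := by
    rw [← Nat.mul_assoc, ← hk, Nat.mul_sub, Nat.mul_one]
    have := Nat.div_add_mod s o
    have : o ≤ o * (s / o) := Nat.le_mul_of_pos_right o h3
    omega
  conv_lhs => rw [h4]
  exact h2 x _ _ (by omega)

theorem wv_periodic {T G : Type} [Monoid G] (ψ : T → G) (P s : ℕ) (m : List T)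
    (hm : m ∈ Simple P 0) (hl : m.length = s * P) : wv ψ m = wv ψ (m.take P) ^ s := by
  induction s generalizing m with
  | zero =>
    have : m = [] := List.length_eq_zero_iff.1 (by simpa using hl)
    simp [this]
  | succ s ih =>
    have hl' : (m.drop P).length = s * P := by
      rw [List.length_drop, hl, Nat.succ_mul]; omega
    rw [← wv_take_drop ψ P m, ih (m.drop P) (Simple.drop hm P) hl', pow_succ']
    rcases Nat.eq_zero_or_pos s with rfl | hs
    · simp
    · have : (m.drop P).take P = m.take P := by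
        apply List.ext_getElem?
        intro i
        by_cases hi : i < P
        · rw [List.getElem?_take_of_lt hi, List.getElem?_take_of_lt hi, List.getElem?_drop,
            Nat.add_comm]
          refine (hm i (Nat.zero_le _) ?_).symm
          have : P ≤ s * P := Nat.le_mul_of_pos_left P hs
          rw [hl, Nat.succ_mul]; omega
        · rw [List.getElem?_eq_none (by rw [List.length_take]; omega),
            List.getElem?_eq_none (by rw [List.length_take]; omega)]
      rw [this]

theorem periodic_wv {T G : Type} [Finite T] [Monoid G] [Finite G] (C : Cls T) (hC : C.Mod)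
    (ψ : T → G) (P : ℕ) (hP : 0 < P) (g : G) :
    C.P {w | w ∈ Simple P 0 ∧ P ∣ w.length ∧ wv ψ w = g} := by
  obtain ⟨o, ho, hper⟩ := exists_period G
  have hoP : 0 < o * P := Nat.mul_pos ho hP
  have h1 : C.P {w : List T | w.length ≤ o * P ∧ w ∈ Simple P 0 ∧ P ∣ w.length ∧ wv ψ w = g} :=
    C.bdd (o * P) (fun w hw => hw.1)
  have h2 := C.inter (C.inter (C.inter (simple_cls C P 0) (hC P hP)) (C.lenGe (o * P)))
    (C.exS (Set.finite_lt_nat (o * P)) (fun ρ => {w : List T | w.length % (o * P) = ρ} ∩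
      {w | wv ψ (w.take P) ^ (o + ρ / P) = g}) (fun ρ _ => C.inter (C.lenMod' hC _ ρ hoP)
        (C.takeP P (fun u => wv ψ u ^ (o + ρ / P) = g))))
  have key : ∀ w : List T, w ∈ Simple P 0 → P ∣ w.length → o * P ≤ w.length →
      wv ψ w = wv ψ (w.take P) ^ (o + w.length % (o * P) / P) := by
    rintro w hw ⟨s, hs⟩ hl
    rw [Nat.mul_comm] at hs
    have hos : o ≤ s := by
      rw [hs] at hl
      exact Nat.le_of_mul_le_mul_right hl hP
    rw [wv_periodic ψ P s w hw hs, hper _ s hos, hs, Nat.mul_mod_mul_right,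
      Nat.mul_div_cancel _ hP]
  refine C.congr (C.union h1 h2) ?_
  intro w
  constructor
  · rintro ⟨hw, hd, hg⟩
    by_cases hl : w.length ≤ o * P
    · exact Or.inl ⟨hl, hw, hd, hg⟩
    · have hl' : o * P ≤ w.length := by omega
      refine Or.inr ⟨⟨⟨hw, hd⟩, hl'⟩, _, Nat.mod_lt _ hoP, rfl, ?_⟩
      show _ = g
      rw [← key w hw hd hl', hg]
  · rintro (⟨-, h⟩ | ⟨⟨⟨hw, hd⟩, hl⟩, ρ, -, h3, h4⟩)
    · exact h
    · refine ⟨hw, hd, ?_⟩
      have h3' : w.length % (o * P) = ρ := h3
      rw [key w hw hd hl, h3']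
      exact h4

/-- the value of a simple word is expressible with counting -/
theorem simple_wv {T G : Type} [Finite T] [Monoid G] [Finite G] (C : Cls T) (hC : C.Mod)
    (ψ : T → G) (P D : ℕ) (hP : 0 < P) (g : G) :
    C.P {w | w ∈ Simple P D ∧ wv ψ w = g} := by
  have h1 : C.P {w : List T | w.length ≤ 2 * D ∧ w ∈ Simple P D ∧ wv ψ w = g} :=
    C.bdd (2 * D) (fun w hw => hw.1)
  have h2 := C.inter (simple_cls C P D) (C.exG (fun q : G × G × G => q.1 * q.2.1 * q.2.2 = g)
    (fun q => cat (cat {w : List T | w.length ≤ D ∧ wv ψ w = q.1}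
      {w | w ∈ Simple P 0 ∧ P ∣ w.length ∧ wv ψ w = q.2.1})
      {w : List T | w.length ≤ D + P ∧ wv ψ w = q.2.2})
    (fun q _ => C.mul (C.mul (C.bdd D (fun w hw => hw.1)) (periodic_wv C hC ψ P hP _))
      (C.bdd (D + P) (fun w hw => hw.1))))
  refine C.congr (C.union h1 h2) ?_
  intro w
  constructor
  · rintro ⟨hw, hg⟩
    by_cases hl : w.length ≤ 2 * D
    · exact Or.inl ⟨hl, hw, hg⟩
    · set k := P * ((w.length - 2 * D) / P) with hk
      have hk1 := Nat.div_add_mod (w.length - 2 * D) P
      have hk2 := Nat.mod_lt (w.length - 2 * D) hP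
      have hlen : ((w.drop D).take k).length = k := by
        rw [List.length_take, List.length_drop]; omega
      refine Or.inr ⟨hw, (wv ψ (w.take D), wv ψ ((w.drop D).take k), wv ψ ((w.drop D).drop k)),
        ?_, _, ⟨w.take D, ⟨?_, rfl⟩, (w.drop D).take k, ⟨?_, ?_, rfl⟩, rfl⟩, (w.drop D).drop k,
        ⟨?_, rfl⟩, ?_⟩
      · show _ * _ * _ = g
        rw [mul_assoc, wv_take_drop, wv_take_drop, hg]
      · rw [List.length_take]; omega
      · intro i _ hi
        rw [hlen] at hi
        rw [List.getElem?_take_of_lt (by omega), List.getElem?_take_of_lt (by omega),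
          List.getElem?_drop, List.getElem?_drop, ← Nat.add_assoc]
        exact hw (D + i) (by omega) (by omega)
      · rw [hlen]; exact Dvd.intro _ rfl
      · rw [List.length_drop, List.length_drop]; omega
      · rw [List.append_assoc, List.take_append_drop, List.take_append_drop]
  · rintro (⟨-, h⟩ | ⟨hw, q, hq, _, ⟨a, ha, m, hm, rfl⟩, b, hb, rfl⟩)
    · exact h
    · refine ⟨hw, ?_⟩
      rw [wv_append, wv_append, ha.2, hm.2.2, hb.2, hq]

theorem amb_simple {T G : Type} [Finite T] [Monoid G] [Finite G] (C : Cls T) (hC : C.Mod)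
    (ψ : T → G) (P D : ℕ) (hP : 0 < P) : Amb C ψ (Simple P D) := by
  intro N Q hQ
  have h1 : C.P {w : List T | w.length ≤ N ∧ w ∈ Simple P D ∧ Q w} :=
    C.bdd N (fun w hw => hw.1)
  have h2 := C.inter (simple_cls C P D) (C.ex (fun g : G =>
    {w : List T | ∃ w0 : List T, w0.take N = w.take N ∧ wv ψ (w0.drop N) = g ∧ Q w0} ∩
      {w | N ≤ w.length ∧ w.drop N ∈ {w | w ∈ Simple P D ∧ wv ψ w = g}})
    (fun g => C.inter (C.takeP N
      (fun u => ∃ w0 : List T, w0.take N = u ∧ wv ψ (w0.drop N) = g ∧ Q w0))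
      (C.dropP N (simple_wv C hC ψ P D hP g))))
  refine C.congr (C.union h1 h2) ?_
  intro w
  constructor
  · rintro ⟨hw, hq⟩
    by_cases hl : w.length ≤ N
    · exact Or.inl ⟨hl, hw, hq⟩
    · exact Or.inr ⟨hw, wv ψ (w.drop N), ⟨w, rfl, rfl, hq⟩, by omega, Simple.drop hw N, rfl⟩
  · rintro (⟨-, h⟩ | ⟨hw, g, ⟨w0, e1, e2, hq⟩, -, -, e3⟩)
    · exact h
    · exact ⟨hw, hQ w0 w e1 (e2.trans e3.symm) ▸ hq⟩

theorem amb_bdd {T G : Type} [Finite T] [Monoid G] (C : Cls T)
    (ψ : T → G) (L : ℕ) : Amb C ψ {w | w.length ≤ L} :=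
  fun _ _ _ => C.bdd L (fun _ hw => hw.1)

end Vale.Agent.P329
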