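import Vale.Agent.P329.TokenA

/-! Tokens made of a run of `D` steps, one other step and one free step. -/

namespace Vale.Agent.P329

/-- the tokens -/
def tok {S : Type} (C D : Set (List S)) : Set (List S) := cat (st D) (cat (C \ D) C)

variable {S : Type} {C D : Set (List S)}

theorem IsCode.comp2 (h : IsCode C) (xs zs : List (List S)) (hx : ∀ z ∈ xs, z ∈ C)
    (hz : ∀ z ∈ zs, z ∈ C) (u u' : List S) (e : xs.flatten ++ u = zs.flatten ++ u') :
    xs <+: zs ∨ zs <+: xs := by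
  induction xs generalizing zs with
  | nil => exact Or.inl List.nil_prefix
  | cons x xs ih =>
    cases zs with
    | nil => exact Or.inr List.nil_prefix
    | cons z zs =>
      simp only [List.flatten_cons, List.append_assoc] at e
      have e1 : x = z := h.pf x (hx x (by simp)) z (hz z (by simp)) _ _ e
      subst e1
      rw [List.cons_prefix_cons, List.cons_prefix_cons]
      rcases ih zs (fun a ha => hx a (by simp [ha])) (fun a ha => hz a (by simp [ha]))
        (List.append_cancel_left e) with h1 | h1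
      · exact Or.inl ⟨rfl, h1⟩
      · exact Or.inr ⟨rfl, h1⟩

theorem shape {X : Type} {D : Set X} (ds ds' : List X) (n n' : X) (a a' : List X)
    (h1 : ∀ d ∈ ds, d ∈ D) (h2 : ∀ d ∈ ds', d ∈ D) (hn : n ∉ D) (hn' : n' ∉ D)
    (h : ds ++ n :: a <+: ds' ++ n' :: a') : ds = ds' ∧ n = n' ∧ a <+: a' := by
  induction ds generalizing ds' with
  | nil =>
    cases ds' with
    | nil => simpa [List.cons_prefix_cons] using h
    | cons d ds' =>
      simp only [List.nil_append, List.cons_append, List.cons_prefix_cons] at h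
      exact absurd (h.1 ▸ h2 d (by simp)) hn
  | cons d ds ih =>
    cases ds' with
    | nil =>
      simp only [List.nil_append, List.cons_append, List.cons_prefix_cons] at h
      exact absurd (h.1 ▸ h1 d (by simp)) hn'
    | cons d' ds' =>
      simp only [List.cons_append, List.cons_prefix_cons] at h
      obtain ⟨a1, a2, a3⟩ := ih ds' (fun a ha => h1 a (by simp [ha]))
        (fun a ha => h2 a (by simp [ha])) h.2
      exact ⟨by rw [h.1, a1], a2, a3⟩

theorem shape2 {X : Type} {D : Set X} (ds ds' : List X) (n n' c c' : X)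
    (h1 : ∀ d ∈ ds, d ∈ D) (h2 : ∀ d ∈ ds', d ∈ D) (hn : n ∉ D) (hn' : n' ∉ D)
    (h : ds ++ [n, c] <+: ds' ++ [n', c'] ∨ ds' ++ [n', c'] <+: ds ++ [n, c]) :
    ds = ds' ∧ n = n' ∧ c = c' := by
  rcases h with h | h
  · obtain ⟨a1, a2, a3⟩ := shape ds ds' n n' _ _ h1 h2 hn hn' h
    exact ⟨a1, a2, by simpa [List.cons_prefix_cons] using a3⟩
  · obtain ⟨a1, a2, a3⟩ := shape ds' ds n' n _ _ h2 h1 hn' hn h
    exact ⟨a1.symm, a2.symm, by simpa [List.cons_prefix_cons, eq_comm] using a3⟩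

theorem tok_iff {y : List S} : y ∈ tok C D ↔ ∃ (ds : List (List S)) (n c : List S),
    (∀ d ∈ ds, d ∈ D) ∧ n ∈ C ∧ n ∉ D ∧ c ∈ C ∧ y = (ds ++ [n, c]).flatten := by
  constructor
  · rintro ⟨_, ⟨ds, h1, rfl⟩, _, ⟨n, hn, c, hc, rfl⟩, rfl⟩
    exact ⟨ds, n, c, h1, hn.1, hn.2, hc, by simp⟩
  · rintro ⟨ds, n, c, h1, h2, h3, h4, rfl⟩
    exact ⟨_, ⟨ds, h1, rfl⟩, _, ⟨n, ⟨h2, h3⟩, c, h4, rfl⟩, by simp⟩

theorem mem3 {Z : Set (List S)} {ds : List (List S)} {n c : List S} (h1 : ∀ d ∈ ds, d ∈ Z)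
    (h2 : n ∈ Z) (h3 : c ∈ Z) : ∀ z ∈ ds ++ [n, c], z ∈ Z := by
  intro z hz
  simp only [List.mem_append, List.mem_cons, List.not_mem_nil, or_false] at hz
  rcases hz with h | rfl | rfl
  · exact h1 z h
  · exact h2
  · exact h3

theorem tok_code (hC : IsCode C) (hD : D ⊆ C) : IsCode (tok C D) := by
  constructor
  · intro y hy
    obtain ⟨ds, n, c, -, h2, -, -, rfl⟩ := tok_iff.1 hy
    have := hC.ne n h2
    simp [this]
  · intro y hy y' hy' u u' e
    obtain ⟨ds, n, c, h1, h2, h3, h4, rfl⟩ := tok_iff.1 hy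
    obtain ⟨ds', n', c', h1', h2', h3', h4', rfl⟩ := tok_iff.1 hy'
    obtain ⟨rfl, rfl, rfl⟩ := shape2 ds ds' n n' c c' h1 h1' h3 h3'
      (hC.comp2 _ _ (mem3 (fun d hd => hD (h1 d hd)) h2 h4)
        (mem3 (fun d hd => hD (h1' d hd)) h2' h4') u u' e)
    rfl

/-- products of exactly `k` words of `X` -/
def pw (X : Set (List S)) (k : ℕ) : Set (List S) :=
  {w | ∃ xs : List (List S), (∀ x ∈ xs, x ∈ X) ∧ xs.flatten = w ∧ xs.length = k}

theorem pw_ht {X : Set (List S)} (h : Ht 0 X) (k : ℕ) : Ht 0 (pw X k) := by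
  induction k with
  | zero =>
    refine (HtC S 0).congr (HtC S 0).eps (fun w => ⟨?_, ?_⟩)
    · rintro ⟨xs, -, rfl, h⟩
      rw [List.length_eq_zero_iff.1 h]; rfl
    · rintro rfl; exact ⟨[], by simp, rfl, rfl⟩
  | succ k ih =>
    refine (HtC S 0).congr ((HtC S 0).mul h ih) (fun w => ⟨?_, ?_⟩)
    · rintro ⟨xs, h1, rfl, h2⟩
      cases xs with
      | nil => simp at h2
      | cons x xs =>
        exact ⟨x, h1 x (by simp), _, ⟨xs, fun a ha => h1 a (by simp [ha]), rfl, by simpa using h2⟩,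
          rfl⟩
    · rintro ⟨x, hx, _, ⟨xs, h1, rfl, h2⟩, rfl⟩
      exact ⟨x :: xs, by simpa using ⟨hx, h1⟩, rfl, by simp [h2]⟩

theorem cnt_ht {X : Set (List S)} (h : Ht 0 X) (q : ℕ) : Ht 1 (cnt X q) := by
  refine (HtC S 1).congr (pw_ht h q).star (fun w => ⟨?_, ?_⟩)
  · rintro ⟨xs, h1, rfl, k, hk⟩
    induction k generalizing xs with
    | zero =>
      rw [List.length_eq_zero_iff.1 hk]; exact ⟨[], by simp, rfl⟩
    | succ k ih =>
      obtain ⟨l, a1, a2⟩ := ih (xs.drop q) (fun a ha => h1 a (List.mem_of_mem_drop ha))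
        (by rw [List.length_drop, hk, Nat.mul_succ]; omega)
      refine ⟨(xs.take q).flatten :: l, ?_, ?_⟩
      · intro z hz
        rcases List.mem_cons.1 hz with rfl | hz
        · exact ⟨_, fun a ha => h1 a (List.mem_of_mem_take ha), rfl, by
            rw [List.length_take, hk, Nat.mul_succ]; omega⟩
        · exact a1 z hz
      · rw [List.flatten_cons, a2, ← List.flatten_append, List.take_append_drop]
  · rintro ⟨l, h1, rfl⟩
    induction l with
    | nil => exact ⟨[], by simp, rfl, by simp⟩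
    | cons z l ih =>
      obtain ⟨xs, a1, a2, a3⟩ := ih (fun a ha => h1 a (by simp [ha]))
      obtain ⟨xs', b1, b2, b3⟩ := h1 z (by simp)
      refine ⟨xs' ++ xs, ?_, by rw [List.flatten_append, a2, b2]; rfl, ?_⟩
      · intro a ha
        rcases List.mem_append.1 ha with h | h
        · exact b1 a h
        · exact a1 a h
      · rw [List.length_append, b3]; exact (Nat.dvd_add_right (dvd_refl q)).2 a3

theorem cntr_ht {X : Set (List S)} (hX : IsCode X) (h : Ht 0 X) (q r : ℕ) (hq : 0 < q) :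
    Ht 1 (pull X (fun _ => ()) {w | w.length % q = r}) := by
  let C := (HtC S 1).pullC hX (fun _ => ()) h.star
    (fun t => (HtC S 1).congr (h.mono (by omega)) (fun w => by simp))
  have hm : C.Mod := fun q _ => (HtC S 1).congr (cnt_ht h q) (fun w => by
    simp only [pull, cnt, Set.mem_ofPred_eq, List.length_map])
  exact C.lenMod' hm q r hq

/-- the blocks -/
def blk (C D : Set (List S)) : Set (List S) := D ∪ cat (C \ D) C

theorem blk_code (hC : IsCode C) (hD : D ⊆ C) : IsCode (blk C D) := by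
  constructor
  · rintro y (hy | ⟨n, hn, c, -, rfl⟩)
    · exact hC.ne y (hD hy)
    · have := hC.ne n hn.1
      simp [this]
  · rintro y (hy | ⟨n, hn, c, hc, rfl⟩) y' (hy' | ⟨n', hn', c', hc', rfl⟩) u u' e
    · exact hC.pf y (hD hy) y' (hD hy') u u' e
    · rw [List.append_assoc] at e
      exact absurd (hC.pf y (hD hy) n' hn'.1 _ _ e ▸ hy) hn'.2
    · rw [List.append_assoc] at e
      exact absurd (hC.pf n hn.1 y' (hD hy') _ _ e ▸ hy') hn.2
    · rw [List.append_assoc, List.append_assoc] at e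
      have := hC.pf n hn.1 n' hn'.1 _ _ e
      subst this
      rw [hC.pf c hc c' hc' _ _ (List.append_cancel_left e)]

theorem tok_parses (hD : D ⊆ C) (ys : List (List S)) (hy : ∀ y ∈ ys, y ∈ tok C D) :
    ∃ zs bs : List (List S), (∀ z ∈ zs, z ∈ C) ∧ (∀ z ∈ bs, z ∈ blk C D) ∧
      zs.flatten = ys.flatten ∧ bs.flatten = ys.flatten ∧ zs.length = bs.length + ys.length := by
  induction ys with
  | nil => exact ⟨[], [], by simp, by simp, rfl, rfl, rfl⟩
  | cons y ys ih =>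
    obtain ⟨zs, bs, a1, a2, a3, a4, a5⟩ := ih (fun a ha => hy a (by simp [ha]))
    obtain ⟨ds, n, c, h1, h2, h3, h4, rfl⟩ := tok_iff.1 (hy y (by simp))
    refine ⟨ds ++ [n, c] ++ zs, ds ++ [n ++ c] ++ bs, ?_, ?_, by simp [a3], by simp [a4], ?_⟩
    · intro z hz
      rcases List.mem_append.1 hz with h | h
      · exact mem3 (fun d hd => hD (h1 d hd)) h2 h4 z h
      · exact a1 z h
    · intro z hz
      simp only [List.mem_append, List.mem_cons, List.not_mem_nil, or_false] at hz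
      rcases hz with (h | rfl) | h
      · exact Or.inl (h1 z h)
      · exact Or.inr ⟨n, ⟨h2, h3⟩, c, h4, rfl⟩
      · exact a2 z h
    · simp [a5]; omega

theorem blk_group (bs : List (List S)) (hb : ∀ z ∈ bs, z ∈ blk C D) :
    ∃ ys ds : List (List S), (∀ y ∈ ys, y ∈ tok C D) ∧ (∀ d ∈ ds, d ∈ D) ∧
      bs.flatten = ys.flatten ++ ds.flatten := by
  induction bs using List.reverseRecOn with
  | nil => exact ⟨[], [], by simp, by simp, rfl⟩
  | append_singleton bs b ih =>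
    obtain ⟨ys, ds, a1, a2, a3⟩ := ih (fun a ha => hb a (by simp [ha]))
    rcases hb b (by simp) with h | h
    · refine ⟨ys, ds ++ [b], a1, ?_, by simp [a3]⟩
      intro d hd
      rcases List.mem_append.1 hd with h' | h'
      · exact a2 d h'
      · rw [List.mem_singleton.1 h']; exact h
    · refine ⟨ys ++ [ds.flatten ++ b], [], ?_, by simp, by simp [a3]⟩
      intro d hd
      rcases List.mem_append.1 hd with h' | h'
      · exact a1 d h'
      · rw [List.mem_singleton.1 h']; exact ⟨_, ⟨ds, a2, rfl⟩, b, h, rfl⟩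

theorem tok_st (hD : D ⊆ C) (h0 : Ht 0 C) (h1 : Ht 0 D) : Ht 1 (st (tok C D)) := by
  have hnc : Ht 0 (cat (C \ D) C) := (HtC S 0).mul ((HtC S 0).diff h0 h1) h0
  have hb : Ht 0 (blk C D) := (HtC S 0).union h1 hnc
  refine (HtC S 1).congr ((HtC S 1).union (HtC S 1).eps
    ((HtC S 1).mul hb.star (hnc.mono (by omega)))) (fun w => ⟨?_, ?_⟩)
  · rintro ⟨ys, hy, rfl⟩
    induction ys using List.reverseRecOn with
    | nil => exact Or.inl rfl
    | append_singleton ys y _ =>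
      obtain ⟨-, bs, -, a2, -, a4, -⟩ := tok_parses hD ys (fun a ha => hy a (by simp [ha]))
      obtain ⟨_, ⟨ds, b1, rfl⟩, b, hb, rfl⟩ := hy y (by simp)
      refine Or.inr ⟨_, ⟨bs ++ ds, ?_, rfl⟩, b, hb, by simp [a4]⟩
      intro z hz
      rcases List.mem_append.1 hz with h | h
      · exact a2 z h
      · exact Or.inl (b1 z h)
  · rintro (rfl | ⟨_, ⟨bs, a1, rfl⟩, b, hb, rfl⟩)
    · exact ⟨[], by simp, rfl⟩
    · obtain ⟨ys, ds, b1, b2, b3⟩ := blk_group bs a1
      refine ⟨ys ++ [ds.flatten ++ b], ?_, by simp [b3]⟩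
      intro d hd
      rcases List.mem_append.1 hd with h' | h'
      · exact b1 d h'
      · rw [List.mem_singleton.1 h']; exact ⟨_, ⟨ds, b2, rfl⟩, b, hb, rfl⟩

/-- counting tokens: number of steps minus number of blocks of `D ∪ (C \ D) C` -/
theorem tok_cnt [Finite S] (hC : IsCode C) (hD : D ⊆ C) (h0 : Ht 0 C) (h1 : Ht 0 D)
    (q : ℕ) (hq : 0 < q) : Ht 1 (cnt (tok C D) q) := by
  have hnc : Ht 0 (cat (C \ D) C) := (HtC S 0).mul ((HtC S 0).diff h0 h1) h0
  have hb : Ht 0 (blk C D) := (HtC S 0).union h1 hnc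
  refine (HtC S 1).congr ((HtC S 1).inter (tok_st hD h0 h1) ((HtC S 1).ex
    (fun r : Fin q => pull C (fun _ => ()) {w | w.length % q = r} ∩
      pull (blk C D) (fun _ => ()) {w | w.length % q = r})
    (fun r => (HtC S 1).inter (cntr_ht hC h0 q r hq) (cntr_ht (blk_code hC hD) hb q r hq))))
    (fun w => ⟨?_, ?_⟩)
  · rintro ⟨ys, a1, rfl, k, hk⟩
    obtain ⟨zs, bs, b1, b2, b3, b4, b5⟩ := tok_parses hD ys a1
    refine ⟨⟨ys, a1, rfl⟩, ⟨bs.length % q, Nat.mod_lt _ hq⟩, ⟨zs, b1, b3, ?_⟩, ⟨bs, b2, b4, ?_⟩⟩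
    · simp [b5, hk]
    · simp
  · rintro ⟨⟨ys, a1, rfl⟩, r, ⟨zs', c1, c2, c3⟩, ⟨bs', d1, d2, d3⟩⟩
    obtain ⟨zs, bs, b1, b2, b3, b4, b5⟩ := tok_parses hD ys a1
    rw [hC.unique zs' zs c1 b1 (c2.trans b3.symm)] at c3
    rw [(blk_code hC hD).unique bs' bs d1 b2 (d2.trans b4.symm)] at d3
    simp only [Set.mem_ofPred_eq, List.length_map] at c3 d3
    refine ⟨ys, a1, rfl, ?_⟩
    have : bs.length ≡ bs.length + ys.length [MOD q] := by
      unfold Nat.ModEq; rw [← b5, c3, d3]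
    exact (Nat.modEq_iff_dvd' (by omega)).1 this |>.trans (by simp)

theorem tok_val {G : Type} [Monoid G] [Finite G] (hC : IsCode C) (hD : D ⊆ C) (h1 : Ht 0 D)
    (A : List S → G) (hv : ∀ f, Ht 1 (Val D A f)) (hz : ∀ f, Ht 1 {z | z ∈ C ∧ A z = f})
    (f : G) : Ht 1 {y | y ∈ tok C D ∧ ((parse C y).map A).prod = f} := by
  refine (HtC S 1).congr ((HtC S 1).exG (fun q : G × G × G => q.1 * (q.2.1 * q.2.2) = f)
    (fun q => cat (Val D A q.1) (cat ({z | z ∈ C ∧ A z = q.2.1} \ D) {z | z ∈ C ∧ A z = q.2.2}))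
    (fun q _ => (HtC S 1).mul (hv _) ((HtC S 1).mul
      ((HtC S 1).diff (hz _) (h1.mono (by omega))) (hz _)))) (fun w => ⟨?_, ?_⟩)
  · rintro ⟨hy, hf⟩
    obtain ⟨ds, n, c, a1, a2, a3, a4, rfl⟩ := tok_iff.1 hy
    rw [hC.parse_eq _ (mem3 (fun d hd => hD (a1 d hd)) a2 a4)] at hf
    exact ⟨((ds.map A).prod, A n, A c), by simpa using hf, _, ⟨ds, a1, rfl, rfl⟩, _,
      ⟨n, ⟨⟨a2, rfl⟩, a3⟩, c, ⟨a4, rfl⟩, rfl⟩, by simp⟩
  · rintro ⟨q, hq, _, ⟨ds, a1, rfl, e1⟩, _, ⟨n, ⟨⟨a2, e2⟩, a3⟩, c, ⟨a4, e3⟩, rfl⟩, rfl⟩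
    have e : ds.flatten ++ (n ++ c) = (ds ++ [n, c]).flatten := by simp
    refine ⟨tok_iff.2 ⟨ds, n, c, a1, a2, a3, a4, e⟩, ?_⟩
    rw [e, hC.parse_eq _ (mem3 (fun d hd => hD (a1 d hd)) a2 a4), ← hq, ← e1, ← e2, ← e3]
    simp

theorem tok_back {G : Type} [Monoid G] [Finite G] (hC : IsCode C) (hD : D ⊆ C) (h1 : Ht 0 D)
    (A : List S → G) (hv : ∀ f, Ht 1 (Val D A f)) (hz : ∀ f, Ht 1 {z | z ∈ C ∧ A z = f})
    (hY : ∀ f, Ht 3 (Val (tok C D) (fun y => ((parse C y).map A).prod) f))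
    (f : G) : Ht 3 (Val C A f) := by
  let R : G → Set (List S) := fun g => {[]} ∩ {_w | g = 1} ∪ {z | z ∈ C ∧ A z = g} \ D
  have hR : ∀ g, Ht 3 (R g) := fun g => (HtC S 3).union
    ((HtC S 3).inter (HtC S 3).eps ((HtC S 3).const _))
    ((HtC S 3).diff ((hz g).mono (by omega)) (h1.mono (by omega)))
  refine (HtC S 3).congr ((HtC S 3).exG (fun q : G × G × G => q.1 * (q.2.1 * q.2.2) = f)
    (fun q => cat (Val (tok C D) (fun y => ((parse C y).map A).prod) q.1)
      (cat (Val D A q.2.1) (R q.2.2)))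
    (fun q _ => (HtC S 3).mul (hY _) ((HtC S 3).mul ((hv _).mono (by omega)) (hR _))))
    (fun w => ⟨?_, ?_⟩)
  · rintro ⟨zs, a1, rfl, rfl⟩
    induction zs using List.reverseRecOn with
    | nil =>
      exact ⟨(1, 1, 1), by simp, [], ⟨[], by simp, rfl, rfl⟩, [], ⟨[], ⟨[], by simp, rfl, rfl⟩,
        [], Or.inl ⟨rfl, rfl⟩, rfl⟩, rfl⟩
    | append_singleton zs z ih =>
      obtain ⟨⟨q1, q2, q3⟩, hq, _, ⟨ys, b1, rfl, b2⟩, _, ⟨_, ⟨ds, c1, rfl, c2⟩, n, hn, rfl⟩, e⟩ :=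
        ih (fun a ha => a1 a (by simp [ha]))
      have hzC : z ∈ C := a1 z (by simp)
      simp only at hq b2 c2 hn
      rcases hn with ⟨rfl, rfl⟩ | ⟨⟨n1, rfl⟩, n2⟩
      · by_cases hzD : z ∈ D
        · refine ⟨(q1, q2 * A z, 1), by simp [← hq, mul_assoc], _, ⟨ys, b1, rfl, b2⟩, _,
            ⟨_, ⟨ds ++ [z], ?_, rfl, by simp [c2]⟩, [], Or.inl ⟨rfl, rfl⟩, rfl⟩, by simp [e]⟩
          intro d hd
          rcases List.mem_append.1 hd with h' | h'
          · exact c1 d h'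
          · rw [List.mem_singleton.1 h']; exact hzD
        · exact ⟨(q1, q2, A z), by simp [← hq, mul_assoc], _, ⟨ys, b1, rfl, b2⟩, _,
            ⟨_, ⟨ds, c1, rfl, c2⟩, z, Or.inr ⟨⟨hzC, rfl⟩, hzD⟩, rfl⟩, by simp [e]⟩
      · refine ⟨(q1 * (q2 * A n * A z), 1, 1), by simp [← hq, mul_assoc], _,
          ⟨ys ++ [(ds ++ [n, z]).flatten], ?_, rfl, ?_⟩, [],
          ⟨[], ⟨[], by simp, rfl, rfl⟩, [], Or.inl ⟨rfl, rfl⟩, rfl⟩, by simp [e]⟩
        · intro d hd
          rcases List.mem_append.1 hd with h' | h'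
          · exact b1 d h'
          · rw [List.mem_singleton.1 h']; exact tok_iff.2 ⟨ds, n, z, c1, n1, n2, hzC, rfl⟩
        · rw [List.map_append, List.prod_append, b2, List.map_singleton, List.prod_singleton,
            hC.parse_eq _ (mem3 (fun d hd => hD (c1 d hd)) n1 hzC), ← c2]
          simp [mul_assoc]
  · rintro ⟨⟨q1, q2, q3⟩, rfl, _, ⟨ys, b1, rfl, rfl⟩, _, ⟨_, ⟨ds, c1, rfl, rfl⟩, n, hn, rfl⟩, rfl⟩
    have key : ∃ zs : List (List S), (∀ z ∈ zs, z ∈ C) ∧ zs.flatten = ys.flatten ∧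
        (zs.map A).prod = (ys.map (fun y => ((parse C y).map A).prod)).prod := by
      clear hn
      induction ys with
      | nil => exact ⟨[], by simp, rfl, rfl⟩
      | cons y ys ih =>
        obtain ⟨zs, a1, a2, a3⟩ := ih (fun a ha => b1 a (by simp [ha]))
        obtain ⟨ds', n', c', d1, d2, d3, d4, rfl⟩ := tok_iff.1 (b1 y (by simp))
        have hm := mem3 (fun d hd => hD (d1 d hd)) d2 d4
        refine ⟨ds' ++ [n', c'] ++ zs, ?_, by simp [a2], ?_⟩
        · intro z hz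
          rcases List.mem_append.1 hz with h | h
          · exact hm z h
          · exact a1 z h
        · rw [List.map_append, List.prod_append, a3, List.map_cons (f := fun y =>
            ((parse C y).map A).prod), List.prod_cons, hC.parse_eq _ hm]
    obtain ⟨zs, a1, a2, a3⟩ := key
    rcases hn with ⟨rfl, h⟩ | ⟨⟨n1, h⟩, n2⟩
    · refine ⟨zs ++ ds, ?_, by simp [a2], ?_⟩
      · intro z hz
        rcases List.mem_append.1 hz with h | h
        · exact a1 z h
        · exact hD (c1 z h)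
      · have h' : q3 = 1 := h
        simp [a3, h']
    · refine ⟨zs ++ (ds ++ [n]), ?_, by simp [a2], ?_⟩
      · intro z hz
        simp only [List.mem_append, List.mem_singleton] at hz
        rcases hz with h | h | rfl
        · exact a1 z h
        · exact hD (c1 z h)
        · exact n1
      · have h' : A n = q3 := h
        simp [a3, h']

/-- soundness of a cut inside the first step that is not in `D` -/
theorem tok_sound {Z L R : Set (List S)} (hZ : IsCode Z) (hC : C ⊆ Z) (hD : D ⊆ C)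
    (h : ∀ l ∈ L, ∀ r ∈ R, l ++ r ∈ Z ∧ l ++ r ∉ D) :
    ∀ l ∈ cat (st D) L, ∀ r ∈ cat R C, ∀ y ∈ tok C D, ∀ u u', l ++ r ++ u = y ++ u' →
      l ++ r ∈ tok C D := by
  rintro _ ⟨_, ⟨ds, a1, rfl⟩, l, hl, rfl⟩ _ ⟨r, hr, c, hc, rfl⟩ y hy u u' e
  obtain ⟨ds', n', c', b1, b2, b3, b4, rfl⟩ := tok_iff.1 hy
  obtain ⟨h1, h2⟩ := h l hl r hr
  have e' : ds.flatten ++ l ++ (r ++ c) = (ds ++ [l ++ r, c]).flatten := by simp
  rw [e'] at e ⊢
  obtain ⟨rfl, rfl, rfl⟩ := shape2 ds ds' (l ++ r) n' c c' a1 b1 h2 b3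
    (hZ.comp2 _ _ (mem3 (fun d hd => hC (hD (a1 d hd))) h1 (hC hc))
      (mem3 (fun d hd => hC (hD (b1 d hd))) (hC b2) (hC b4)) u u' e)
  exact hy

end Vale.Agent.P329
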