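import Vale.Agent.P329.Exact

/-! Tokens of unknown length: the hash scheme over many tokens. -/

namespace Vale.Agent.P329

/-- words of `Y*` with a number of factors divisible by `q` -/
def cnt {S : Type} (Y : Set (List S)) (q : ℕ) : Set (List S) :=
  {w | ∃ ys : List (List S), (∀ y ∈ ys, y ∈ Y) ∧ ys.flatten = w ∧ q ∣ ys.length}

theorem val_split {T G : Type} [Finite T] [Monoid G] [Finite G] (C : Cls T) (hC : C.Mod)
    {g : ℕ} (μ : Mk T g) (θ : ℕ) (φ : T → G) (hV : ∀ x, C.P (Val (μ.Z θ) (wv φ) x)) (m : G) :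
    C.P {w | wv φ w = m} := by
  have hT : ∀ x, C.P {w | w ∈ Tail (μ.Z θ) ∧ wv φ w = x} := by
    intro x
    have h1 := simple_wv C hC φ μ.P (θ + μ.D + 1) μ.Ppos x
    have h2 := Tail_cls C (μ.Z_cls C θ)
    refine C.congr (C.inter h2 h1) (fun w => ?_)
    constructor
    · rintro ⟨h3, h4⟩; exact ⟨h3, μ.Tail_simple _ h3, h4⟩
    · rintro ⟨h3, -, h4⟩; exact ⟨h3, h4⟩
  refine C.congr (C.exG (fun q : G × G => q.1 * q.2 = m)
    (fun q => cat (Val (μ.Z θ) (wv φ) q.1) {w | w ∈ Tail (μ.Z θ) ∧ wv φ w = q.2})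
    (fun q _ => C.mul (hV _) (hT _))) (fun w => ?_)
  constructor
  · intro hw
    obtain ⟨zs, u, hu, hzs, rfl⟩ := (μ.Z_code θ).split w
    refine ⟨((zs.map (wv φ)).prod, wv φ u), ?_, _, ⟨zs, hzs, rfl, rfl⟩, u, ⟨hu, rfl⟩, rfl⟩
    rw [← wv_flatten, ← wv_append]; exact hw
  · rintro ⟨q, hq, _, ⟨zs, -, rfl, h1⟩, u, ⟨-, h2⟩, rfl⟩
    show wv φ _ = m
    rw [wv_append, wv_flatten, h1, h2, hq]

namespace Hash
variable {Go : Type} [Monoid Go] (H : Hash Go Go (Vc Go))

/-- the hash of a sequence of types -/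
def hl (ts : List (Go × ZMod H.M)) : ZMod H.M :=
  ts.foldr (fun t s => t.2 + H.ι t.1 + H.x * s) 0

/-- the thread map of a sequence of types -/
def AA (ts : List (Go × ZMod H.M)) : Tr (Vc Go) :=
  fun v => lift (H.col (H.hl ts)) (wv Prod.fst ts) v

/-- a monoid valued reading that determines hash and value -/
def ψH (t : Go × ZMod H.M) : Function.End (ZMod H.M) × Go :=
  (fun s => t.2 + H.ι t.1 + H.x * s, t.1)

theorem ψH_fst (ts : List (Go × ZMod H.M)) : (wv H.ψH ts).1 0 = H.hl ts := by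
  induction ts with
  | nil => rfl
  | cons t ts ih => rw [wv_cons, hl, List.foldr_cons, ← hl, ← ih]; rfl

theorem ψH_snd (ts : List (Go × ZMod H.M)) : (wv H.ψH ts).2 = wv Prod.fst ts := by
  induction ts with
  | nil => rfl
  | cons t ts ih => rw [wv_cons, wv_cons, ← ih]; rfl

omit [Monoid Go] in
theorem hl_cons (t : Go × ZMod H.M) (ts : List (Go × ZMod H.M)) :
    H.hl (t :: ts) = t.2 + H.ι t.1 + H.x * H.hl ts := rfl

omit [Monoid Go] in
theorem hl_append (a b : List (Go × ZMod H.M)) :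
    H.hl (a ++ b) = H.hl a + H.x ^ a.length * H.hl b := by
  induction a with
  | nil => simp [hl]
  | cons t a ih => rw [List.cons_append, hl_cons, hl_cons, ih, List.length_cons]; ring

theorem ψH_eq {a b : List (Go × ZMod H.M)} (h : wv H.ψH a = wv H.ψH b) :
    H.hl a = H.hl b ∧ wv Prod.fst a = wv Prod.fst b := by
  rw [← ψH_fst, ← ψH_fst, ← ψH_snd, ← ψH_snd, h]; exact ⟨rfl, rfl⟩

end Hash

instance (X : Type) [Finite X] : Finite (Function.End X) := inferInstanceAs (Finite (X → X))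

theorem pull_diff {S T : Type} {Y : Set (List S)} (hY : IsCode Y) (ty : List S → T)
    (L K : Set (List T)) : pull Y ty L \ pull Y ty K = pull Y ty (L \ K) := by
  ext w
  constructor
  · rintro ⟨⟨ys, h1, h2, h3⟩, h4⟩
    exact ⟨ys, h1, h2, h3, fun h5 => h4 ⟨ys, h1, h2, h5⟩⟩
  · rintro ⟨ys, h1, h2, h3, h4⟩
    refine ⟨⟨ys, h1, h2, h3⟩, ?_⟩
    rintro ⟨ys', h1', h2', h3'⟩
    rw [hY.unique ys' ys h1' h1 (h2'.trans h2.symm)] at h3'
    exact h4 h3'

theorem wv_fst_map {S Go X : Type} [Monoid Go] (val : List S → Go) (k : List S → X)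
    (ys : List (List S)) :
    wv Prod.fst (ys.map (fun y => (val y, k y))) = (ys.map val).prod := by
  simp [wv, List.map_map, Function.comp_def]

theorem tokenA (Go : Type) [Monoid Go] [Finite Go] :
    ∃ M : ℕ, 0 < M ∧ ∀ (S : Type) [Finite S] (Y LT RT : Set (List S)) (val : List S → Go),
      IsCode Y → (∀ q, 0 < q → Ht 1 (cnt Y q)) → (∀ f, Ht 1 {y | y ∈ Y ∧ val y = f}) →
      Ht 1 LT → Ht 1 RT →
      (∀ l ∈ LT, ∀ r ∈ RT, ∀ y ∈ Y, ∀ u u', l ++ r ++ u = y ++ u' → l ++ r ∈ Y) →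
      (∀ y ∈ Y, ∀ e : ZMod M, ∃ l ∈ LT, ∃ r ∈ RT, y = l ++ r ∧ (l.length : ZMod M) = e) →
      ∀ f, Ht 3 (Val Y val f) := by
  classical
  obtain ⟨H⟩ := exists_hash Go Go (Vc Go)
  refine ⟨H.M, H.pos, ?_⟩
  intro S _ Y LT RT val hY hcnt hval hLT hRT hsound hcomp
  obtain ⟨Λ, hΛ⟩ := exact (Function.End (ZMod H.M) × Go) (Tr (Vc Go)) 0 (2 * H.n)
  obtain ⟨μ⟩ := exists_mk (Go × ZMod H.M) (2 * H.n + Λ)
  set ty : List S → Go × ZMod H.M := fun y => (val y, (y.length : ZMod H.M)) with hty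
  have h1 : Ht 1 (st Y) := (HtC S 1).congr (hcnt 1 one_pos) (fun w =>
    ⟨fun ⟨l, a, b⟩ => ⟨l, a, b, one_dvd _⟩, fun ⟨l, a, b, _⟩ => ⟨l, a, b⟩⟩)
  have h2 : ∀ t, Ht 1 {y | y ∈ Y ∧ ty y = t} := by
    intro t
    refine (HtC S 1).congr ((HtC S 1).inter (hval t.1)
      ((HtC S 1).lenMod (HtC_mod S 0) H.M t.2)) (fun w => ?_)
    simp only [hty, Set.mem_ofPred_eq, Set.mem_inter_iff, Prod.ext_iff, and_assoc]
  let C : ℕ → Cls (Go × ZMod H.M) := fun k =>
    (HtC S (k + 1)).pullC hY ty (h1.mono (by omega)) (fun t => (h2 t).mono (by omega))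
  have hCP : ∀ k L, (C k).P L = Ht (k + 1) (pull Y ty L) := fun _ _ => rfl
  have hmod : ∀ k, (C k).Mod := by
    intro k q hq
    rw [hCP]
    refine (HtC S (k + 1)).congr ((hcnt q hq).mono (by omega)) (fun w => ?_)
    simp only [pull, cnt, Set.mem_ofPred_eq, List.length_map]
  have hup : ∀ k, (C k).Up (C (k + 1)) := by
    intro k
    refine ⟨fun L h => Ht.mono (k := k + 1) h (by omega), fun L h => ?_⟩
    rw [hCP, pull_st]
    exact Ht.star h
  set Θ := Λ + H.n with hΘ
  let good : Set (List (Go × ZMod H.M)) :=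
    {ts | ∀ i < H.n, ∀ i' < H.n, ts.drop (i + 1) ∈ μ.Z (Θ - i' - 1)}
  have hshift : ∀ ts ∈ μ.Z Θ, ∀ i < H.n, ts.drop (i + 1) ∈ μ.Z (Θ - i - 1) := by
    intro ts hts i hi
    have hl := μ.Z_len hts
    have := (μ.Z_shift (ts.take (i + 1)) (ts.drop (i + 1)) (θ := Θ)
      (by rw [List.length_take]; omega)).1 (by rw [List.take_append_drop]; exact hts)
    rw [List.length_take, min_eq_left (by omega)] at this
    exact this
  have hbad : (C 0).P (μ.Z Θ \ good) := by
    refine (C 0).congr ((C 0).diff (μ.Z_cls _ Θ) ((C 0).all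
      (fun i : Fin H.n × Fin H.n => {w | (i.1 : ℕ) + 1 ≤ w.length ∧
        w.drop (i.1 + 1) ∈ μ.Z (Θ - i.2 - 1)})
      (fun i => (C 0).dropP _ (μ.Z_cls _ _)))) (fun w => ?_)
    constructor
    · rintro ⟨a1, a2⟩
      exact ⟨a1, fun a3 => a2 (fun i hi i' hi' => (a3 (⟨i, hi⟩, ⟨i', hi'⟩)).2)⟩
    · rintro ⟨a1, a2⟩
      refine ⟨a1, fun a3 => a2 (fun i => ⟨?_, a3 _ i.1.2 _ i.2.2⟩)⟩
      have := μ.Z_len a1
      have := i.1.2
      omega
  have hamb := amb_simple (C 0) (hmod 0) H.ψH μ.P (Θ + μ.D + 1) μ.Ppos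
  have hN : ∀ f, (C 1).P (Val (μ.Z Θ \ good) H.AA f) := by
    refine hΛ _ H.ψH _ Θ Λ μ _ (Simple μ.P (Θ + μ.D + 1)) H.AA (C 0) (C 1) (hup 0) le_rfl
      (by omega) le_rfl (fun _ h => h.1) ?_ ?_ (fun z hz s => Simple.drop (μ.Z_simple _ hz.1) s)
      hamb hbad
    · rintro ts ⟨a1, a2⟩
      simp only [good, Set.mem_ofPred_eq, not_forall] at a2
      obtain ⟨i, hi, i', hi', a2⟩ := a2
      obtain ⟨j, b1, b2, b3⟩ := μ.Z_diff (hshift ts a1 i hi) a2
      rw [List.drop_drop] at b3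
      exact ⟨i + 1 + j, by omega, by omega, b3⟩
    · intro z _ z' _ j _ _ _ _ _ e
      obtain ⟨e1, e2⟩ := H.ψH_eq e
      simp only [List.drop_zero] at e1 e2
      funext v
      unfold Hash.AA
      rw [e1, e2]
  have hcode : IsCode (pull Y ty (μ.Z Θ)) := hY.pull ty (μ.Z_code Θ)
  let E : Vc Go → Set (List S) := fun v => {l | ∃ ts ∈ {ts : List (Go × ZMod H.M) | ts.length < H.n},
    l ∈ {l | ∃ e : ZMod H.M, H.LeftOK (fun g u => wv Prod.fst ts * g * u) ts.length (H.hl ts) e v ∧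
      l ∈ cat (pull Y ty {ts}) (LT ∩ {w | (w.length : ZMod H.M) = e})}}
  let F : Vc Go → Set (List S) := fun y => {r | ∃ j : ZMod H.M,
    r ∈ cat (RT ∩ {w | (w.length : ZMod H.M) = j}) (pull Y ty
      {ts | (∀ i' < H.n, ts ∈ μ.Z (Θ - i' - 1)) ∧ j + H.x * H.hl ts = H.ζ y (wv Prod.fst ts)})}
  have hV : ∀ x, (C 2).P (Val (μ.Z Θ) (wv Prod.fst) x) := by
    intro x
    rw [hCP, ← pull_val hY ty]
    refine level (HtC S 2) (HtC S 3) (HtC_up S 2) (pull Y ty (μ.Z Θ)) (pull Y ty good) hcode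
      _ (fun w => H.AA ((parse Y w).map ty)) (fun z _ v => lift_lin _ _ v) E F ?_ ?_ ?_ ?_ ?_ ?_ x
    · rintro v y l ⟨ts, hts, e, hok, _, ⟨ys1, a1, rfl, a2⟩, l', ⟨hl', he⟩, rfl⟩
        r ⟨j, r', ⟨hr', hj⟩, _, ⟨ys2, b1, rfl, b2, b3⟩, rfl⟩ zs hzs u eq
      have a2' : ys1.map ty = ts := a2
      have hts' : ts.length < H.n := hts
      have hst : zs.flatten ∈ st (pull Y ty (μ.Z Θ)) := ⟨zs, hzs, rfl⟩
      rw [← pull_st] at hst
      obtain ⟨ys, c1, c2, -⟩ := hst
      obtain ⟨ys', d1, d2⟩ := hY.cancel ys1 ys a1 c1 (l' ++ r' ++ (ys2.flatten ++ u))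
        (by rw [c2, ← eq]; simp only [List.append_assoc])
      have hne : ys2.map ty ≠ [] := (μ.Z_code _).ne _ (b2 0 H.npos)
      have hy0 : l' ++ r' ∈ Y := by
        cases ys' with
        | nil =>
          exfalso
          cases ys2 with
          | nil => exact hne rfl
          | cons y2 ys2 =>
            have := hY.ne y2 (b1 y2 (List.mem_cons_self ..))
            simp at d2
            exact this d2.2.2.1
        | cons y0 ys' =>
          exact hsound l' hl' r' hr' y0 (c1 y0 (by rw [d1]; simp)) _ ys'.flatten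
            (by rw [← d2]; rfl)
      have hall : ∀ y ∈ ys1 ++ (l' ++ r') :: ys2, y ∈ Y := by
        intro y hy
        rcases List.mem_append.1 hy with h | h
        · exact a1 y h
        · rcases List.mem_cons.1 h with h | h
          · rw [h]; exact hy0
          · exact b1 y h
      have hfl : (ys1 ++ (l' ++ r') :: ys2).flatten
          = ys1.flatten ++ l' ++ (r' ++ ys2.flatten) := by simp
      have hmap : (ys1 ++ (l' ++ r') :: ys2).map ty = ts ++ ty (l' ++ r') :: ys2.map ty := by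
        rw [List.map_append, a2', List.map_cons]
      have hz : ys1.flatten ++ l' ++ (r' ++ ys2.flatten) ∈ pull Y ty (μ.Z Θ) := by
        refine ⟨_, hall, hfl, ?_⟩
        rw [hmap]
        have := (μ.Z_shift (ts ++ [ty (l' ++ r')]) (ys2.map ty) (θ := Θ) (by simp; omega)).2
          (by simpa [Nat.sub_sub] using b2 ts.length hts')
        simpa using this
      obtain ⟨zs', f1, -⟩ := hcode.cancel [ys1.flatten ++ l' ++ (r' ++ ys2.flatten)] zs
        (by simpa using hz) hzs u (by simpa using eq)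
      refine ⟨[_], zs', f1, by simp, ?_⟩
      simp only [List.map_cons, List.map_nil, List.prod_cons, List.prod_nil, mul_one]
      rw [← hfl, hY.parse_eq _ hall, hmap]
      unfold Hash.AA
      have := hok y (wv Prod.fst (ys2.map ty)) (val (l' ++ r'))
      rw [← this]
      congr 2
      · rw [H.hl_append, H.hl_cons, ← b3]
        have he' : (l'.length : ZMod H.M) = e := he
        have hj' : (r'.length : ZMod H.M) = j := hj
        simp only [hty, List.length_append, Nat.cast_add, he', hj']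
        ring
      · rw [wv_append, wv_cons, ← mul_assoc]
    · rintro _ ⟨ys, a1, rfl, a2⟩ ⟨ys', a1', a3, a4⟩ v
      rw [hY.unique ys' ys a1' a1 a3] at a4
      simp only [hY.parse_eq _ a1]
      obtain ⟨i, hi, hc⟩ := H.complete (H.hl (ys.map ty)) (wv Prod.fst (ys.map ty)) v
      have hlen : i < ys.length := by
        have := μ.Z_len a2
        rw [List.length_map] at this
        omega
      have hsp : ys = ys.take i ++ ys[i] :: ys.drop (i + 1) := by
        rw [← List.drop_eq_getElem_cons hlen, List.take_append_drop]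
      have hli : ((ys.take i).map ty).length = i := by simp; omega
      have hmap : ys.map ty = (ys.take i).map ty ++ ty ys[i] :: (ys.drop (i + 1)).map ty := by
        conv_lhs => rw [hsp]
        rw [List.map_append, List.map_cons]
      obtain ⟨l', hl', r', hr', e1, e2⟩ := hcomp ys[i] (a1 _ (List.getElem_mem hlen))
        ((ys[i].length : ZMod H.M) + H.x * H.hl ((ys.drop (i + 1)).map ty)
          - H.ζ (H.AA (ys.map ty) v) (wv Prod.fst ((ys.drop (i + 1)).map ty)))
      refine ⟨(ys.take i).flatten ++ l', ⟨(ys.take i).map ty, by rw [Set.mem_ofPred_eq, hli]; exact hi,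
        (l'.length : ZMod H.M), ?_, _, ⟨ys.take i, fun y hy => a1 y (List.mem_of_mem_take hy),
          rfl, rfl⟩, l', ⟨hl', rfl⟩, rfl⟩, r' ++ (ys.drop (i + 1)).flatten,
        ⟨(r'.length : ZMod H.M), r', ⟨hr', rfl⟩, _, ⟨ys.drop (i + 1),
          fun y hy => a1 y (List.mem_of_mem_drop hy), rfl, ?_, ?_⟩, rfl⟩, ?_⟩
      · rw [hli]
        refine hc _ _ _ (wv Prod.fst ((ys.drop (i + 1)).map ty)) (val ys[i]) ?_ ?_
        · conv_rhs => rw [hmap]
          rw [wv_append, wv_cons, mul_assoc]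
        · conv_lhs => rw [hmap]
          rw [H.hl_append, H.hl_cons, hli, e2]
          simp only [hty, Hash.AA]
          ring
      · intro i' hi'
        rw [List.map_drop]
        exact a4 i hi i' hi'
      · have : (ys[i].length : ZMod H.M) = l'.length + r'.length := by
          rw [e1, List.length_append, Nat.cast_add]
        rw [this] at e2
        linear_combination -e2
      · conv_lhs => rw [hsp]
        rw [List.flatten_append, List.flatten_cons, e1]
        simp only [List.append_assoc]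
    · intro v
      refine (HtC S 2).exS (List.finite_length_lt _ H.n) _ (fun ts _ => ?_)
      refine (HtC S 2).exG _ _ (fun e _ => (HtC S 2).mul ((C 1).single ts)
        ((HtC S 2).inter (hLT.mono (by omega)) ((HtC S 2).lenMod (HtC_mod S 1) H.M e)))
    · intro y
      refine (HtC S 2).ex _ (fun j => (HtC S 2).mul
        ((HtC S 2).inter (hRT.mono (by omega)) ((HtC S 2).lenMod (HtC_mod S 1) H.M j)) ?_)
      refine (hup 0).1 _ ?_
      have q1 := (C 0).allS (Set.finite_lt_nat H.n) (fun i' => μ.Z (Θ - i' - 1))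
        (fun i' _ => μ.Z_cls _ _)
      have q2 := hamb 0 (fun ts => j + H.x * H.hl ts = H.ζ y (wv Prod.fst ts)) (by
        intro w w' _ e
        obtain ⟨e1, e2⟩ := H.ψH_eq e
        simp only [List.drop_zero] at e1 e2
        simp only [e1, e2])
      refine (C 0).congr ((C 0).inter q1 q2) (fun w => ?_)
      constructor
      · rintro ⟨b1, b2⟩
        exact ⟨b1, Simple.mono (by omega) (μ.Z_simple _ (b1 0 H.npos)), b2⟩
      · rintro ⟨b1, -, b2⟩
        exact ⟨b1, b2⟩
    · intro f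
      rw [pull_diff hY, pull_val hY ty]
      exact hN f
    · rw [← pull_st]
      exact (hup 1).2 _ (μ.Z_cls _ _)
  intro f
  have := val_split (C 2) (hmod 2) μ Θ Prod.fst hV f
  refine (HtC S 3).congr this (fun w => ?_)
  simp only [Val, pull, Set.mem_ofPred_eq, hty, wv_fst_map]

end Vale.Agent.P329
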