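import Vale.Agent.P329.Zone

namespace Vale.Agent.P329

theorem pick_eq {X : Type} [Zero X] {P : X → Prop} {x : X} (hx : P x)
    (hu : ∀ y, P y → y = x) : pick P = x := by
  unfold pick
  rw [dif_pos ⟨x, hx⟩]
  exact hu _ (Exists.choose_spec (⟨x, hx⟩ : ∃ x, P x))

theorem pick_none {X : Type} [Zero X] {P : X → Prop} (h : ∀ y, ¬ P y) : pick P = 0 := by
  unfold pick
  rw [dif_neg (fun ⟨y, hy⟩ => h y hy)]

namespace ZP
variable {S G : Type} [Monoid G] (p : ZP S G)

theorem pos_le (s : Slot p.H) : p.γ.pos s ≤ p.Λ := (p.γ.pos_le s).trans p.hΛ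

theorem inW_sid {k k' : ℕ} (hk : p.InW k) (hk' : p.InW k') (s s' c c' : Slot p.H)
    (e : k + p.γ.pos s + p.γ.pos c' = k' + p.γ.pos c + p.γ.pos s') :
    k = k' ∧ ((s = s' ∧ c = c') ∨ (s = c ∧ s' = c')) := by
  have h1 := p.pos_le s
  have h2 := p.pos_le s'
  have h3 := p.pos_le c
  have h4 := p.pos_le c'
  have ha := p.ha
  have hθ := p.hθ
  have key : ∀ b, b ≤ k → k < b + p.M → b ≤ k' → k' < b + p.M →
      k = k' ∧ ((s = s' ∧ c = c') ∨ (s = c ∧ s' = c')) := by
    intro b a1 a2 a3 a4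
    have := p.sid s s' c c' (k - b) (k' - b) (by omega) (by omega) (by omega)
    exact ⟨by omega, this.2⟩
  rcases hk with hk | hk | hk <;> rcases hk' with hk' | hk' | hk'
  · exact key (p.θ + p.a) (by omega) (by omega) (by omega) (by omega)
  · omega
  · omega
  · omega
  · exact key (p.θ - p.a - p.M) (by omega) (by omega) (by omega) (by omega)
  · omega
  · omega
  · omega
  · exact key (p.θ - p.M) (by omega) (by omega) (by omega) (by omega)

theorem inW_bd {k : ℕ} (hk : p.InW k) : p.θ ≤ k + p.a + p.M ∧ k < p.θ + p.a + p.M := by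
  rcases hk with hk | hk | hk <;> omega

theorem Win.inW {e j : ℕ} {u : List S} (h : p.Win e u j) : p.InW (j + e) := by
  rcases h with h | h | h
  · exact Or.inl h
  · exact Or.inr (Or.inl ⟨h.1, h.2.1⟩)
  · exact Or.inr (Or.inr ⟨h.1, h.2.1⟩)

theorem hl_far {z : List S} {j : ℕ} (h : p.Far z j) : p.hl z = j + p.μ.R := by
  unfold hl
  rw [dif_pos ⟨j, h⟩]
  have h' := Exists.choose_spec (⟨j, h⟩ : ∃ j, p.Far z j)
  have hg := p.hg
  have := p.μ.uniq h'.1 h.1 (by have := h'.2.2.1; have := h.2.1; omega)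
    (by have := h'.2.1; have := h.2.2.1; omega)
  rw [this]

theorem hl_none {z : List S} (h : ∀ j, ¬ p.Far z j) : p.hl z = z.length := by
  unfold hl
  rw [dif_neg (fun ⟨j, hj⟩ => h j hj)]

/-- at most one false junction -/
theorem J_uniq {z : List S} {q q' : Vc G × Vc G} (h : p.J z q) (h' : p.J z q') : q = q' := by
  obtain ⟨s, s', j, hne, h1, hw, hm, hx⟩ := h
  obtain ⟨c, c', j', hne', h1', hw', hm', hx'⟩ := h'
  have a1 := p.pos_le s
  have a2 := p.pos_le s'
  have a3 := p.pos_le c
  have a4 := p.pos_le c'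
  have b1 := p.inW_bd hw
  have b2 := p.inW_bd hw'
  have hg := p.hg
  have e := p.μ.uniq hm hm' (by omega) (by omega)
  obtain ⟨-, h2 | h2⟩ := p.inW_sid hw hw' s s' c c' (by omega)
  · exact absurd h2.1 hne
  · obtain ⟨rfl, rfl⟩ := h2
    exact Prod.ext (h1.trans h1'.symm) (p.γ.XF_uniq p.φ _ _ hx hx')

theorem Ψ_eq (h : List S) (n : ℕ) : p.Ψ () (h.take n) (wv p.φ (h.drop n)) = wv p.φ h :=
  wv_take_drop _ _ _

/-- the head of a zone with a junction sends the left thread to the right output -/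
theorem junction {z : List S} {s s' : Slot p.H} {j : ℕ} {y1 : Vc G}
    (hm : p.μ.m (z.drop (p.γ.pos s + j))) (hw : p.InW (j + p.γ.pos s'))
    (hl : z.take (p.γ.pos s) ∈ p.γ.XE p.φ p.Ψ s) (hle : p.γ.pos s ≤ p.hl z)
    (hx : (z.take (p.hl z)).drop (p.γ.pos s) ∈ p.γ.XF p.φ s' () y1)
    (hK : s = s' → z ∈ p.K) :
    lift (p.colU z) (wv p.φ (z.take (p.hl z))) s.2.2 = y1 := by
  by_cases hs : s = s'
  · subst hs
    have h1 := p.γ.X_sound p.φ p.Ψ s () y1 hl hx
    have e : z.take (p.γ.pos s) ++ (z.take (p.hl z)).drop (p.γ.pos s) = z.take (p.hl z) := by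
      conv_rhs => rw [← List.take_append_drop (p.γ.pos s) (z.take (p.hl z))]
      rw [List.take_take, min_eq_left hle]
    rw [e, Ψ_eq] at h1
    unfold colU
    rw [if_pos (hK rfl)]
    exact h1
  · have hn : z ∉ p.K := by
      rintro ⟨j2, hm2, hw2⟩
      have hw3 := hw2.inW
      have a1 := p.pos_le s
      have a2 := p.pos_le s'
      have b1 := p.inW_bd hw
      have b2 := p.inW_bd hw3
      have hg := p.hg
      have e := p.μ.uniq hm hm2 (by omega) (by omega)
      obtain ⟨-, h2 | h2⟩ := p.inW_sid hw hw3 s s' s s (by omega)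
      · exact hs h2.1
      · exact hs h2.2.symm
    have hJ : p.J z (s.2.2, y1) := ⟨s, s', j, hs, rfl, hw, hm, hx⟩
    unfold colU
    rw [if_neg hn, pick_eq hJ (fun q hq => p.J_uniq hq hJ), lift_self]

/-- a zone with no marker near the windows acts linearly -/
theorem A_plain {z : List S}
    (h : ∀ j, j < p.θ + p.a + p.M + p.Λ → ¬ p.μ.m (z.drop j)) (v : Vc G) :
    p.A z v = act (wv p.φ z) v := by
  have h1 : p.hl z = z.length := p.hl_none (fun j hj => h j (by have := hj.2.2.1; omega) hj.1)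
  have h2 : z ∉ p.K := by
    rintro ⟨j, hm, hw⟩
    have := p.inW_bd hw.inW
    exact h j (by omega) hm
  have h3 : p.colU z = 0 := by
    unfold colU
    rw [if_neg h2]
    refine pick_none ?_
    rintro q ⟨s, s', j, -, -, hw, hm, -⟩
    have := p.inW_bd hw
    have := p.pos_le s
    exact h _ (by omega) hm
  unfold A
  rw [h1, h3, List.drop_length, List.take_length, wv_nil, act_one, lift_zero]

theorem first_step {z w : List S} {zs : List (List S)} (hz : z ∈ p.Z) (hzs : ∀ z ∈ zs, z ∈ p.Z)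
    (e : z ++ w = zs.flatten) : ∃ zs2, zs = z :: zs2 ∧ zs2.flatten = w := by
  obtain ⟨zs', h1, h2⟩ := (p.μ.Z_code p.θ).cancel [z] zs (by simpa [Z] using hz) hzs w (by simpa using e)
  exact ⟨zs', by simpa using h1, h2⟩

theorem U_sound (v y : Vc G) : ∀ l ∈ p.E v, ∀ r ∈ p.F y, ∀ zs : List (List S),
    (∀ z ∈ zs, z ∈ p.Z) → ∀ u, l ++ r ++ u = zs.flatten →
      ∃ zs1 zs2, zs = zs1 ++ zs2 ∧ zs1.flatten = l ++ r ∧ (zs1.map p.A).prod v = y := by
  rintro l ⟨s, rfl, hl⟩ r ⟨s', j, y1, hZ, hm, hw, hx, rfl⟩ zs hzs u e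
  have hlen : l.length = p.γ.pos s := hl.1
  have a1 := p.pos_le s
  have a2 := p.pos_le s'
  have hw' := hw.inW
  have b1 := p.inW_bd hw'
  have hg := p.hg
  have ha := p.ha
  have hθ := p.hθ
  have hR := p.μ.Rpos
  obtain ⟨b, hb1, hb2, hb3, hb4⟩ := hZ
  have hjb : j ≤ b := by have := p.μ.le_len hm; omega
  have near : ∀ j', p.μ.m (r.drop j') → j' ≤ j + p.g → j ≤ j' + p.g → j' = j :=
    fun j' h1 h2 h3 => p.μ.uniq h1 hm h2 h3
  have hdrop : ∀ (w : List S) (i : ℕ), (l ++ w).drop (p.γ.pos s + i) = w.drop i := by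
    intro w i; rw [← hlen, List.drop_length_add_append]
  have htake : ∀ w : List S, (l ++ w).take (p.γ.pos s) = l := by
    intro w; rw [← hlen, List.take_left]
  have htake2 : ∀ (w : List S) (i : ℕ), (l ++ w).take (p.γ.pos s + i) = l ++ w.take i := by
    intro w i; rw [← hlen, List.take_length_add_append]
  have hdrop0 : ∀ w : List S, (l ++ w).drop (p.γ.pos s) = w := by
    intro w; rw [← hlen, List.drop_left]
  -- the one step case
  have one : l ++ r ∈ p.Z → p.hl (l ++ r) = p.γ.pos s + p.hr (p.γ.pos s') r j →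
      (s = s' → l ++ r ∈ p.K) → ∃ zs1 zs2, zs = zs1 ++ zs2 ∧ zs1.flatten = l ++ r ∧
        (zs1.map p.A).prod s.2.2 = act (wv p.φ (r.drop (p.hr (p.γ.pos s') r j))) y1 := by
    intro hz hh hK
    obtain ⟨zs2, h1, -⟩ := p.first_step hz hzs e
    refine ⟨[l ++ r], zs2, h1, by simp, ?_⟩
    have hj := p.junction (z := l ++ r) (s := s) (s' := s') (j := j) (y1 := y1)
      (by rw [hdrop]; exact hm) hw' (by rw [htake]; exact hl) (by omega)
      (by rw [hh, htake2, hdrop0]; exact hx) hK
    simp only [List.map_cons, List.map_nil, List.prod_cons, List.prod_nil, mul_one]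
    unfold A
    rw [hj, hh, hdrop]
  have hntiff : p.nt (l ++ r) (p.γ.pos s + j) ↔ p.nt r j := by
    unfold nt; rw [List.length_append, hlen]; omega
  have farj : ∀ (w : List S) (j' : ℕ), p.μ.m (w.drop j) → p.Far (l ++ w) j' →
      j' = p.γ.pos s + j := by
    intro w j' hmw hf
    exact p.μ.uniq hf.1 (by rw [hdrop]; exact hmw) (by have := hf.2.2.1; omega)
      (by have := hf.2.1; omega)
  have hKeq : s = s' → l ++ r ∈ p.K := by
    rintro rfl
    refine ⟨p.γ.pos s + j, by rw [hdrop]; exact hm, ?_⟩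
    unfold Win at hw ⊢
    rw [hntiff]
    rcases hw with h | h | h
    · exact Or.inl (by omega)
    · exact Or.inr (Or.inl ⟨by omega, by omega, h.2.2⟩)
    · exact Or.inr (Or.inr ⟨by omega, by omega, h.2.2⟩)
  have mkZ : p.θ - p.γ.pos s ≤ b → (∀ b', p.θ - p.γ.pos s ≤ b' → b' < b → ¬ p.μ.m (r.drop b')) →
      l ++ r ∈ p.Z := by
    intro h1 h2
    refine (p.μ.Z_shift l r (by omega)).2 ?_
    rw [hlen]
    exact ⟨b, h1, hb2, hb3, h2⟩
  have below : j + p.γ.pos s' < p.θ → j + p.g < b := by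
    intro h
    by_contra hc
    have := near b hb3 (by omega) (by omega)
    omega
  have nomid : j + p.γ.pos s' < p.θ → ∀ b', j < b' → b' < b → ¬ p.μ.m (r.drop b') := by
    intro h b' h1 h2 h3
    by_cases hc : p.θ - p.γ.pos s' ≤ b'
    · exact hb4 b' hc h2 h3
    · have := near b' h3 (by omega) (by omega)
      omega
  rcases hw with h | h | h
  · have hbj : b = j := by
      by_contra hc
      exact hb4 j (by omega) (by omega) hm
    refine one (mkZ (by omega) (fun b' h1 h2 h3 => ?_)) ?_ hKeq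
    · have := near b' h3 (by omega) (by omega); omega
    · rw [p.hl_none, hr, if_neg (by omega), List.length_append, hlen]
      intro j' hf
      have := farj r j' hm hf
      have := hf.2.2.1
      omega
  · have := below (by omega)
    refine one (mkZ (by omega) (fun b' h1 h2 => nomid (by omega) b' (by omega) h2)) ?_ hKeq
    rw [p.hl_none, hr, if_neg (by omega), List.length_append, hlen]
    intro j' hf
    have e2 := farj r j' hm hf
    subst e2
    exact hf.2.2.2 (hntiff.2 h.2.2)
  · have hbl := below (by omega)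
    have hhr : p.hr (p.γ.pos s') r j = j + p.μ.R := by rw [hr, if_pos ⟨h.1, h.2.1⟩]
    by_cases hlt : p.γ.pos s + j < p.θ
    · refine one (mkZ (by omega) (fun b' h1 h2 => nomid (by omega) b' (by omega) h2)) ?_ hKeq
      rw [hhr, p.hl_far (j := p.γ.pos s + j) ⟨by rw [hdrop]; exact hm, by omega, hlt,
        fun hh => h.2.2 (hntiff.1 hh)⟩]
      omega
    · rw [hhr] at hx ⊢
      have hnt : j + (p.μ.R + p.θ + p.a + p.M + p.Λ) < b := by
        have := h.2.2; unfold nt at this; omega
      have hm1 : p.μ.m ((r.take (j + p.μ.R)).drop j) := (p.μ.take_iff r le_rfl).2 hm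
      have hlen1 : (r.take (j + p.μ.R)).length = j + p.μ.R := by
        rw [List.length_take]; omega
      have hz1 : l ++ r.take (j + p.μ.R) ∈ p.Z := by
        refine (p.μ.Z_shift l _ (by omega)).2 ?_
        rw [hlen]
        refine ⟨j, by omega, hlen1, hm1, fun b' h1 h2 h3 => ?_⟩
        have := p.μ.uniq h3 hm1 (by omega) (by omega)
        omega
      have nom2 : ∀ i, i + j + p.μ.R < b → ¬ p.μ.m ((r.drop (j + p.μ.R)).drop i) := by
        intro i hi
        rw [List.drop_drop]
        exact nomid (by omega) _ (by omega) (by omega)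
      have hz2 : r.drop (j + p.μ.R) ∈ p.Z := by
        refine ⟨b - (j + p.μ.R), by omega, by rw [List.length_drop]; omega, ?_,
          fun b' _ h2 => nom2 b' (by omega)⟩
        rw [List.drop_drop]
        have : j + p.μ.R + (b - (j + p.μ.R)) = b := by omega
        rw [this]; exact hb3
      obtain ⟨zs2, h1, h2⟩ := p.first_step hz1 hzs (w := r.drop (j + p.μ.R) ++ u) (by
        rw [← e]; simp only [List.append_assoc]
        rw [← List.append_assoc (r.take _), List.take_append_drop])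
      obtain ⟨zs3, h3, -⟩ := p.first_step hz2 (zs := zs2)
        (fun z hz => hzs z (by rw [h1]; exact List.mem_cons_of_mem _ hz)) h2.symm
      refine ⟨[l ++ r.take (j + p.μ.R), r.drop (j + p.μ.R)], zs3, by rw [h1, h3]; rfl,
        by simp, ?_⟩
      have hh : p.hl (l ++ r.take (j + p.μ.R)) = (l ++ r.take (j + p.μ.R)).length := by
        refine p.hl_none (fun j' hf => ?_)
        have := farj _ j' hm1 hf
        have := hf.2.2.1
        omega
      have hj := p.junction (z := l ++ r.take (j + p.μ.R)) (s := s) (s' := s') (j := j) (y1 := y1)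
        (by rw [hdrop]; exact hm1) hw' (by rw [htake]; exact hl)
        (by rw [hh, List.length_append]; omega)
        (by rw [hh, List.take_length, hdrop0]; exact hx) (by rintro rfl; omega)
      simp only [List.map_cons, List.map_nil, List.prod_cons, List.prod_nil, mul_one, Tr.mul_app]
      rw [p.A_plain (fun i hi => nom2 i (by omega))]
      congr 1
      unfold A
      rw [hj, hh, List.drop_length, wv_nil, act_one]

theorem U_complete : ∀ z ∈ p.Z, z ∈ p.K → ∀ v, ∃ l ∈ p.E v, ∃ r ∈ p.F (p.A z v), z = l ++ r := by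
  rintro z hz hK v
  have hK' := hK
  obtain ⟨j0, hm, hw⟩ := hK'
  have b1 := p.inW_bd hw.inW
  have hg := p.hg
  have ha := p.ha
  have hθ := p.hθ
  have hΛ := p.hΛ
  have hzl := p.μ.Z_len hz
  have hml := p.μ.le_len hm
  have hfar : ∀ j', p.Far z j' → j' = j0 := fun j' hf =>
    p.μ.uniq hf.1 hm (by have := hf.2.2.1; omega) (by have := hf.2.1; omega)
  have hhl : p.hl z = if p.θ ≤ j0 + p.M ∧ j0 < p.θ then j0 + p.μ.R else z.length := by
    rcases hw with h | h | h
    · rw [if_neg (by omega)]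
      exact p.hl_none (fun j' hf => by have := hfar j' hf; have := hf.2.2.1; omega)
    · rw [if_neg (by omega)]
      exact p.hl_none (fun j' hf => by have := hfar j' hf; subst this; exact hf.2.2.2 h.2.2)
    · rw [if_pos (by omega)]
      exact p.hl_far ⟨hm, by omega, by omega, h.2.2⟩
  have hl1 : p.Λ ≤ p.hl z := by rw [hhl]; split_ifs <;> omega
  have hl2 : p.hl z ≤ z.length := by rw [hhl]; split_ifs <;> omega
  obtain ⟨s, hs, hE, hF⟩ := p.γ.X_complete p.φ p.Ψ () v (h := z.take (p.hl z))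
    (by rw [List.length_take]; omega)
  have a1 := p.pos_le s
  rw [List.take_take, min_eq_left (by omega)] at hE
  rw [Ψ_eq] at hF
  have hlen : (z.take (p.γ.pos s)).length = p.γ.pos s := by rw [List.length_take]; omega
  have hhr : p.γ.pos s + p.hr (p.γ.pos s) (z.drop (p.γ.pos s)) (j0 - p.γ.pos s) = p.hl z := by
    rw [hhl, hr, List.length_drop]
    have : j0 - p.γ.pos s + p.γ.pos s = j0 := by omega
    rw [this]
    split_ifs <;> omega
  refine ⟨z.take (p.γ.pos s), ⟨s, hs, hE⟩, z.drop (p.γ.pos s), ⟨s, j0 - p.γ.pos s,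
    lift (p.H.col (p.γ.hS p.φ (z.take (p.hl z)))) (wv p.φ (z.take (p.hl z))) v, ?_, ?_, ?_, ?_, ?_⟩,
    (List.take_append_drop _ _).symm⟩
  · have := (p.μ.Z_shift (z.take (p.γ.pos s)) (z.drop (p.γ.pos s)) (θ := p.θ) (by omega)).1
      (by rw [List.take_append_drop]; exact hz)
    rwa [hlen] at this
  · rw [List.drop_drop]
    have : p.γ.pos s + (j0 - p.γ.pos s) = j0 := by omega
    rw [this]; exact hm
  · have hnt : p.nt (z.drop (p.γ.pos s)) (j0 - p.γ.pos s) ↔ p.nt z j0 := by
      unfold nt; rw [List.length_drop]; omega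
    unfold Win at hw ⊢
    rw [hnt]
    rcases hw with h | h | h
    · exact Or.inl (by omega)
    · exact Or.inr (Or.inl ⟨by omega, by omega, h.2.2⟩)
    · exact Or.inr (Or.inr ⟨by omega, by omega, h.2.2⟩)
  · have e2 : (z.take (p.hl z)).drop (p.γ.pos s) = (z.drop (p.γ.pos s)).take
        (p.hr (p.γ.pos s) (z.drop (p.γ.pos s)) (j0 - p.γ.pos s)) := by
      rw [List.drop_take]; congr 1; omega
    rw [← e2]; exact hF
  · unfold A colU
    rw [if_pos hK, List.drop_drop, hhr]

end ZP
end Vale.Agent.P329
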