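import Vale.Agent.P329.Hash
import Vale.Agent.P329.Simple

/-! Handing threads over when both sides see the same clock. -/

namespace Vale.Agent.P329

/-- slots: a cell, a residue and a thread -/
abbrev Slot {G W V : Type} (H : Hash G W V) : Type := Fin H.n × ZMod H.M × V

/-- cell boundaries and slot places -/
structure Geo {G W V : Type} (H : Hash G W V) where
  cb : ℕ → ℕ
  pos : Slot H → ℕ
  mono : Monotone cb
  lo : ∀ a : Slot H, cb a.1 ≤ pos a
  hi : ∀ a : Slot H, pos a ≤ cb (a.1 + 1)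

theorem Geo.pos_le {G W V : Type} {H : Hash G W V} (γ : Geo H) (a : Slot H) :
    γ.pos a ≤ γ.cb H.n :=
  (γ.hi a).trans (γ.mono a.1.2)

theorem xc_index {G W V : Type} [Finite V] (H : Hash G W V) :
    ∃ (K : ℕ) (k : Slot H → ℕ), Function.Injective k ∧ (∀ a, a.1 * K ≤ k a) ∧
      ∀ a, k a ≤ (a.1 + 1) * K := by
  obtain ⟨K, ⟨e⟩⟩ := Finite.exists_equiv_fin (ZMod H.M × V)
  refine ⟨K, fun a => a.1 * K + e a.2, fun a a' h => ?_, fun a => Nat.le_add_right _ _,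
    fun a => ?_⟩
  · have h1 := (e a.2).2
    have h2 := (e a'.2).2
    have h3 : (e a.2 : ℕ) = e a'.2 := by
      have := congrArg (· % K) h
      simpa [Nat.mul_add_mod', Nat.mod_eq_of_lt h1, Nat.mod_eq_of_lt h2] using this
    have h4 : (a.1 : ℕ) * K = a'.1 * K := by simp only at h; omega
    exact Prod.ext (Fin.ext (Nat.eq_of_mul_eq_mul_right (by omega) h4)) (e.injective (Fin.ext h3))
  · have h1 := (e a.2).2
    simp only [Nat.add_mul]
    omega

theorem xc_div {wd i j p q : ℕ} (hi : i < wd) (hj : j < wd) (h : i + wd * p = j + wd * q) :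
    i = j ∧ p = q := by
  have h1 : i = j := by
    have := congrArg (· % wd) h
    simpa [Nat.mod_eq_of_lt hi, Nat.mod_eq_of_lt hj] using this
  exact ⟨h1, Nat.eq_of_mul_eq_mul_left (by omega : 0 < wd) (by omega)⟩

theorem xc_pow {p q r s : ℕ} (h : 2 ^ p + 2 ^ q = 2 ^ r + 2 ^ s) :
    (p = s ∧ q = r) ∨ (p = r ∧ q = s) := by
  have key : ∀ p q r s : ℕ, p ≤ q → 2 ^ p + 2 ^ q = 2 ^ r + 2 ^ s → s ≤ q := by
    intro p q r s h1 h2
    by_contra h3
    have h4 : 2 ^ p ≤ 2 ^ q := Nat.pow_le_pow_right (by norm_num) h1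
    have h5 : 2 ^ (q + 1) ≤ 2 ^ s := Nat.pow_le_pow_right (by norm_num) (by omega)
    have h6 : 0 < 2 ^ r := by positivity
    omega
  have inj : ∀ p q : ℕ, 2 ^ p = 2 ^ q → p = q := fun p q h => Nat.pow_right_injective le_rfl h
  rcases le_total p q with h1 | h1 <;> rcases le_total r s with h2 | h2
  · obtain rfl : q = s := le_antisymm (key r s p q h2 h.symm) (key p q r s h1 h)
    exact Or.inr ⟨inj _ _ (by omega), rfl⟩
  · obtain rfl : q = r := le_antisymm (key s r p q h2 (by omega)) (key p q s r h1 (by omega))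
    exact Or.inl ⟨inj _ _ (by omega), rfl⟩
  · obtain rfl : p = s := le_antisymm (key r s q p h2 (by omega)) (key q p r s h1 (by omega))
    exact Or.inl ⟨rfl, inj _ _ (by omega)⟩
  · obtain rfl : p = r := le_antisymm (key s r q p h2 (by omega)) (key q p s r h1 (by omega))
    exact Or.inr ⟨rfl, inj _ _ (by omega)⟩

/-- slots far apart -/
theorem exists_geo_thick {G W V : Type} [Finite V] (H : Hash G W V) (c0 wd : ℕ) :
    ∃ γ : Geo H, γ.cb 0 = c0 ∧ ∀ (a a' : Slot H) (i j : ℕ), i < wd → j < wd →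
      i + γ.pos a = j + γ.pos a' → a = a' := by
  obtain ⟨K, k, h1, h2, h3⟩ := xc_index H
  refine ⟨⟨fun t => c0 + wd * (t * K), fun a => c0 + wd * k a, fun s t h => ?_, fun a => ?_,
    fun a => ?_⟩, by simp, fun a a' i j hi hj h => h1 (xc_div hi hj ?_).2⟩
  · simp only
    gcongr
  · have := h2 a
    gcongr
  · have := h3 a
    gcongr
  · simp only at h
    omega

/-- slots with distinct differences -/
theorem exists_geo_sidon {G W V : Type} [Finite V] (H : Hash G W V) (wd : ℕ) :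
    ∃ γ : Geo H, ∀ (a a' c c' : Slot H) (i j : ℕ), i < wd → j < wd →
      i + γ.pos a + γ.pos c' = j + γ.pos c + γ.pos a' →
        i = j ∧ ((a = a' ∧ c = c') ∨ (a = c ∧ a' = c')) := by
  obtain ⟨K, k, h1, h2, h3⟩ := xc_index H
  refine ⟨⟨fun t => wd * 2 ^ (t * K), fun a => wd * 2 ^ k a, fun s t h => ?_, fun a => ?_,
    fun a => ?_⟩, fun a a' c c' i j hi hj h => ?_⟩
  · simp only
    gcongr
    norm_num
  · have := h2 a
    gcongr
    norm_num
  · have := h3 a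
    gcongr
    norm_num
  · obtain ⟨h4, h5⟩ := xc_div (p := 2 ^ k a + 2 ^ k c') (q := 2 ^ k c + 2 ^ k a') hi hj (by
      simp only at h
      rw [Nat.mul_add, Nat.mul_add]
      omega)
    refine ⟨h4, (xc_pow h5).imp (fun h => ⟨h1 h.1, h1 h.2.symm⟩) fun h => ⟨h1 h.1, h1 h.2.symm⟩⟩

namespace Geo
variable {T G Tg Go : Type} [Monoid G] [Monoid Go] {H : Hash G (Tg × G) (Vc Go)} (γ : Geo H)
  (ψ : T → G)

/-- the value of cell `t` read in a word that starts at place `p` -/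
def cell (p : ℕ) (r : List T) (t : ℕ) : G :=
  wv ψ ((r.take (γ.cb (t + 1) - p)).drop (γ.cb t - p))

/-- the hash of a word -/
def hS (h : List T) : ZMod H.M := ∑ t ∈ Finset.range H.n, H.x ^ t * H.ι (γ.cell ψ 0 h t)

/-- left parts ending at slot `a` -/
def XE (Ψ : Tg → List T → G → Go) (a : Slot H) : Set (List T) :=
  {l | l.length = γ.pos a ∧
    H.LeftOK (fun g p => Ψ p.1 (l.take (γ.cb 0))
        (wv ψ ((l.take (γ.cb a.1)).drop (γ.cb 0)) * g * p.2)) a.1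
      (∑ t ∈ Finset.range a.1, H.x ^ t * H.ι (γ.cell ψ 0 l t)) a.2.1 a.2.2}

/-- right parts starting at slot `a`, with tag `τ` and output `y` -/
def XF (a : Slot H) (τ : Tg) (y : Vc Go) : Set (List T) :=
  {r | (∑ d ∈ Finset.range (H.n - a.1 - 1),
        H.x ^ (d + 1) * H.ι (γ.cell ψ (γ.pos a) r (a.1 + 1 + d))) - a.2.1
      = H.ζ y (τ, wv ψ (r.drop (γ.cb (a.1 + 1) - γ.pos a)))}

omit [Monoid Go] in
theorem cell_left {l : List T} (r : List T) {t : ℕ} (h : γ.cb (t + 1) ≤ l.length) :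
    γ.cell ψ 0 (l ++ r) t = γ.cell ψ 0 l t := by
  rw [cell, cell, List.take_append_of_le_length (by omega)]

omit [Monoid Go] in
theorem cell_right (l r : List T) {t : ℕ} (h : l.length ≤ γ.cb t) :
    γ.cell ψ 0 (l ++ r) t = γ.cell ψ l.length r t := by
  have h1 : γ.cb t ≤ γ.cb (t + 1) := γ.mono (Nat.le_succ t)
  rw [cell, cell, Nat.sub_zero, Nat.sub_zero, List.take_append, List.take_of_length_le (by omega),
    List.drop_append, List.drop_of_length_le h, List.nil_append]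

omit [Monoid Go] in
theorem hS_split (h : List T) {i : ℕ} (hi : i < H.n) :
    γ.hS ψ h = (∑ t ∈ Finset.range i, H.x ^ t * H.ι (γ.cell ψ 0 h t)) + H.x ^ i *
      ((∑ d ∈ Finset.range (H.n - i - 1), H.x ^ (d + 1) * H.ι (γ.cell ψ 0 h (i + 1 + d))) +
        H.ι (γ.cell ψ 0 h i)) := by
  have e : H.n = i + 1 + (H.n - i - 1) := by omega
  rw [hS]
  conv_lhs => rw [e]
  rw [Finset.sum_range_add, Finset.sum_range_succ, mul_add, Finset.mul_sum, add_assoc,
    add_comm (H.x ^ i * _)]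
  congr 2
  refine Finset.sum_congr rfl fun d _ => ?_
  ring

omit [Monoid Go] in
theorem wv_split (h : List T) (i : ℕ) : wv ψ (h.drop (γ.cb 0)) =
    wv ψ ((h.take (γ.cb i)).drop (γ.cb 0)) * γ.cell ψ 0 h i * wv ψ (h.drop (γ.cb (i + 1))) := by
  rw [wv_drop_split ψ (γ.mono (Nat.zero_le i)) h, wv_drop_split ψ (γ.mono (Nat.le_succ i)) h,
    mul_assoc]
  rfl

theorem XE_iff (Ψ : Tg → List T → G → Go) (a : Slot H) {l : List T} (r : List T)
    (hl : l.length = γ.pos a) : l ∈ γ.XE ψ Ψ a ↔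
      H.LeftOK (fun g p => Ψ p.1 ((l ++ r).take (γ.cb 0))
        (wv ψ (((l ++ r).take (γ.cb a.1)).drop (γ.cb 0)) * g * p.2)) a.1
      (∑ t ∈ Finset.range a.1, H.x ^ t * H.ι (γ.cell ψ 0 (l ++ r) t)) a.2.1 a.2.2 := by
  have h1 := γ.lo a
  have h2 : γ.cb 0 ≤ γ.cb a.1 := γ.mono (Nat.zero_le _)
  rw [List.take_append_of_le_length (by omega), List.take_append_of_le_length (by omega),
    Finset.sum_congr rfl fun t ht => by
      rw [γ.cell_left ψ r ((γ.mono (Finset.mem_range.1 ht)).trans (by omega))]]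
  exact and_iff_right hl

omit [Monoid Go] in
theorem XF_iff (a : Slot H) (τ : Tg) (y : Vc Go) {l : List T} (r : List T)
    (hl : l.length = γ.pos a) : r ∈ γ.XF ψ a τ y ↔
      (∑ d ∈ Finset.range (H.n - a.1 - 1),
        H.x ^ (d + 1) * H.ι (γ.cell ψ 0 (l ++ r) (a.1 + 1 + d))) - a.2.1
      = H.ζ y (τ, wv ψ ((l ++ r).drop (γ.cb (a.1 + 1)))) := by
  have h1 := γ.hi a
  rw [List.drop_append, List.drop_of_length_le (by omega), List.nil_append,
    Finset.sum_congr rfl fun d _ => by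
      rw [γ.cell_right ψ l r (hl.le.trans (h1.trans (γ.mono (Nat.le_add_right _ d))))], hl]
  rfl

theorem X_sound (Ψ : Tg → List T → G → Go) (a : Slot H) (τ : Tg) (y : Vc Go) {l r : List T}
    (hl : l ∈ γ.XE ψ Ψ a) (hr : r ∈ γ.XF ψ a τ y) :
    lift (H.col (γ.hS ψ (l ++ r)))
      (Ψ τ ((l ++ r).take (γ.cb 0)) (wv ψ ((l ++ r).drop (γ.cb 0)))) a.2.2 = y := by
  have h1 := (γ.XE_iff ψ Ψ a r hl.1).1 hl y (τ, wv ψ ((l ++ r).drop (γ.cb (a.1 + 1))))
    (γ.cell ψ 0 (l ++ r) a.1)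
  rw [← (γ.XF_iff ψ a τ y r hl.1).1 hr, add_sub_cancel, ← γ.hS_split ψ _ a.1.2] at h1
  rwa [γ.wv_split ψ _ a.1]

theorem X_complete (Ψ : Tg → List T → G → Go) (τ : Tg) (v : Vc Go) {h : List T}
    (hh : γ.cb H.n ≤ h.length) :
    ∃ a : Slot H, a.2.2 = v ∧ h.take (γ.pos a) ∈ γ.XE ψ Ψ a ∧
      h.drop (γ.pos a) ∈ γ.XF ψ a τ (lift (H.col (γ.hS ψ h))
        (Ψ τ (h.take (γ.cb 0)) (wv ψ (h.drop (γ.cb 0)))) v) := by
  obtain ⟨i, hi, h1⟩ := H.complete (γ.hS ψ h)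
    (Ψ τ (h.take (γ.cb 0)) (wv ψ (h.drop (γ.cb 0)))) v
  let a : Slot H := (⟨i, hi⟩, (∑ d ∈ Finset.range (H.n - i - 1),
    H.x ^ (d + 1) * H.ι (γ.cell ψ 0 h (i + 1 + d))) - H.ζ (lift (H.col (γ.hS ψ h))
      (Ψ τ (h.take (γ.cb 0)) (wv ψ (h.drop (γ.cb 0)))) v) (τ, wv ψ (h.drop (γ.cb (i + 1)))), v)
  have hl : (h.take (γ.pos a)).length = γ.pos a := by
    rw [List.length_take, min_eq_left ((γ.pos_le a).trans hh)]
  refine ⟨a, rfl, (γ.XE_iff ψ Ψ a (h.drop (γ.pos a)) hl).2 ?_, (γ.XF_iff ψ a τ _ _ hl).2 ?_⟩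
  · rw [List.take_append_drop]
    refine h1 _ _ _ (τ, wv ψ (h.drop (γ.cb (i + 1)))) (γ.cell ψ 0 h i) ?_ ?_
    · rw [γ.wv_split ψ h i]
    · simp only [a, sub_add_cancel]
      exact γ.hS_split ψ h hi
  · rw [List.take_append_drop]
    simp only [a, sub_sub_cancel]

omit [Monoid Go] in
theorem cell_inv (p : ℕ) {t : ℕ} (ht : t < H.n) {w w' : List T}
    (h : w.take (γ.cb H.n) = w'.take (γ.cb H.n)) : γ.cell ψ p w t = γ.cell ψ p w' t := by
  rw [cell, cell, take_of_take ((Nat.sub_le _ _).trans (γ.mono ht)) h]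

theorem XF_inv (a : Slot H) (τ : Tg) (y : Vc Go) :
    Inv ψ (γ.cb H.n) (fun r => r ∈ γ.XF ψ a τ y) := by
  intro w w' h1 h2
  have h3 := Inv.wv_drop (ψ := ψ) ((Nat.sub_le _ (γ.pos a)).trans (γ.mono a.1.2)) w w' h1 h2
  simp only [XF, Set.mem_ofPred_eq] at h3 ⊢
  rw [h3, Finset.sum_congr rfl fun d hd => by
    rw [γ.cell_inv ψ (γ.pos a) (by have := Finset.mem_range.1 hd; omega) h1]]

theorem XF_uniq (a : Slot H) (τ : Tg) {y y' : Vc Go} {r : List T}
    (h : r ∈ γ.XF ψ a τ y) (h' : r ∈ γ.XF ψ a τ y') : y = y' :=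
  H.inj _ _ _ (h.symm.trans h')

theorem hS_inv : Inv ψ (γ.cb H.n) (γ.hS ψ) := fun _ _ h1 _ =>
  Finset.sum_congr rfl fun _ ht => by rw [γ.cell_inv ψ 0 (Finset.mem_range.1 ht) h1]

end Geo

end Vale.Agent.P329
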