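import Vale.Agent.P329.Tok

/-! The outermost level: zones with a marker in one of three narrow windows. -/

namespace Vale.Agent.P329

/-- all data of the zone level -/
structure ZP (S G : Type) [Monoid G] where
  φ : S → G
  M : ℕ
  Mpos : 0 < M
  H : Hash G (Unit × G) (Vc G)
  γ : Geo H
  sid : ∀ (a a' c c' : Slot H) (i j : ℕ), i < M → j < M →
      i + γ.pos a + γ.pos c' = j + γ.pos c + γ.pos a' →
        i = j ∧ ((a = a' ∧ c = c') ∨ (a = c ∧ a' = c'))
  Λ : ℕ
  hΛ : γ.cb H.n ≤ Λ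
  a : ℕ
  ha : 2 * Λ + 2 * M ≤ a
  θ : ℕ
  hθ : a + M + 2 * Λ ≤ θ
  g : ℕ
  hg : 2 * a + 2 * M + 2 * Λ ≤ g
  μ : Mk S g

/-- a chosen element of a predicate, or zero -/
noncomputable def pick {X : Type} [Zero X] (p : X → Prop) : X :=
  open Classical in if h : ∃ x, p x then h.choose else 0

namespace ZP
variable {S G : Type} [Monoid G] (p : ZP S G)

/-- the zones -/
def Z : Set (List S) := p.μ.Z p.θ

/-- the word ends soon after place `j` -/
def nt (u : List S) (j : ℕ) : Prop :=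
  u.length ≤ j + (p.μ.R + p.θ + p.a + p.M + p.Λ) + p.μ.R

/-- the three windows, for a word `u` that starts at place `e` of the zone -/
def Win (e : ℕ) (u : List S) (j : ℕ) : Prop :=
  (p.θ + p.a ≤ j + e ∧ j + e < p.θ + p.a + p.M) ∨
  (p.θ ≤ j + e + p.a + p.M ∧ j + e + p.a < p.θ ∧ p.nt u j) ∨
  (p.θ ≤ j + e + p.M ∧ j + e < p.θ ∧ ¬ p.nt u j)

/-- zones cut at the outermost level -/
def K : Set (List S) := {z | ∃ j, p.μ.m (z.drop j) ∧ p.Win 0 z j}

/-- the middle window, for a word `u` that starts at place `e` of the zone -/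
def Dc (e : ℕ) (u : List S) : Prop :=
  ∃ j, p.μ.m (u.drop j) ∧ ((p.θ ≤ j + e ∧ j + e < p.θ + p.a) ∨
    (p.θ ≤ j + e + p.a ∧ j + e < p.θ ∧ p.nt u j))

/-- the remaining zones -/
def C1 : Set (List S) := p.Z \ p.K

/-- remaining zones with a marker in the middle window -/
def D : Set (List S) := {z | z ∈ p.C1 ∧ p.Dc 0 z}

/-- a marker just below the threshold followed by a long gap -/
def Far (z : List S) (j : ℕ) : Prop :=
  p.μ.m (z.drop j) ∧ p.θ ≤ j + p.M + p.Λ ∧ j < p.θ ∧ ¬ p.nt z j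

/-- length of the head of a zone -/
noncomputable def hl (z : List S) : ℕ :=
  open Classical in if h : ∃ j, p.Far z j then h.choose + p.μ.R else z.length

/-- the values of heads -/
def Ψ (_ : Unit) (u : List S) (x : G) : G := wv p.φ u * x

/-- a window place, without the length condition -/
def InW (k : ℕ) : Prop :=
  (p.θ + p.a ≤ k ∧ k < p.θ + p.a + p.M) ∨ (p.θ ≤ k + p.a + p.M ∧ k + p.a < p.θ) ∨
  (p.θ ≤ k + p.M ∧ k < p.θ)

/-- the false junctions of a zone -/
def J (z : List S) (q : Vc G × Vc G) : Prop :=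
  ∃ (s s' : Slot p.H) (j : ℕ), s ≠ s' ∧ q.1 = s.2.2 ∧ p.InW (j + p.γ.pos s') ∧
    p.μ.m (z.drop (p.γ.pos s + j)) ∧
    (z.take (p.hl z)).drop (p.γ.pos s) ∈ p.γ.XF p.φ s' () q.2

/-- the pair of threads fixed by a zone -/
noncomputable def colU (z : List S) : Vc G × Vc G :=
  open Classical in if z ∈ p.K then p.H.col (p.γ.hS p.φ (z.take (p.hl z))) else pick (p.J z)

/-- the thread map of a zone -/
noncomputable def A (z : List S) : Tr (Vc G) := fun v =>
  act (wv p.φ (z.drop (p.hl z))) (lift (p.colU z) (wv p.φ (z.take (p.hl z))) v)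

/-- left parts -/
def E (v : Vc G) : Set (List S) := {l | ∃ s : Slot p.H, s.2.2 = v ∧ l ∈ p.γ.XE p.φ p.Ψ s}

/-- length of the head of a right part -/
def hr (e : ℕ) (r : List S) (j : ℕ) : ℕ :=
  if p.θ ≤ j + e + p.M ∧ j + e < p.θ then j + p.μ.R else r.length

/-- right parts -/
def F (y : Vc G) : Set (List S) :=
  {r | ∃ (s : Slot p.H) (j : ℕ) (y1 : Vc G), r ∈ p.μ.Z (p.θ - p.γ.pos s) ∧ p.μ.m (r.drop j) ∧
    p.Win (p.γ.pos s) r j ∧ r.take (p.hr (p.γ.pos s) r j) ∈ p.γ.XF p.φ s () y1 ∧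
    y = act (wv p.φ (r.drop (p.hr (p.γ.pos s) r j))) y1}

/-- right parts of zones outside the middle window -/
def RN : Set (List S) := {u | ∀ e < p.M, u ∈ p.μ.Z (p.θ - e) ∧ ¬ p.Dc e u}

theorem A_lin (z : List S) (v : Vc G) : p.A z v = act (wv p.φ z) v + p.A z 0 := by
  unfold A
  rw [lift_lin, act_add, ← act_mul, wv_take_drop]

end ZP

end Vale.Agent.P329
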